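import Vale.Agent.P317.Poincare

/-! The Metropolis chain and its convergence. -/

namespace Vale.Agent.P317

open Finset

variable {Y : Type}

theorem mv_mv {m : ℕ} (σ : Fin m → Y) (j k : Fin m) (y : Y) : mv (mv σ j k y) k j (σ k) = σ := by
  funext l
  by_cases h1 : l = k
  · subst h1; simp [mv]
  · by_cases h2 : l = j
    · subst h2
      simp [mv, Function.update_of_ne h1, Function.update_of_ne (Ne.symm h1)]
    · simp [mv, Function.update_of_ne h1, Function.update_of_ne h2]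

variable [Fintype Y]

theorem sum_mv_symm {m : ℕ} (F : (Fin m → Y) → (Fin m → Y) → ℝ) :
    ∑ σ, ∑ j, ∑ k, ∑ y, F σ (mv σ j k y) = ∑ σ, ∑ j, ∑ k, ∑ y, F (mv σ j k y) σ := by
  let ι : (Fin m → Y) × Fin m × Fin m × Y → (Fin m → Y) × Fin m × Fin m × Y :=
    fun p => (mv p.1 p.2.1 p.2.2.1 p.2.2.2, p.2.2.1, p.2.1, p.1 p.2.2.1)
  have hι : Function.Involutive ι := by
    rintro ⟨σ, j, k, y⟩
    simp only [ι, mv_mv]
    simp [mv]
  have := Equiv.sum_comp (hι.toPerm ι) fun p : (Fin m → Y) × Fin m × Fin m × Y =>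
    F p.1 (mv p.1 p.2.1 p.2.2.1 p.2.2.2)
  simp only [Fintype.sum_prod_type] at this
  rw [← this]
  simp only [Function.Involutive.coe_toPerm, ι, mv_mv]

/-- The Metropolis acceptance probability. -/
noncomputable def acc {m : ℕ} (C : Fin m → Y → ℝ) (G : Multiset Y → ℝ) (σ σ' : Fin m → Y) : ℝ :=
  min 1 (wt C G σ' / wt C G σ)

/-- One step of the chain, acting on functions; each move is proposed with probability `ρ`. -/
noncomputable def Pk {m : ℕ} (ρ : ℝ) (C : Fin m → Y → ℝ) (G : Multiset Y → ℝ)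
    (ψ : (Fin m → Y) → ℝ) (σ : Fin m → Y) : ℝ :=
  ψ σ + ρ * ∑ j, ∑ k, ∑ y, acc C G σ (mv σ j k y) * (ψ (mv σ j k y) - ψ σ)

section
variable {m : ℕ} {ρ : ℝ} {C : Fin m → Y → ℝ} {G : Multiset Y → ℝ}

omit [Fintype Y] in
theorem wt_mul_acc (hw : ∀ σ, 0 ≤ wt C G σ) (σ σ' : Fin m → Y) :
    wt C G σ * acc C G σ σ' = min (wt C G σ) (wt C G σ') := by
  rcases (hw σ).eq_or_lt with h | h
  · rw [← h, zero_mul, min_eq_left (hw σ')]
  · rw [acc, mul_min_of_nonneg _ _ h.le, mul_one, mul_div_cancel₀ _ h.ne']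

omit [Fintype Y] in
theorem acc_nonneg (hw : ∀ σ, 0 ≤ wt C G σ) (σ σ' : Fin m → Y) : 0 ≤ acc C G σ σ' :=
  le_min zero_le_one (div_nonneg (hw _) (hw _))

theorem Pk_affine {ι : Type} (s : Finset ι) (a : ℝ) (b : ι → ℝ) (ψ : ι → (Fin m → Y) → ℝ) :
    Pk ρ C G (fun σ => a + ∑ i ∈ s, b i * ψ i σ) =
      fun σ => a + ∑ i ∈ s, b i * Pk ρ C G (ψ i) σ := by
  funext σ
  simp only [Pk, mul_add, sum_add_distrib, add_assoc]
  congr 2
  have : ∀ σ' : Fin m → Y, acc C G σ σ' * (a + ∑ i ∈ s, b i * ψ i σ' -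
      (a + ∑ i ∈ s, b i * ψ i σ)) = ∑ i ∈ s, b i * (acc C G σ σ' * (ψ i σ' - ψ i σ)) := by
    intro σ'
    rw [add_sub_add_left_eq_sub, ← sum_sub_distrib, mul_sum]
    exact sum_congr rfl fun i _ => by ring
  simp only [this, mul_sum]
  rw [sum_comm (s := s)]
  refine sum_congr rfl fun j _ => ?_
  rw [sum_comm (s := s)]
  refine sum_congr rfl fun k _ => ?_
  rw [sum_comm (s := s)]
  exact sum_congr rfl fun y _ => sum_congr rfl fun i _ => by ring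

theorem Pk_iter_affine {ι : Type} (s : Finset ι) (a : ℝ) (b : ι → ℝ)
    (ψ : ι → (Fin m → Y) → ℝ) (T : ℕ) :
    (Pk ρ C G)^[T] (fun σ => a + ∑ i ∈ s, b i * ψ i σ) =
      fun σ => a + ∑ i ∈ s, b i * (Pk ρ C G)^[T] (ψ i) σ := by
  induction T with
  | zero => rfl
  | succ T ih => simp only [Function.iterate_succ_apply', ih, Pk_affine]

theorem sum_wt_Pk (hw : ∀ σ, 0 ≤ wt C G σ) (ψ : (Fin m → Y) → ℝ) :
    ∑ σ, wt C G σ * Pk ρ C G ψ σ = ∑ σ, wt C G σ * ψ σ := by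
  have h1 : ∑ σ, wt C G σ * Pk ρ C G ψ σ = ∑ σ, wt C G σ * ψ σ + ρ * ∑ σ, ∑ j, ∑ k, ∑ y,
      min (wt C G σ) (wt C G (mv σ j k y)) * (ψ (mv σ j k y) - ψ σ) := by
    rw [mul_sum, ← sum_add_distrib]
    refine sum_congr rfl fun σ _ => ?_
    simp only [Pk, ← wt_mul_acc hw, mul_assoc, ← mul_sum]
    ring
  have h2 := sum_mv_symm fun σ σ' : Fin m → Y => min (wt C G σ) (wt C G σ') * (ψ σ' - ψ σ)
  have h3 : ∑ σ, ∑ j, ∑ k, ∑ y, min (wt C G (mv σ j k y)) (wt C G σ) * (ψ σ - ψ (mv σ j k y)) =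
      -∑ σ, ∑ j, ∑ k, ∑ y, min (wt C G σ) (wt C G (mv σ j k y)) * (ψ (mv σ j k y) - ψ σ) := by
    simp only [← sum_neg_distrib]
    refine sum_congr rfl fun σ _ => sum_congr rfl fun j _ => sum_congr rfl fun k _ =>
      sum_congr rfl fun y _ => ?_
    rw [min_comm]; ring
  rw [h1]
  have : ∑ σ, ∑ j, ∑ k, ∑ y,
      min (wt C G σ) (wt C G (mv σ j k y)) * (ψ (mv σ j k y) - ψ σ) = 0 := by linarith
  rw [this]; ring

theorem Pk_sq_le (hw : ∀ σ, 0 ≤ wt C G σ) (hρ0 : 0 ≤ ρ)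
    (hρ : ρ * (m * m * Fintype.card Y) ≤ 1 / 2) (ψ : (Fin m → Y) → ℝ) (σ : Fin m → Y) :
    Pk ρ C G ψ σ ^ 2 ≤ Pk ρ C G (fun σ => ψ σ ^ 2) σ -
      (ρ / 2) * ∑ j, ∑ k, ∑ y, acc C G σ (mv σ j k y) * (ψ σ - ψ (mv σ j k y)) ^ 2 := by
  let p : Fin m × Fin m × Y → ℝ := fun μ => acc C G σ (mv σ μ.1 μ.2.1 μ.2.2)
  let δ : Fin m × Fin m × Y → ℝ := fun μ => ψ (mv σ μ.1 μ.2.1 μ.2.2) - ψ σ
  have hp : ∀ μ, 0 ≤ p μ := fun μ => acc_nonneg hw _ _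
  have e1 : ∑ j, ∑ k, ∑ y, acc C G σ (mv σ j k y) * (ψ (mv σ j k y) - ψ σ) = ∑ μ, p μ * δ μ := by
    simp only [Fintype.sum_prod_type, p, δ]
  have e2 : ∑ j, ∑ k, ∑ y, acc C G σ (mv σ j k y) * (ψ σ - ψ (mv σ j k y)) ^ 2 =
      ∑ μ, p μ * δ μ ^ 2 := by
    simp only [Fintype.sum_prod_type, p, δ]
    exact sum_congr rfl fun j _ => sum_congr rfl fun k _ => sum_congr rfl fun y _ => by ring
  have e3 : ∑ j, ∑ k, ∑ y, acc C G σ (mv σ j k y) * (ψ (mv σ j k y) ^ 2 - ψ σ ^ 2) =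
      ∑ μ, p μ * δ μ ^ 2 + 2 * ψ σ * ∑ μ, p μ * δ μ := by
    simp only [Fintype.sum_prod_type, p, δ, mul_sum, ← sum_add_distrib]
    exact sum_congr rfl fun j _ => sum_congr rfl fun k _ => sum_congr rfl fun y _ => by ring
  have cs : (∑ μ, p μ * δ μ) ^ 2 ≤ (∑ μ, p μ) * ∑ μ, p μ * δ μ ^ 2 :=
    sum_sq_le_sum_mul_sum_of_sq_le_mul univ (fun μ _ => hp μ)
      (fun μ _ => mul_nonneg (hp μ) (sq_nonneg _)) (fun μ _ => le_of_eq (by ring))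
  have hsum : ∑ μ, p μ ≤ m * m * Fintype.card Y := by
    have := sum_le_card_nsmul univ p 1 fun μ _ => min_le_left _ _
    simp only [card_univ, Fintype.card_prod, Fintype.card_fin, nsmul_eq_mul, mul_one] at this
    push_cast at this
    linarith
  have hB : 0 ≤ ∑ μ, p μ * δ μ ^ 2 := sum_nonneg fun μ _ => mul_nonneg (hp μ) (sq_nonneg _)
  simp only [Pk]
  rw [e1, e2, e3]
  set A := ∑ μ, p μ * δ μ
  set B := ∑ μ, p μ * δ μ ^ 2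
  have h1 : ρ * ∑ μ, p μ ≤ 1 / 2 := (mul_le_mul_of_nonneg_left hsum hρ0).trans hρ
  have h2 : ρ ^ 2 * A ^ 2 ≤ ρ / 2 * B := by
    have := mul_le_mul_of_nonneg_left cs (sq_nonneg ρ)
    have h3 := mul_le_mul_of_nonneg_right h1 (mul_nonneg hρ0 hB)
    nlinarith
  nlinarith

theorem contract (hw : ∀ σ, 0 ≤ wt C G σ) (hρ0 : 0 ≤ ρ)
    (hρ : ρ * (m * m * Fintype.card Y) ≤ 1 / 2) (ψ : (Fin m → Y) → ℝ) :
    ∑ σ, wt C G σ * Pk ρ C G ψ σ ^ 2 ≤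
      ∑ σ, wt C G σ * ψ σ ^ 2 - (ρ / 2) * ∑ j, ∑ k, DDj C G ψ j k := by
  rw [← sum_wt_Pk (ρ := ρ) hw fun σ => ψ σ ^ 2]
  have : ∑ j, ∑ k, DDj C G ψ j k = ∑ σ, wt C G σ *
      ∑ j, ∑ k, ∑ y, acc C G σ (mv σ j k y) * (ψ σ - ψ (mv σ j k y)) ^ 2 := by
    simp only [DDj, mul_sum, ← mul_assoc, wt_mul_acc hw]
    conv_rhs => rw [sum_comm]
    refine sum_congr rfl fun j _ => ?_
    rw [sum_comm]
  rw [this, mul_sum, ← sum_sub_distrib]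
  refine sum_le_sum fun σ _ => ?_
  have := mul_le_mul_of_nonneg_left (Pk_sq_le hw hρ0 hρ ψ σ) (hw σ)
  linarith

theorem mixing [Nonempty Y] (hG : Good G m) (hC : ∀ k y, 0 < C k y) {K : ℝ} (hK1 : 1 ≤ K)
    (hK : ∀ j k y, C j y ≤ K * C k y) (hρ0 : 0 ≤ ρ)
    (hρ : ρ * (m * m * Fintype.card Y) ≤ 1 / 2) {γ : ℝ}
    (hγ : γ * (2 + 2 * m ^ 2 * K ^ 2) ≤ ρ / 2) (hγ1 : γ ≤ 1) (ψ : (Fin m → Y) → ℝ) (t : ℝ)
    (ht : ∑ σ, wt C G σ * (ψ σ - t) = 0) (T : ℕ) :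
    ∑ σ, wt C G σ * ((Pk ρ C G)^[T] ψ σ - t) = 0 ∧
    ∑ σ, wt C G σ * ((Pk ρ C G)^[T] ψ σ - t) ^ 2 ≤ (1 - γ) ^ T * ∑ σ, wt C G σ * (ψ σ - t) ^ 2 := by
  have hC0 : ∀ k y, 0 ≤ C k y := fun k y => (hC k y).le
  have hw : ∀ σ, 0 ≤ wt C G σ := wt_nonneg hC0 hG.nonneg
  induction T with
  | zero => exact ⟨ht, by simp⟩
  | succ T ih =>
    set φ := (Pk ρ C G)^[T] ψ with hφ
    have e : ∀ σ, (Pk ρ C G)^[T + 1] ψ σ - t = Pk ρ C G (fun σ => φ σ - t) σ := by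
      intro σ
      rw [Function.iterate_succ_apply', ← hφ]
      simp only [Pk, sub_sub_sub_cancel_right]
      ring
    simp only [e]
    refine ⟨by rw [sum_wt_Pk hw, ih.1], ?_⟩
    have h1 := contract hw hρ0 hρ fun σ => φ σ - t
    have h2 := poincare hK1 (le_refl m) hG hC hK φ t ih.1
    have h3 : ∑ j, ∑ k, DDj C G (fun σ => φ σ - t) j k = ∑ j, ∑ k, DDj C G φ j k := by
      simp only [DDj, sub_sub_sub_cancel_right]
    rw [h3] at h1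
    have hD : 0 ≤ ∑ j, ∑ k, DDj C G φ j k :=
      sum_nonneg fun j _ => sum_nonneg fun k _ => DDj_nonneg hC0 hG.nonneg _ _ _
    have hV : 0 ≤ ∑ σ, wt C G σ * (φ σ - t) ^ 2 :=
      sum_nonneg fun σ _ => mul_nonneg (hw σ) (sq_nonneg _)
    have h4 : γ * ∑ σ, wt C G σ * (φ σ - t) ^ 2 ≤ ρ / 2 * ∑ j, ∑ k, DDj C G φ j k := by
      rcases le_total γ 0 with h | h
      · exact (mul_nonpos_of_nonpos_of_nonneg h hV).trans (by positivity)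
      · have := mul_le_mul_of_nonneg_left h2 h
        have := mul_le_mul_of_nonneg_right hγ hD
        linarith
    have h5 := mul_le_mul_of_nonneg_left ih.2 (by linarith : 0 ≤ 1 - γ)
    rw [pow_succ]
    linarith

/-- Pointwise convergence for a function with values in `[0,1]`. -/
theorem mixing_point [Nonempty Y] (hG : Good G m) (hC : ∀ k y, 0 < C k y) {K : ℝ} (hK1 : 1 ≤ K)
    (hK : ∀ j k y, C j y ≤ K * C k y) (hρ0 : 0 ≤ ρ)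
    (hρ : ρ * (m * m * Fintype.card Y) ≤ 1 / 2) {γ : ℝ}
    (hγ : γ * (2 + 2 * m ^ 2 * K ^ 2) ≤ ρ / 2) (hγ1 : γ ≤ 1) (ψ : (Fin m → Y) → ℝ)
    (h0 : ∀ σ, 0 ≤ ψ σ) (h1 : ∀ σ, ψ σ ≤ 1) (hZ : 0 < Z C G) (T : ℕ) (σ₀ : Fin m → Y) :
    wt C G σ₀ * ((Pk ρ C G)^[T] ψ σ₀ - (∑ σ, wt C G σ * ψ σ) / Z C G) ^ 2 ≤
      (1 - γ) ^ T * Z C G := by
  have hC0 : ∀ k y, 0 ≤ C k y := fun k y => (hC k y).le
  have hw : ∀ σ, 0 ≤ wt C G σ := wt_nonneg hC0 hG.nonneg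
  set t := (∑ σ, wt C G σ * ψ σ) / Z C G with ht
  have ht0 : 0 ≤ t := div_nonneg (sum_nonneg fun σ _ => mul_nonneg (hw σ) (h0 σ)) hZ.le
  have ht1 : t ≤ 1 := by
    rw [ht, div_le_one hZ]
    exact sum_le_sum fun σ _ => mul_le_of_le_one_right (hw σ) (h1 σ)
  have := (mixing hG hC hK1 hK hρ0 hρ hγ hγ1 ψ t (by
    simp only [mul_sub, sum_sub_distrib, ← sum_mul]
    rw [ht, ← Z, mul_div_cancel₀ _ hZ.ne', sub_self]) T).2
  refine le_trans (single_le_sum (f := fun σ => wt C G σ * ((Pk ρ C G)^[T] ψ σ - t) ^ 2)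
    (fun σ _ => mul_nonneg (hw σ) (sq_nonneg _)) (mem_univ σ₀)) (this.trans ?_)
  refine mul_le_mul_of_nonneg_left ?_ (pow_nonneg (by linarith) _)
  refine sum_le_sum fun σ _ => mul_le_of_le_one_right (hw σ) ?_
  have := h0 σ
  have := h1 σ
  nlinarith

end

end Vale.Agent.P317
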