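import Mathlib

/-!
A unit-cost random access machine with fair coins and two independence oracles.
Registers hold natural numbers; the only arithmetic is addition and truncated subtraction.
-/

namespace Vale.Agent.P317

/-- Memory: arrays numbered by `ℕ`, each indexed by `ℕ` and holding natural numbers. -/
abbrev Mem : Type := ℕ → ℕ → ℕ

/-- Write `v` into cell `i` of array `a`. -/
def Mem.write (m : Mem) (a i v : ℕ) : Mem :=
  fun a' i' => if a' = a ∧ i' = i then v else m a' i'

/-- Expressions: constants, array reads, sum, truncated difference, zero test. -/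
inductive Expr : Type
  | const (c : ℕ) : Expr
  | get (a : ℕ) (i : Expr) : Expr
  | add (x y : Expr) : Expr
  | sub (x y : Expr) : Expr
  | cond (c x y : Expr) : Expr

/-- The value of an expression. -/
def Expr.eval (m : Mem) : Expr → ℕ
  | .const c => c
  | .get a i => m a (i.eval m)
  | .add x y => x.eval m + y.eval m
  | .sub x y => x.eval m - y.eval m
  | .cond c x y => if c.eval m = 0 then y.eval m else x.eval m

/-- Programs. -/
inductive Stmt : Type
  | assign (a : ℕ) (i v : Expr) : Stmt
  | flip (a : ℕ) : Stmt
  | query (second : Bool) (a : ℕ) (off : Expr) (b : ℕ) : Stmt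
  | seq (p q : Stmt) : Stmt
  | ite (c : Expr) (p q : Stmt) : Stmt
  | loop (c : Expr) (p : Stmt) : Stmt

/-- A configuration: the stack of statements still to run, and the memory. -/
abbrev Config : Type := List Stmt × Mem

open Classical in
/-- One machine step; `coin` is the fair coin available in this step. -/
noncomputable def step {n : ℕ} (M₁ M₂ : Matroid (Fin n)) (coin : Bool) : Config → Config
  | ([], m) => ([], m)
  | (.assign a i v :: k, m) => (k, m.write a (i.eval m) (v.eval m))
  | (.flip a :: k, m) => (k, m.write a 0 (if coin then 1 else 0))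
  | (.query second a off b :: k, m) =>
      (k, m.write b 0
        (if (if second then M₂ else M₁).Indep {e : Fin n | m a (off.eval m + e.val) ≠ 0}
          then 1 else 0))
  | (.seq p q :: k, m) => (p :: q :: k, m)
  | (.ite c p q :: k, m) => if c.eval m = 0 then (q :: k, m) else (p :: k, m)
  | (.loop c p :: k, m) => if c.eval m = 0 then (k, m) else (p :: .loop c p :: k, m)

/-- The input memory: array `0` holds `n` and the numerators and denominators of `ε` and `δ`. -/
def input (n : ℕ) (ε δ : ℚ) : Mem :=
  fun a i => if a = 0 then [n, ε.num.toNat, ε.den, δ.num.toNat, δ.den].getD i 0 else 0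

/-- The configuration after `T` steps of program `P` with coins `ω`. -/
noncomputable def run {n : ℕ} (M₁ M₂ : Matroid (Fin n)) (P : Stmt) (ε δ : ℚ) {T : ℕ}
    (ω : Fin T → Bool) : Config :=
  (List.ofFn ω).foldl (fun c coin => step M₁ M₂ coin c) ([P], input n ε δ)

/-- The number of common bases. -/
noncomputable def commonBases {n : ℕ} (M₁ M₂ : Matroid (Fin n)) : ℕ :=
  {B : Set (Fin n) | M₁.IsBase B ∧ M₂.IsBase B}.ncard

/-- The output, the fraction (cell 0)/(cell 1) of array `1`, is within `1 ± ε` of `N`. -/
def GoodOutput (N : ℕ) (ε : ℚ) (m : Mem) : Prop :=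
  m 1 1 ≠ 0 ∧ (1 - ε) * N ≤ (m 1 0 : ℚ) / (m 1 1 : ℚ) ∧ (m 1 0 : ℚ) / (m 1 1 : ℚ) ≤ (1 + ε) * N

end Vale.Agent.P317
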