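import Vale.Agent.P317.Defs

/-! A quantitative program logic for the machine. -/

namespace Vale.Agent.P317

variable {n : ℕ} {M₁ M₂ : Matroid (Fin n)}

/-- `Ok R t c x`: all runs from `c` halt within `t` steps, and one can attach to each final memory
`m` a value `y` with `R m y` so that the expected value is at most `x`. -/
inductive Ok (M₁ M₂ : Matroid (Fin n)) (R : Mem → ℝ → Prop) : ℕ → Config → ℝ → Prop
  | done {t : ℕ} {m : Mem} {x y : ℝ} : R m y → y ≤ x → Ok M₁ M₂ R t ([], m) x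
  | next {t : ℕ} {s : Stmt} {k : List Stmt} {m : Mem} {x x0 x1 : ℝ} :
      Ok M₁ M₂ R t (step M₁ M₂ false (s :: k, m)) x0 →
      Ok M₁ M₂ R t (step M₁ M₂ true (s :: k, m)) x1 → (x0 + x1) / 2 ≤ x →
      Ok M₁ M₂ R (t + 1) (s :: k, m) x

theorem Ok.up {R : Mem → ℝ → Prop} {t : ℕ} {c : Config} {x x' : ℝ}
    (h : Ok M₁ M₂ R t c x) (hx : x ≤ x') : Ok M₁ M₂ R t c x' := by
  cases h with
  | done h1 h2 => exact Ok.done h1 (h2.trans hx)
  | next h1 h2 h3 => exact Ok.next h1 h2 (h3.trans hx)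

theorem Ok.time {R : Mem → ℝ → Prop} {t : ℕ} {c : Config} {x : ℝ}
    (h : Ok M₁ M₂ R t c x) : ∀ {t' : ℕ}, t ≤ t' → Ok M₁ M₂ R t' c x := by
  induction h with
  | done h1 h2 => intro t' _; exact Ok.done h1 h2
  | next _ _ h3 ih1 ih2 =>
    intro t' ht
    obtain ⟨t'', rfl⟩ : ∃ t'', t' = t'' + 1 := ⟨t' - 1, by omega⟩
    exact Ok.next (ih1 (by omega)) (ih2 (by omega)) h3

theorem Ok.mono {R R' : Mem → ℝ → Prop} {t : ℕ} {c : Config} {x : ℝ}
    (h : Ok M₁ M₂ R t c x) (hR : ∀ m y, R m y → ∃ y' ≤ y, R' m y') : Ok M₁ M₂ R' t c x := by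
  induction h with
  | done h1 h2 =>
    obtain ⟨y', hy, h⟩ := hR _ _ h1
    exact Ok.done h (hy.trans h2)
  | next _ _ h3 ih1 ih2 => exact Ok.next ih1 ih2 h3

theorem Ok.shift {R : Mem → ℝ → Prop} {t : ℕ} {c : Config} {x : ℝ} (d : ℝ)
    (h : Ok M₁ M₂ R t c x) : Ok M₁ M₂ (fun m y => R m (y - d)) t c (x + d) := by
  induction h with
  | @done t m x y h1 h2 => exact Ok.done (y := y + d) (by simpa using h1) (by linarith)
  | next _ _ h3 ih1 ih2 => exact Ok.next ih1 ih2 (by linarith)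

theorem step_append (coin : Bool) (s : Stmt) (k k' : List Stmt) (m : Mem) :
    step M₁ M₂ coin (s :: (k ++ k'), m) =
      ((step M₁ M₂ coin (s :: k, m)).1 ++ k', (step M₁ M₂ coin (s :: k, m)).2) := by
  cases s <;> simp only [step] <;> try rfl
  all_goals (split_ifs <;> rfl)

theorem Ok.bind {R : Mem → ℝ → Prop} {t₁ t₂ : ℕ} {c : Config} {k' : List Stmt} {x : ℝ}
    (h : Ok M₁ M₂ (fun m y => Ok M₁ M₂ R t₂ (k', m) y) t₁ c x) :
    Ok M₁ M₂ R (t₁ + t₂) (c.1 ++ k', c.2) x := by
  induction h with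
  | done h1 h2 => exact (h1.up h2).time (by omega)
  | @next t s k m x x0 x1 _ _ h3 ih1 ih2 =>
    have e : t + 1 + t₂ = (t + t₂) + 1 := by omega
    rw [e]
    refine Ok.next (x0 := x0) (x1 := x1) ?_ ?_ h3
    · exact (step_append false s k k' m) ▸ ih1
    · exact (step_append true s k k' m) ▸ ih2

/-- Weakest precondition form for a single statement. -/
def W (M₁ M₂ : Matroid (Fin n)) (p : Stmt) (t : ℕ) (R : Mem → ℝ → Prop) (m : Mem) (x : ℝ) : Prop :=
  Ok M₁ M₂ R t ([p], m) x

theorem W.up {p : Stmt} {t : ℕ} {R : Mem → ℝ → Prop} {m : Mem} {x x' : ℝ}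
    (h : W M₁ M₂ p t R m x) (hx : x ≤ x') : W M₁ M₂ p t R m x' := Ok.up h hx

theorem W.time {p : Stmt} {t t' : ℕ} {R : Mem → ℝ → Prop} {m : Mem} {x : ℝ}
    (h : W M₁ M₂ p t R m x) (ht : t ≤ t') : W M₁ M₂ p t' R m x := Ok.time h ht

theorem W.mono {p : Stmt} {t : ℕ} {R R' : Mem → ℝ → Prop} {m : Mem} {x : ℝ}
    (h : W M₁ M₂ p t R m x) (hR : ∀ m y, R m y → R' m y) : W M₁ M₂ p t R' m x :=
  Ok.mono h fun m y h => ⟨y, le_rfl, hR m y h⟩

theorem W.mono' {p : Stmt} {t : ℕ} {R R' : Mem → ℝ → Prop} {m : Mem} {x : ℝ}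
    (h : W M₁ M₂ p t R m x) (hR : ∀ m y, R m y → ∃ y' ≤ y, R' m y') : W M₁ M₂ p t R' m x :=
  Ok.mono h hR

theorem W.shift {p : Stmt} {t : ℕ} {R : Mem → ℝ → Prop} {m : Mem} {x : ℝ} (d : ℝ)
    (h : W M₁ M₂ p t R m x) : W M₁ M₂ p t (fun m y => R m (y - d)) m (x + d) := Ok.shift d h

theorem W.assign {a : ℕ} {i v : Expr} {R : Mem → ℝ → Prop} {m : Mem} {x : ℝ}
    (h : R (m.write a (i.eval m) (v.eval m)) x) : W M₁ M₂ (.assign a i v) 1 R m x :=
  Ok.next (x0 := x) (x1 := x) (Ok.done h le_rfl) (Ok.done h le_rfl) (by linarith)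

theorem W.flip {a : ℕ} {R : Mem → ℝ → Prop} {m : Mem} {x x0 x1 : ℝ}
    (h0 : R (m.write a 0 0) x0) (h1 : R (m.write a 0 1) x1) (hx : (x0 + x1) / 2 ≤ x) :
    W M₁ M₂ (.flip a) 1 R m x :=
  Ok.next (x0 := x0) (x1 := x1) (Ok.done h0 le_rfl) (Ok.done h1 le_rfl) hx

open Classical in
theorem W.query {second : Bool} {a b : ℕ} {off : Expr} {R : Mem → ℝ → Prop} {m : Mem} {x : ℝ}
    (h : R (m.write b 0
      (if (if second then M₂ else M₁).Indep {e : Fin n | m a (off.eval m + e.val) ≠ 0}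
        then 1 else 0)) x) : W M₁ M₂ (.query second a off b) 1 R m x :=
  Ok.next (x0 := x) (x1 := x) (Ok.done h le_rfl) (Ok.done h le_rfl) (by linarith)

theorem W.seq {p q : Stmt} {t₁ t₂ : ℕ} {R : Mem → ℝ → Prop} {m : Mem} {x : ℝ}
    (h : W M₁ M₂ p t₁ (W M₁ M₂ q t₂ R) m x) : W M₁ M₂ (.seq p q) (t₁ + t₂ + 1) R m x := by
  have := Ok.bind (k' := [q]) (R := R) (t₂ := t₂) h
  exact Ok.next (x0 := x) (x1 := x) this this (by linarith)

theorem W.ite_pos {c : Expr} {p q : Stmt} {t : ℕ} {R : Mem → ℝ → Prop} {m : Mem} {x : ℝ}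
    (hc : c.eval m ≠ 0) (h : W M₁ M₂ p t R m x) : W M₁ M₂ (.ite c p q) (t + 1) R m x := by
  refine Ok.next (x0 := x) (x1 := x) ?_ ?_ (by linarith) <;> simp only [step, hc, if_false] <;>
    exact h

theorem W.ite_neg {c : Expr} {p q : Stmt} {t : ℕ} {R : Mem → ℝ → Prop} {m : Mem} {x : ℝ}
    (hc : c.eval m = 0) (h : W M₁ M₂ q t R m x) : W M₁ M₂ (.ite c p q) (t + 1) R m x := by
  refine Ok.next (x0 := x) (x1 := x) ?_ ?_ (by linarith) <;> simp only [step, hc, if_true] <;>
    exact h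

/-- The loop rule: `I j` is the invariant when at most `j` more rounds are run. -/
theorem W.loop {c : Expr} {p : Stmt} {t : ℕ} {R : Mem → ℝ → Prop} (I : ℕ → Mem → ℝ → Prop)
    (hstop : ∀ j m x, I j m x → c.eval m = 0 → R m x)
    (hzero : ∀ m x, I 0 m x → c.eval m = 0)
    (hstep : ∀ j m x, I (j + 1) m x → c.eval m ≠ 0 → W M₁ M₂ p t (I j) m x) :
    ∀ (N : ℕ) (m : Mem) (x : ℝ), I N m x → W M₁ M₂ (.loop c p) (N * (t + 1) + 1) R m x := by
  have stop : ∀ j m x, I j m x → c.eval m = 0 → W M₁ M₂ (.loop c p) 1 R m x := by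
    intro j m x h hc
    refine Ok.next (x0 := x) (x1 := x) ?_ ?_ (by linarith) <;> simp only [step, hc, if_true] <;>
      exact Ok.done (hstop j m x h hc) le_rfl
  intro N
  induction N with
  | zero => intro m x h; simpa using stop 0 m x h (hzero m x h)
  | succ N ih =>
    intro m x h
    by_cases hc : c.eval m = 0
    · exact (stop _ m x h hc).time (by omega)
    · have h1 : W M₁ M₂ p t (W M₁ M₂ (.loop c p) (N * (t + 1) + 1) R) m x :=
        (hstep N m x h hc).mono fun m y hy => ih m y hy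
      have h2 := Ok.bind (k' := [.loop c p]) (R := R) (t₂ := N * (t + 1) + 1) h1
      have e : (N + 1) * (t + 1) + 1 = (t + (N * (t + 1) + 1)) + 1 := by ring
      rw [e]
      refine Ok.next (x0 := x) (x1 := x) ?_ ?_ (by linarith) <;>
        simp only [step, hc, if_false] <;> exact h2

/-- The arrays that a statement may write. -/
def Stmt.writes : Stmt → List ℕ
  | .assign a _ _ => [a]
  | .flip a => [a]
  | .query _ _ _ b => [b]
  | .seq p q => p.writes ++ q.writes
  | .ite _ p q => p.writes ++ q.writes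
  | .loop _ p => p.writes

/-- `m'` agrees with `m` outside the arrays in `l`. -/
def Same (l : List ℕ) (m m' : Mem) : Prop := ∀ a, a ∉ l → m' a = m a

theorem Same.refl (l : List ℕ) (m : Mem) : Same l m m := fun _ _ => rfl

theorem Same.trans {l : List ℕ} {m m' m'' : Mem} (h : Same l m m') (h' : Same l m' m'') :
    Same l m m'' := fun a ha => (h' a ha).trans (h a ha)

theorem Same.mono {l l' : List ℕ} {m m' : Mem} (h : Same l m m') (hl : ∀ a ∈ l, a ∈ l') :
    Same l' m m' := fun a ha => h a fun h' => ha (hl a h')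

theorem Same.write {l : List ℕ} {m m' : Mem} (h : Same l m m') {a : ℕ} (ha : a ∈ l) (i v : ℕ) :
    Same l m (m'.write a i v) := by
  intro b hb
  have : b ≠ a := fun e => hb (e ▸ ha)
  rw [← h b hb]
  funext j
  simp [Mem.write, this]

theorem Ok.frame {R : Mem → ℝ → Prop} {t : ℕ} {c : Config} {x : ℝ} (l : List ℕ) (m₀ : Mem)
    (h : Ok M₁ M₂ R t c x) : (∀ s ∈ c.1, ∀ a ∈ s.writes, a ∈ l) → Same l m₀ c.2 →
    Ok M₁ M₂ (fun m y => R m y ∧ Same l m₀ m) t c x := by
  induction h with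
  | done h1 h2 => intro _ hs; exact Ok.done ⟨h1, hs⟩ h2
  | @next t s k m x x0 x1 _ _ h3 ih1 ih2 =>
    intro hw hs
    have key : ∀ coin, (∀ s' ∈ (step M₁ M₂ coin (s :: k, m)).1, ∀ a ∈ s'.writes, a ∈ l) ∧
        Same l m₀ (step M₁ M₂ coin (s :: k, m)).2 := by
      intro coin
      have hs1 := hw s (by simp)
      have hk : ∀ s' ∈ k, ∀ a ∈ s'.writes, a ∈ l := fun s' h => hw s' (by simp [h])
      cases s with
      | assign a i v => exact ⟨hk, hs.write (hs1 a (by simp [Stmt.writes])) _ _⟩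
      | flip a => exact ⟨hk, hs.write (hs1 a (by simp [Stmt.writes])) _ _⟩
      | query s a off b => exact ⟨hk, hs.write (hs1 b (by simp [Stmt.writes])) _ _⟩
      | seq p q =>
        refine ⟨?_, hs⟩
        intro s' hs' a ha
        simp only [step, List.mem_cons] at hs'
        rcases hs' with rfl | rfl | h
        · exact hs1 a (by simp [Stmt.writes, ha])
        · exact hs1 a (by simp [Stmt.writes, ha])
        · exact hk s' h a ha
      | ite c p q =>
        simp only [step]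
        split_ifs
        · refine ⟨?_, hs⟩
          intro s' hs' a ha
          simp only [List.mem_cons] at hs'
          rcases hs' with rfl | h
          · exact hs1 a (by simp [Stmt.writes, ha])
          · exact hk s' h a ha
        · refine ⟨?_, hs⟩
          intro s' hs' a ha
          simp only [List.mem_cons] at hs'
          rcases hs' with rfl | h
          · exact hs1 a (by simp [Stmt.writes, ha])
          · exact hk s' h a ha
      | loop c p =>
        simp only [step]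
        split_ifs
        · exact ⟨hk, hs⟩
        · refine ⟨?_, hs⟩
          intro s' hs' a ha
          simp only [List.mem_cons] at hs'
          rcases hs' with rfl | rfl | h
          · exact hs1 a (by simp [Stmt.writes, ha])
          · exact hs1 a ha
          · exact hk s' h a ha
    exact Ok.next (ih1 (key false).1 (key false).2) (ih2 (key true).1 (key true).2) h3

theorem W.frame {p : Stmt} {t : ℕ} {R : Mem → ℝ → Prop} {m : Mem} {x : ℝ} (l : List ℕ)
    (hl : ∀ a ∈ p.writes, a ∈ l) (h : W M₁ M₂ p t R m x) :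
    W M₁ M₂ p t (fun m' y => R m' y ∧ Same l m m') m x :=
  Ok.frame l m h (by simpa using hl) (Same.refl _ _)

open Classical in
/-- Adequacy of the logic. -/
theorem adequate {good : Mem → Prop} {T : ℕ} {c : Config} {x : ℝ}
    (h : Ok M₁ M₂ (fun m y => (if good m then 0 else 1) ≤ y) T c x) :
    (∀ ω : Fin T → Bool, ((List.ofFn ω).foldl (fun c coin => step M₁ M₂ coin c) c).1 = []) ∧
    (∑ ω : Fin T → Bool,
      (if good ((List.ofFn ω).foldl (fun c coin => step M₁ M₂ coin c) c).2 then (0 : ℝ) else 1))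
        ≤ x * 2 ^ T := by
  induction h with
  | @done t m x y h1 h2 =>
    have hfix : ∀ l : List Bool,
        l.foldl (fun c coin => step M₁ M₂ coin c) (([] : List Stmt), m) = ([], m) := by
      intro l
      induction l with
      | nil => rfl
      | cons b l ih => simpa [step] using ih
    refine ⟨fun ω => by rw [hfix], ?_⟩
    simp only [hfix, Finset.sum_const, Finset.card_univ, Fintype.card_pi, Fintype.card_bool,
      Finset.prod_const, Fintype.card_fin, nsmul_eq_mul]
    push_cast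
    have : (0 : ℝ) < 2 ^ t := by positivity
    nlinarith
  | @next t s k m x x0 x1 _ _ h3 ih1 ih2 =>
    constructor
    · intro ω
      rw [List.ofFn_succ, List.foldl_cons]
      cases hω : ω 0
      · exact ih1.1 _
      · exact ih2.1 _
    · rw [← (Fin.consEquiv (fun _ : Fin (t + 1) => Bool)).sum_comp, Fintype.sum_prod_type,
        Fintype.sum_bool]
      simp only [Fin.consEquiv_apply, List.ofFn_succ, List.foldl_cons, Fin.cons_zero, Fin.cons_succ]
      have h1 := ih1.2
      have h2 := ih2.2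
      have : (0 : ℝ) < 2 ^ t := by positivity
      rw [pow_succ]
      nlinarith

end Vale.Agent.P317
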