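import Vale.Agent.P317.Spec3

/-! The whole algorithm. -/

namespace Vale.Agent.P317

open Finset

variable {n : ℕ} {M₁ M₂ : Matroid (Fin n)}

theorem final_arith {ε η τ Z0 ZT : ℝ} {a b N : ℕ} (hε0 : 0 < ε) (hε1 : ε < 1) (hη0 : 0 ≤ η)
    (hη : η ≤ ε * (5 / 32)) (hτ : τ ≤ ε / 16) (h1 : 1 ≤ Z0) (h2 : Z0 ≤ 1 + τ) (h3 : (N : ℝ) ≤ ZT)
    (h4 : ZT ≤ N + τ) (hb : 0 < b) (h : Near η (a * Z0) (ZT * b)) :
    (1 - ε) * N ≤ ((if b - (a + a) = 0 then a else 0 : ℕ) : ℝ) / b ∧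
      ((if b - (a + a) = 0 then a else 0 : ℕ) : ℝ) / b ≤ (1 + ε) * N := by
  have hb' : (0 : ℝ) < b := by exact_mod_cast hb
  have ha' : (0 : ℝ) ≤ a := Nat.cast_nonneg a
  have hN0 : (0 : ℝ) ≤ N := Nat.cast_nonneg N
  have e1 : Real.exp η ≤ 1 + 2 * η := by
    have := (abs_le.1 (Real.abs_exp_sub_one_le (x := η) (by rw [abs_of_nonneg hη0]; linarith))).2
    rw [abs_of_nonneg hη0] at this
    linarith
  have e2 : 1 - η ≤ Real.exp (-η) := by linarith [Real.add_one_le_exp (-η)]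
  have hZT : 0 ≤ ZT * b := mul_nonneg (by linarith) hb'.le
  have u1 : (a : ℝ) ≤ (1 + 2 * η) * ((N + τ) * b) := by
    have a1 : (a : ℝ) ≤ a * Z0 := le_mul_of_one_le_right ha' h1
    have a2 := mul_le_mul_of_nonneg_right e1 hZT
    have a3 : (1 + 2 * η) * (ZT * b) ≤ (1 + 2 * η) * ((N + τ) * b) := by gcongr
    linarith [h.2]
  have u2 : (1 - η) * (N * b) ≤ a * (1 + τ) := by
    have a1 : (a : ℝ) * Z0 ≤ a * (1 + τ) := mul_le_mul_of_nonneg_left h2 ha'
    have a2 := mul_le_mul_of_nonneg_right e2 hZT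
    have a3 : (1 - η) * (N * b) ≤ (1 - η) * (ZT * b) := by gcongr; linarith
    linarith [h.1]
  have hτ0 : 0 ≤ τ := by linarith
  rcases Nat.eq_zero_or_pos N with hN | hN
  · subst hN
    have : (a : ℝ) + a < b := by
      have a1 : (1 + 2 * η) * τ ≤ 2 * (1 / 16) := by gcongr <;> linarith
      simp only [Nat.cast_zero, zero_add] at u1
      nlinarith
    have : a + a < b := by exact_mod_cast this
    rw [if_neg (by omega)]
    simp
  · have hN1 : (1 : ℝ) ≤ N := by exact_mod_cast hN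
    have hNb : (b : ℝ) ≤ N * b := le_mul_of_one_le_left hb'.le hN1
    have u3 : (1 - ε / 2) * (N * b) ≤ a := by
      have a1 : (1 - ε / 2) * (1 + τ) ≤ 1 - η := by nlinarith
      have a2 := mul_le_mul_of_nonneg_right a1 (by positivity : (0 : ℝ) ≤ N * b)
      exact le_of_mul_le_mul_right (by linarith) (by linarith : 0 < 1 + τ)
    have : (b : ℝ) ≤ a + a := by nlinarith
    have : b ≤ a + a := by exact_mod_cast this
    rw [if_pos (by omega), le_div_iff₀ hb', div_le_iff₀ hb']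
    constructor
    · nlinarith
    · have a1 : (N + τ) * b ≤ (1 + τ) * (N * b) := by nlinarith
      have a2 : (1 + 2 * η) * (1 + τ) ≤ 1 + ε := by nlinarith
      have a3 := mul_le_mul_of_nonneg_left a1 (by linarith : 0 ≤ 1 + 2 * η)
      have a4 := mul_le_mul_of_nonneg_right a2 (by positivity : (0 : ℝ) ≤ N * b)
      nlinarith

theorem tail_small {q Q : ℕ} (hQ : Q = 2 ^ q) (hn : 256 + n + n ≤ Q) :
    ((Fintype.card (Fin (n + n)) : ℝ)) ^ n * (1 / 2) ^ Q ^ 2 ≤ 1 / (16 * Q) := by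
  have hq := lt_two_pow_le hQ
  have h1 : (n + n) ^ n * (16 * Q) ≤ 2 ^ Q ^ 2 := by
    have a1 : (n + n) ^ n ≤ 2 ^ (q * n) := by
      rw [pow_mul, ← hQ]; exact Nat.pow_le_pow_left (by omega) _
    have a2 : 16 * Q = 2 ^ (4 + q) := by rw [pow_add, ← hQ]; norm_num
    have a3 : q * n + (4 + q) ≤ Q ^ 2 := by nlinarith
    rw [a2]
    exact (Nat.mul_le_mul_right _ a1).trans (by
      rw [← pow_add]; exact Nat.pow_le_pow_right (by norm_num) a3)
  have hQ0 : (0 : ℝ) < Q := by exact_mod_cast (by omega : 0 < Q)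
  rw [Fintype.card_fin, one_div_pow, mul_one_div, div_le_div_iff₀ (by positivity) (by positivity),
    one_mul]
  exact_mod_cast h1

theorem fail_small {Q : ℕ} (hn : 256 + n + n ≤ Q) {δ : ℝ} (hδ : 1 ≤ 2 ^ Q * δ) :
    n * Q ^ 2 * (Q * Real.exp (-(Q : ℝ) ^ 2)) + n * Q ^ 2 * (Q * Real.exp (-(Q : ℝ) ^ 2)) ≤ δ := by
  have hn' : 256 + (n : ℝ) + n ≤ Q := by exact_mod_cast hn
  have hn0 : (0 : ℝ) ≤ n := Nat.cast_nonneg n
  have hQ0 : (0 : ℝ) < Q := by linarith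
  have a1 : (Q : ℝ) ≤ Real.exp Q := by linarith [Real.add_one_le_exp (Q : ℝ)]
  have a2 : (2 : ℝ) ^ Q ≤ Real.exp Q := by
    have : (2 : ℝ) ≤ Real.exp 1 := by linarith [Real.add_one_le_exp (1 : ℝ)]
    refine (pow_le_pow_left₀ (by norm_num) this Q).trans (le_of_eq ?_)
    rw [← Real.exp_nat_mul, mul_one]
  have a3 : (n + n : ℝ) * Q ^ 3 ≤ Real.exp Q * Real.exp Q ^ 3 := by gcongr; linarith
  have a4 : Real.exp Q * Real.exp Q ^ 3 * Real.exp (-(Q : ℝ) ^ 2) * Real.exp Q ≤ 1 := by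
    rw [← Real.exp_nat_mul, ← Real.exp_add, ← Real.exp_add, ← Real.exp_add, Real.exp_le_one_iff]
    push_cast
    nlinarith
  have hδ0 : 0 < δ := by
    by_contra h
    have := mul_nonpos_of_nonneg_of_nonpos (by positivity : (0 : ℝ) ≤ 2 ^ Q) (not_lt.1 h)
    linarith
  have a5 : 1 ≤ Real.exp Q * δ := hδ.trans (mul_le_mul_of_nonneg_right a2 hδ0.le)
  have a6 := mul_le_mul_of_nonneg_right a3 (Real.exp_pos (-(Q : ℝ) ^ 2)).le
  set A := Real.exp Q * Real.exp Q ^ 3 * Real.exp (-(Q : ℝ) ^ 2)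
  have a7 : A ≤ δ := le_of_mul_le_mul_right (by linarith) (Real.exp_pos (Q : ℝ))
  nlinarith

theorem rat_eq {ε : ℚ} (h : 0 < ε) : (ε : ℝ) * ε.den = ε.num.toNat := by
  have h1 : ((ε.num.toNat : ℤ) : ℝ) = ε.num := by
    rw [Int.toNat_of_nonneg (Rat.num_pos.2 h).le]
  have h2 : (ε : ℝ) = ε.num / ε.den := Rat.cast_def ε
  have h3 : (ε.den : ℝ) ≠ 0 := by exact_mod_cast ε.den_nz
  rw [h2, div_mul_cancel₀ _ h3, ← h1]; rfl

open Classical in
theorem main_spec {r : ℕ} (hS : Setup M₁ M₂ r) {ε δ : ℚ} (hε0 : 0 < ε) (hε1 : ε < 1) (hδ0 : 0 < δ)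
    {X : ℕ} (hX : X = n + n + 256 + (ε.den / ε.num.toNat + 1) +
      (Nat.log 2 (δ.den / δ.num.toNat) + 1)) :
    W M₁ M₂ mainP (3 * (2 * X) ^ 42)
      (fun m y => (if GoodOutput (commonBases M₁ M₂) ε m then 0 else 1) ≤ y) (input n ε δ) δ := by
  have ha : 0 < ε.num.toNat := by have := Rat.num_pos.2 hε0; omega
  have hc : 0 < δ.num.toNat := by have := Rat.num_pos.2 hδ0; omega
  have hX0 : 256 + n + n ≤ X := by
    rw [hX]
    generalize ε.den / ε.num.toNat = u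
    generalize Nat.log 2 (δ.den / δ.num.toNat) = w
    omega
  have hP := params_spec (M₁ := M₁) (M₂ := M₂) (m := input n ε δ) (n := n) (a := ε.num.toNat)
    (b := ε.den) (c := δ.num.toNat) (d := δ.den) rfl rfl rfl rfl rfl ha hc hX
  clear hX
  have p1 : 2 * X ≤ (2 * X) ^ 41 := Nat.le_self_pow (by norm_num) _
  have p2 : 512 * (2 * X) ^ 41 ≤ (2 * X) ^ 42 := by rw [pow_succ' (2 * X) 41]; gcongr; omega
  refine W.seqL (hP.toW
    fun m1 ⟨⟨q, Q, hQ, hn, hQX, hεQ, hδQ, a10, a12, a13, a14, a15, a16, a17⟩, s1⟩ => ?_) (by omega)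
  have p3 : Q ^ 42 ≤ (2 * X) ^ 42 := Nat.pow_le_pow_left hQX _
  have n1 : m1 0 0 = n := by rw [s1 0 (by decide)]; rfl
  have z1 : ∀ y, m1 4 y = 0 := fun y => by rw [s1 4 (by decide)]; rfl
  refine W.seqL ((greedy_spec (second := false) (o := 0) n1 (fun _ _ => rfl)
    fun e _ => z1 _).toW fun m2 ⟨⟨b1, b2, b3⟩, s2⟩ => ?_) (by omega)
  have n2 : m2 0 0 = n := by rw [s2 0 (by decide), n1]
  refine W.seqL ((greedy_spec (second := true) (o := n) n2
    (fun m' h => by simp [eN, sv, Expr.eval, h, n2])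
    fun e _ => by rw [b3 _ (Or.inr (by omega)), z1]).toW fun m3 ⟨⟨c1, c2, c3⟩, s3⟩ => ?_) (by omega)
  have n3 : m3 0 0 = n := by rw [s3 0 (by decide), n2]
  simp only [zero_add, Bool.false_eq_true, if_false, if_true] at b1 b2 c1
  have e3 : {e : Fin n | m3 4 e ≠ 0} = {e : Fin n | m2 4 e ≠ 0} := by
    ext e; simp only [Set.mem_ofPred_eq]; rw [c3 e (Or.inl e.2)]
  refine W.seqL ((build_spec hS n3 (e3 ▸ b1) c1
    (fun e he => by rw [c3 e (Or.inl he)]; exact b2 e he) c2).toW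
    fun m4 ⟨⟨d1, y₀, d2, d3⟩, s4⟩ => W.seqA (W.seqA ?_ (by omega)) (by omega)) (by omega)
  simp only [Expr.eval]
  set m5 := (m4.write 1 0 1).write 1 1 1 with hm5
  have s15 : Same [25, 4, 35, 45, 3, 18, 1] m1 m5 :=
    ((((s2.mono (by decide)).trans (s3.mono (by decide))).trans (s4.mono (by decide))).write
      (by simp) _ _).write (by simp) _ _
  have s45 : Same [1] m4 m5 := ((Same.refl _ _).write (by simp) _ _).write (by simp) _ _
  refine W.seqL ((D.forS (i := 25) (bound := eN)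
    (body := .seq (.assign 5 (sv 25) (.get 3 (sv 25))) (.assign 6 (sv 25) (.get 3 (sv 25))))
    (t := 3) [5, 6] n (fun j m' => ∀ i < j, m' 5 i = m5 3 i ∧ m' 6 i = m5 3 i) (by decide) (by simp)
    (fun m' hs => by simp [eN, sv, Expr.eval, hs 0 (by decide), s15 0 (by decide), n1])
    (fun j m' y hI => by simpa using hI) (by simp)
    (fun j m' hj hs hi hI => ?next) (fun m6 hs hI => (⟨hs, hI⟩ :
      Same [25, 5, 6] m5 m6 ∧ ∀ i < n, m6 5 i = m5 3 i ∧ m6 6 i = m5 3 i))).toW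
    fun m6 ⟨s6, f6⟩ => ?_) (by omega)
  case next =>
    refine D.seqA (D.assignT (fun i hi' => ?_) (by omega)) (by omega)
    simp only [Expr.eval, sv, hi, write_self, ne_eq, Nat.reduceEqDiff, not_false_eq_true, write_ne,
      hs 3 (by decide)]
    by_cases h : i = j
    · subst h; simp
    · rw [Function.update_of_ne h, Function.update_of_ne h]; exact hI i (by omega)
  have s16 : Same [25, 4, 35, 45, 3, 18, 1, 5, 6] m1 m6 :=
    (s15.mono (by decide)).trans (s6.mono (by decide))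
  let σ₀ : St n := fun k => (⟨0, k.pos⟩, y₀ k)
  have r6 : Rep m6 σ₀ := fun k => ⟨by rw [s16 2 (by decide), s1 2 (by decide)]; rfl, by
    rw [s6 3 (by decide), s45 3 (by decide), d2]⟩
  have v6 : lift (Gm M₁ M₂) (ms σ₀) = 1 := by
    rw [lift, ← d3]; congr 1; simp only [ms, Multiset.map_map]; rfl
  have hne : ∃ s, Gm M₁ M₂ s ≠ 0 := ⟨_, by rw [d3]; exact one_ne_zero⟩
  have hn' : 256 + (n : ℝ) + n ≤ Q := by exact_mod_cast hn
  have hn0 : (0 : ℝ) ≤ n := Nat.cast_nonneg n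
  have hQ0 : (0 : ℝ) < Q := by linarith
  set ZJ := Z (fun (_ : Fin n) _ => 1) (Gm M₁ M₂) with hZJ
  have hZJ0 : 0 < ZJ := Z_pos hS.good hne fun _ _ => one_pos
  set x₁ : ℝ := n * Q ^ 2 * (Q * Real.exp (-(Q : ℝ) ^ 2)) with hx₁
  have hx₁0 : 0 ≤ x₁ := by positivity
  have hδ' : 1 ≤ 2 ^ Q * (δ : ℝ) := by
    have h1 := rat_eq hδ0
    have h2 : (δ.den : ℝ) ≤ 2 ^ Q * δ.num.toNat := by exact_mod_cast hδQ
    have h3 : (0 : ℝ) < δ.den := by exact_mod_cast δ.den_pos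
    rw [← h1] at h2
    exact le_of_mul_le_mul_right (by linarith) h3
  have hε' : 1 ≤ Q * (ε : ℝ) := by
    have h1 := rat_eq hε0
    have h2 : (ε.den : ℝ) ≤ Q * ε.num.toNat := by exact_mod_cast hεQ
    have h3 : (0 : ℝ) < ε.den := by exact_mod_cast ε.den_pos
    rw [← h1] at h2
    exact le_of_mul_le_mul_right (by linarith) h3
  have g18 : m6 18 0 = r := by rw [s6 18 (by decide), s45 18 (by decide), d1]
  refine W.seqL ((phase_spec hS hQ hn (U := y₀) (V := y₀) (by rw [s16 0 (by decide), n1])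
    (by rw [s16 10 (by decide), a10]) (by rw [s16 12 (by decide), a12]) g18
    (fun i => by rw [(f6 i i.2).1, s45 3 (by decide), d2])
    (fun i => by rw [(f6 i i.2).2, s45 3 (by decide), d2])
    (by rw [s16 13 (by decide), a13]) (by rw [s16 14 (by decide), a14])
    (by rw [s16 15 (by decide), a15]) (by rw [s16 16 (by decide), a16])
    (by rw [s16 17 (by decide), a17]) r6 v6 (κ := ZJ) (η₀ := 0) hx₁0
    (Or.inl ⟨by simp [s6 1 (by decide), hm5], by simp [s6 1 (by decide), hm5, Near, hZJ],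
      fail_small hn hδ'⟩)).mono fun m7 y ⟨⟨σ₇, r7, v7, g7⟩, s7⟩ =>
      W.seqV (W.seqV (W.seqA ?_ (by omega)) (by omega)) (by omega)) (by omega)
  simp only [Expr.eval, sv, write_self, ne_eq, Nat.reduceEqDiff, not_false_eq_true, write_ne,
    Function.update_self]
  set m8 := ((m7.write 42 0 (m7 1 0)).write 1 0 (m7 1 1)).write 1 1 (m7 1 0) with hm8
  have s8 : Same [42, 1] m7 m8 :=
    (((Same.refl _ _).write (by simp) _ _).write (by simp) _ _).write (by simp) _ _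
  have st8 : ∀ a, a ∉ [42, 1] → a ∉ lphase → m8 a = m6 a := fun a h1 h2 => by rw [s8 a h1, s7 a h2]
  have n8 : m8 0 0 = n := by rw [st8 0 (by decide) (by decide), s16 0 (by decide), n1]
  refine W.seqL ((D.forS (i := 25) (bound := eN)
    (body := .seq (.assign 5 (sv 25) (sv 25)) (.assign 6 (sv 25) (.add eN (sv 25))))
    (t := 3) [5, 6] n (fun j m' => ∀ i < j, m' 5 i = i ∧ m' 6 i = n + i) (by decide) (by simp)
    (fun m' hs => by simp [eN, sv, Expr.eval, hs 0 (by decide), n8])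
    (fun j m' y hI => by simpa using hI) (by simp)
    (fun j m' hj hs hi hI => ?next) (fun m9 hs hI => (⟨hs, hI⟩ :
      Same [25, 5, 6] m8 m9 ∧ ∀ i < n, m9 5 i = i ∧ m9 6 i = n + i))).toW
    fun m9 ⟨s9, f9⟩ => ?_) (by omega)
  case next =>
    refine D.seqA (D.assignT (fun i hi' => ?_) (by omega)) (by omega)
    simp only [Expr.eval, sv, eN, hi, write_self, ne_eq, Nat.reduceEqDiff, not_false_eq_true,
      write_ne, hs 0 (by decide), n8, OfNat.zero_ne_ofNat]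
    by_cases h : i = j
    · subst h; simp
    · rw [Function.update_of_ne h, Function.update_of_ne h]; exact hI i (by omega)
  have st9 : ∀ a, a ∉ [25, 5, 6] → a ∉ [42, 1] → a ∉ lphase →
      a ∉ [25, 4, 35, 45, 3, 18, 1, 5, 6] → m9 a = m1 a :=
    fun a h0 h1 h2 h3 => by rw [s9 a h0, st8 a h1 h2, s16 a h3]
  set Z0 := Z (Aw y₀ y₀ fun _ => Q ^ 2) (Gm M₁ M₂) with hZ0
  have hZ00 : 0 < Z0 := Z_pos hS.good hne (Aw_pos _ _ _)
  refine W.seqL ((phase_spec hS hQ hn (U := Fin.castAdd n) (V := Fin.natAdd n)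
    (by rw [s9 0 (by decide), n8])
    (by rw [st9 10 (by decide) (by decide) (by decide) (by decide), a10])
    (by rw [st9 12 (by decide) (by decide) (by decide) (by decide), a12])
    (by rw [s9 18 (by decide), st8 18 (by decide) (by decide), g18])
    (fun i => (f9 i i.2).1) (fun i => (f9 i i.2).2)
    (by rw [st9 13 (by decide) (by decide) (by decide) (by decide), a13])
    (by rw [st9 14 (by decide) (by decide) (by decide) (by decide), a14])
    (by rw [st9 15 (by decide) (by decide) (by decide) (by decide), a15])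
    (by rw [st9 16 (by decide) (by decide) (by decide) (by decide), a16])
    (by rw [st9 17 (by decide) (by decide) (by decide) (by decide), a17])
    ((r7.same s8 (by decide)).same s9 (by decide)) v7 (κ := Z0)
    (η₀ := 0 + n * Q ^ 2 * (40 / (Q : ℝ) ^ 5)) (x₁ := 0) le_rfl ?pre).mono
    fun m10 z ⟨⟨_, _, _, g10⟩, _⟩ => (W.assign ?_).time (by omega)) (by omega)
  case pre =>
    refine g7.imp (fun ⟨h1, h2, h3⟩ => ?_) id
    have e1 : m9 1 0 = m7 1 1 := by simp [s9 1 (by decide), hm8]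
    have e2 : m9 1 1 = m7 1 0 := by simp [s9 1 (by decide), hm8]
    rw [e1, e2]
    refine ⟨?_, ?_, by linarith⟩
    · have h4 : (0 : ℝ) < m7 1 0 * ZJ := lt_of_lt_of_le (by positivity) h2.1
      have h5 : (0 : ℝ) < m7 1 0 := (mul_pos_iff_of_pos_right hZJ0).1 h4
      exact_mod_cast h5
    · have := h2.symm
      rwa [mul_comm Z0, mul_comm _ ZJ] at this
  rcases g10 with ⟨h1, h2, h3⟩ | h1
  · rw [if_pos]
    · exact h3
    have hτ := tail_small hQ hn
    obtain ⟨k1, k2⟩ := Z_Aw_bounds hS.good y₀ y₀ (Q ^ 2)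
    obtain ⟨k3, k4⟩ := Z_Aw_bounds hS.good (Fin.castAdd n) (Fin.natAdd n) (Q ^ 2)
    rw [Z_Hw_self, d3] at k1 k2
    rw [Z_Hw_target] at k3 k4
    have hε0' : (0 : ℝ) < ε := by exact_mod_cast hε0
    have hεQ' : 1 / (Q : ℝ) ≤ ε := by rw [div_le_iff₀ hQ0]; linarith
    obtain ⟨w1, w2⟩ := final_arith (ε := ε) hε0' (by exact_mod_cast hε1) (by positivity) (by
        have e : 0 + n * Q ^ 2 * (40 / (Q : ℝ) ^ 5) + n * Q ^ 2 * (40 / (Q : ℝ) ^ 5) =
            (1 / Q) * (40 * ((n + n) / Q) / Q) := by field_simp; ring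
        rw [e]
        refine mul_le_mul hεQ' ?_ (by positivity) hε0'.le
        rw [div_le_iff₀ hQ0]
        have : ((n : ℝ) + n) / Q ≤ 1 := by rw [div_le_one hQ0]; linarith
        linarith)
      (hτ.trans (by
        have e : 1 / (16 * (Q : ℝ)) = 1 / Q / 16 := by field_simp
        rw [e]; linarith)) k1 k2 k3 k4 h1 h2
    simp only [GoodOutput, Expr.eval, write_self, Function.update_self, ne_eq, one_ne_zero,
      not_false_eq_true, Function.update_of_ne]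
    refine ⟨h1.ne', ?_, ?_⟩
    · rw [← Rat.cast_le (K := ℝ)]
      simp only [Rat.cast_mul, Rat.cast_sub, Rat.cast_one, Rat.cast_natCast, Rat.cast_div]
      refine w1.trans (le_of_eq ?_)
      congr
    · rw [← Rat.cast_le (K := ℝ)]
      simp only [Rat.cast_mul, Rat.cast_add, Rat.cast_one, Rat.cast_natCast, Rat.cast_div]
      refine le_trans (le_of_eq ?_) w2
      congr
  · split_ifs <;> linarith

theorem time_bound {ε δ : ℚ} (hε0 : 0 < ε) (hε1 : ε < 1) (hδ0 : 0 < δ) (hδ1 : δ < 1) :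
    ((n + n + 256 + (ε.den / ε.num.toNat + 1) + (Nat.log 2 (δ.den / δ.num.toNat) + 1) : ℕ) : ℝ) ≤
      260 * (n + 1 / (ε : ℝ) + Real.log (1 / (δ : ℝ))) ∧
      1 ≤ n + 1 / (ε : ℝ) + Real.log (1 / (δ : ℝ)) := by
  have hε0' : (0 : ℝ) < ε := by exact_mod_cast hε0
  have hε1' : (ε : ℝ) < 1 := by exact_mod_cast hε1
  have hδ0' : (0 : ℝ) < δ := by exact_mod_cast hδ0
  have hδ1' : (δ : ℝ) < 1 := by exact_mod_cast hδ1
  have key : ∀ {x : ℚ}, 0 < x → ((x.den / x.num.toNat : ℕ) : ℝ) ≤ 1 / (x : ℝ) := by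
    intro x hx
    have hx' : (0 : ℝ) < x := by exact_mod_cast hx
    have h3 : (0 : ℝ) < x.den := by exact_mod_cast x.den_pos
    refine Nat.cast_div_le.trans (le_of_eq ?_)
    rw [← rat_eq hx]; field_simp
  have h1 : 1 ≤ 1 / (ε : ℝ) := by rw [le_div_iff₀ hε0']; linarith
  have h2 : 1 ≤ 1 / (δ : ℝ) := by rw [le_div_iff₀ hδ0']; linarith
  have h3 : 0 ≤ Real.log (1 / (δ : ℝ)) := Real.log_nonneg h2
  have h4 : (Nat.log 2 (δ.den / δ.num.toNat) : ℝ) ≤ 2 * Real.log (1 / (δ : ℝ)) := by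
    rcases Nat.eq_zero_or_pos (δ.den / δ.num.toNat) with h | h
    · rw [h]; simp only [Nat.log_zero_right, Nat.cast_zero]; linarith
    · have a1 : ((2 ^ Nat.log 2 (δ.den / δ.num.toNat) : ℕ) : ℝ) ≤ (δ.den / δ.num.toNat : ℕ) := by
        exact_mod_cast Nat.pow_log_le_self 2 h.ne'
      have a2 := Real.log_le_log (by positivity) (a1.trans (key hδ0))
      push_cast at a2
      rw [Real.log_pow] at a2
      have a3 := Real.log_two_gt_d9
      have a4 : (0 : ℝ) ≤ Nat.log 2 (δ.den / δ.num.toNat) := Nat.cast_nonneg _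
      nlinarith
  have h5 := key hε0
  have hn0 : (0 : ℝ) ≤ n := Nat.cast_nonneg n
  constructor
  · push_cast
    linarith
  · linarith

theorem poly_bound {X : ℕ} {Y : ℝ} (t1 : (X : ℝ) ≤ 260 * Y) (t2 : 1 ≤ Y) {c : ℕ}
    (hc : c = 3 * 520 ^ 42) : ((3 * (2 * X) ^ 42 : ℕ) : ℝ) ≤ c * Y ^ c := by
  have b1 : (2 * (X : ℝ)) ^ 42 ≤ (520 * Y) ^ 42 :=
    pow_le_pow_left₀ (by positivity) (by linarith) _
  have b2 : Y ^ 42 ≤ Y ^ c := pow_le_pow_right₀ t2 (by rw [hc]; norm_num)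
  have b3 : (c : ℝ) = 3 * 520 ^ 42 := by rw [hc]; norm_num
  rw [mul_pow 520] at b1
  have b4 := mul_le_mul_of_nonneg_left b2 (by positivity : (0 : ℝ) ≤ 520 ^ 42)
  rw [b3]
  push_cast
  generalize (520 : ℝ) ^ 42 = K at b1 b4 ⊢
  generalize Y ^ c = A at b4 ⊢
  generalize Y ^ 42 = B at b1 b4 ⊢
  generalize (2 * (X : ℝ)) ^ 42 = C at b1 ⊢
  linarith

open Classical in
theorem count_good {T : ℕ} (p : (Fin T → Bool) → Prop) {δ : ℝ}
    (h : ∑ ω : Fin T → Bool, (if p ω then (0 : ℝ) else 1) ≤ δ * 2 ^ T) :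
    (1 - δ) * 2 ^ T ≤ ((Finset.univ.filter p).card : ℝ) := by
  have e : ((Finset.univ.filter p).card : ℝ) +
      ∑ ω : Fin T → Bool, (if p ω then (0 : ℝ) else 1) = 2 ^ T := by
    rw [card_filter]
    push_cast
    rw [← sum_add_distrib]
    have : ∀ ω : Fin T → Bool,
        (if p ω then (1 : ℝ) else 0) + (if p ω then (0 : ℝ) else 1) = 1 :=
      fun ω => by split_ifs <;> norm_num
    simp [this]
  linarith

open Classical in
theorem fpras : ∃ (P : Stmt) (c : ℕ), ∀ (n : ℕ) (M₁ M₂ : Matroid (Fin n)),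
    M₁.E = Set.univ → M₂.E = Set.univ → M₁.eRank = M₂.eRank →
    ∀ ε δ : ℚ, 0 < ε → ε < 1 → 0 < δ → δ < 1 →
    ∃ T : ℕ, (T : ℝ) ≤ c * (n + 1 / (ε : ℝ) + Real.log (1 / (δ : ℝ))) ^ c ∧
      (∀ ω : Fin T → Bool, (run M₁ M₂ P ε δ ω).1 = []) ∧
      (1 - (δ : ℝ)) * 2 ^ T ≤ ((Finset.univ.filter fun ω : Fin T → Bool =>
        GoodOutput (commonBases M₁ M₂) ε (run M₁ M₂ P ε δ ω).2).card : ℝ) := by
  obtain ⟨c, hc⟩ : ∃ c : ℕ, c = 3 * 520 ^ 42 := ⟨_, rfl⟩
  refine ⟨mainP, c, fun n M₁ M₂ h1 h2 h3 ε δ hε0 hε1 hδ0 hδ1 => ?_⟩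
  obtain ⟨r, hS⟩ := exists_setup h1 h2 h3
  obtain ⟨t1, t2⟩ := time_bound (n := n) hε0 hε1 hδ0 hδ1
  obtain ⟨a1, a2⟩ := adequate (main_spec hS hε0 hε1 hδ0 rfl)
  exact ⟨_, poly_bound t1 t2 hc, a1, count_good _ a2⟩

end Vale.Agent.P317
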