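import Vale.Agent.P317.Scale
import Vale.Agent.P317.Defs

/-! The weight function attached to a pair of matroids. -/

namespace Vale.Agent.P317

open Finset Function

open Classical in
theorem good_of_matroid {α : Type} [Fintype α] (M : Matroid α) {d : ℕ}
    (hd : ∀ B, M.IsBase B → B.ncard = d) :
    Good (fun s : Multiset α => if s.Nodup ∧ M.IsBase {y | y ∈ s} then (1 : ℝ) else 0) d := by
  have hcard : ∀ s : Multiset α, s.Nodup → {y | y ∈ s}.ncard = s.card := by
    intro s hs
    rw [← Multiset.toFinset_card_of_nodup hs, ← Set.ncard_coe_finset]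
    congr 1; ext y; simp
  have key : ∀ s : Multiset α,
      Ind (fun s : Multiset α => if s.Nodup ∧ M.IsBase {y | y ∈ s} then (1 : ℝ) else 0) s ↔
        s.Nodup ∧ M.Indep {y | y ∈ s} := by
    intro s
    constructor
    · rintro ⟨t, ht⟩
      have h : (s + t).Nodup ∧ M.IsBase {y | y ∈ s + t} := by
        by_contra h; exact ht (if_neg h)
      exact ⟨Multiset.nodup_of_le (Multiset.le_add_right s t) h.1,
        h.2.indep.subset fun y hy => by simp only [Set.mem_ofPred_eq, Multiset.mem_add] at hy ⊢; exact Or.inl hy⟩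
    · rintro ⟨h1, h2⟩
      obtain ⟨B, hB, hsB⟩ := h2.exists_isBase_superset
      refine ⟨(univ.filter fun y => y ∈ B ∧ y ∉ s).val, ?_⟩
      beta_reduce
      rw [if_pos]
      · exact one_ne_zero
      · constructor
        · rw [Multiset.nodup_add]
          refine ⟨h1, Finset.nodup _, ?_⟩
          rw [Multiset.disjoint_left]
          intro a ha hb
          simp only [filter_val, Multiset.mem_filter] at hb
          exact hb.2.2 ha
        · convert hB using 1
          ext y
          simp only [Set.mem_ofPred_eq, Multiset.mem_add, filter_val, Multiset.mem_filter, mem_val,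
            mem_univ, true_and]
          constructor
          · rintro (h | h)
            · exact hsB h
            · exact h.1
          · intro h
            by_cases hy : y ∈ s
            · exact Or.inl hy
            · exact Or.inr ⟨h, hy⟩
  refine ⟨fun s => by split_ifs <;> simp, fun s hs => ?_, fun τ y y' z h1 h2 => ?_⟩
  · have h : s.Nodup ∧ M.IsBase {y | y ∈ s} := by
      by_contra h; exact hs (if_neg h)
    rw [← hcard s h.1, hd _ h.2]
  · rw [key] at h1 h2
    rw [key, key]
    have hlt : ({x | x ∈ y' ::ₘ τ} : Set α).encard < ({x | x ∈ y ::ₘ z ::ₘ τ} : Set α).encard := by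
      rw [← (Set.toFinite _).cast_ncard_eq, ← (Set.toFinite _).cast_ncard_eq, hcard _ h1.1,
        hcard _ h2.1]
      simp only [Multiset.card_cons]
      exact_mod_cast Nat.lt_succ_self _
    obtain ⟨e, he, hind⟩ := h2.2.exists_insert_of_encard_lt h1.2 hlt
    have he2 : e ∉ y' ::ₘ τ := he.2
    have he1 : e = y ∨ e = z := by
      have := he.1
      simp only [Set.mem_ofPred_eq, Multiset.mem_cons] at this he2
      tauto
    have hset : insert e {x | x ∈ y' ::ₘ τ} = {x | x ∈ e ::ₘ y' ::ₘ τ} := by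
      ext x; simp
    rw [hset] at hind
    have hnd : (e ::ₘ y' ::ₘ τ).Nodup := Multiset.nodup_cons.2 ⟨he2, h2.1⟩
    rcases he1 with rfl | rfl
    · exact Or.inl ⟨hnd, hind⟩
    · rw [Multiset.cons_swap y' e]; exact Or.inr ⟨hnd, hind⟩

variable {n : ℕ}

/-- The elements of the first copy of the ground set that occur. -/
def S1 (s : Multiset (Fin (n + n))) : Set (Fin n) := {e | Fin.castAdd n e ∈ s}

/-- The elements of the second copy of the ground set that do not occur. -/
def S2 (s : Multiset (Fin (n + n))) : Set (Fin n) := {e | Fin.natAdd n e ∉ s}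

open Classical in
/-- The indicator of the bases of the sum of `M₁` and the dual of `M₂`. -/
noncomputable def Gm (M₁ M₂ : Matroid (Fin n)) (s : Multiset (Fin (n + n))) : ℝ :=
  if s.card = n ∧ M₁.IsBase (S1 s) ∧ M₂.IsBase (S2 s) then 1 else 0

theorem ncard_split (p : Fin (n + n) → Prop) :
    {y | p y}.ncard = {e | p (Fin.castAdd n e)}.ncard + {e | p (Fin.natAdd n e)}.ncard := by
  classical
  simp only [Set.ncard_eq_toFinset_card', Set.toFinset_ofPred, card_filter]
  exact Fin.sum_univ_add _

theorem ncard_S (s : Multiset (Fin (n + n))) :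
    {y | y ∈ s}.ncard + (S2 s).ncard = (S1 s).ncard + n := by
  rw [ncard_split]
  have := Set.ncard_add_ncard_compl (S2 s)
  have e : (S2 s)ᶜ = {e | Fin.natAdd n e ∈ s} := by ext e; simp [S2]
  rw [e, Nat.card_eq_fintype_card, Fintype.card_fin] at this
  simp only [S1]
  omega

theorem ncard_mem_le {α : Type} (s : Multiset α) : {y | y ∈ s}.ncard ≤ s.card := by
  classical
  have : {y | y ∈ s} = (s.toFinset : Set α) := by ext y; simp
  rw [this, Set.ncard_coe_finset]
  exact Multiset.toFinset_card_le s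

/-- Both matroids live on the whole of `Fin n` and have rank `r`. -/
structure Setup (M₁ M₂ : Matroid (Fin n)) (r : ℕ) : Prop where
  e1 : M₁.E = Set.univ
  e2 : M₂.E = Set.univ
  r1 : ∀ B, M₁.IsBase B → B.ncard = r
  r2 : ∀ B, M₂.IsBase B → B.ncard = r

variable {M₁ M₂ : Matroid (Fin n)} {r : ℕ}

theorem exists_setup (h1 : M₁.E = Set.univ) (h2 : M₂.E = Set.univ) (h : M₁.eRank = M₂.eRank) :
    ∃ r, Setup M₁ M₂ r := by
  obtain ⟨B, hB⟩ := M₁.exists_isBase
  refine ⟨B.ncard, h1, h2, fun B' hB' => hB'.ncard_eq_ncard_of_isBase hB, fun B' hB' => ?_⟩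
  rw [Set.ncard_def, Set.ncard_def, hB'.encard_eq_eRank, hB.encard_eq_eRank, h]

theorem Setup.good (h : Setup M₁ M₂ r) : Good (Gm M₁ M₂) n := by
  classical
  let M := (M₁.sum M₂✶).mapEquiv finSumFinEquiv
  have hb : ∀ s : Multiset (Fin (n + n)),
      M.IsBase {y | y ∈ s} ↔ M₁.IsBase (S1 s) ∧ M₂.IsBase (S2 s) := by
    intro s
    simp only [M, Matroid.mapEquiv_isBase_iff, Matroid.sum_isBase_iff, Matroid.dual_isBase_iff',
      h.e2, Set.subset_univ, and_true]
    have e1 : Sum.inl ⁻¹' (finSumFinEquiv.symm '' {y | y ∈ s}) = S1 s := by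
      ext e; simp [S1, Equiv.image_eq_preimage_symm]
    have e2 : Set.univ \ Sum.inr ⁻¹' (finSumFinEquiv.symm '' {y | y ∈ s}) = S2 s := by
      ext e; simp [S2, Equiv.image_eq_preimage_symm]
    rw [e1, e2]
  have hc : ∀ s : Multiset (Fin (n + n)), M₁.IsBase (S1 s) → M₂.IsBase (S2 s) →
      {y | y ∈ s}.ncard = n := by
    intro s h1 h2
    have := ncard_S s
    rw [h.r1 _ h1, h.r2 _ h2] at this
    omega
  have hd : ∀ B, M.IsBase B → B.ncard = n := by
    intro B hB
    have e : B = {y | y ∈ B.toFinset.val} := by ext y; simp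
    rw [e] at hB ⊢
    exact hc _ ((hb _).1 hB).1 ((hb _).1 hB).2
  have := good_of_matroid M hd
  have hiff : ∀ s : Multiset (Fin (n + n)), (s.card = n ∧ M₁.IsBase (S1 s) ∧ M₂.IsBase (S2 s)) ↔
      (s.Nodup ∧ M.IsBase {y | y ∈ s}) := by
    intro s
    rw [hb]
    refine and_congr_left fun hs => ?_
    have h1 := hc s hs.1 hs.2
    have e : {y | y ∈ s} = (s.toFinset : Set (Fin (n + n))) := by ext y; simp
    rw [e, Set.ncard_coe_finset] at h1
    rw [← Multiset.toFinset_card_eq_card_iff_nodup, h1, eq_comm]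
  convert this using 2 with s
  unfold Gm
  by_cases hs : s.Nodup ∧ M.IsBase {y | y ∈ s}
  · rw [if_pos hs, if_pos ((hiff s).2 hs)]
  · rw [if_neg hs, if_neg fun h' => hs ((hiff s).1 h')]

theorem isBase_of_ncard {M : Matroid (Fin n)} (hr : ∀ B, M.IsBase B → B.ncard = r) {I : Set (Fin n)}
    (hI : M.Indep I) (h : r ≤ I.ncard) : M.IsBase I := by
  obtain ⟨B, hB, hIB⟩ := hI.exists_isBase_superset
  rwa [Set.eq_of_subset_of_ncard_le hIB (by rw [hr B hB]; exact h)]

open Classical in
theorem Setup.Gm_eq (h : Setup M₁ M₂ r) {s : Multiset (Fin (n + n))} (hs : s.card = n) :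
    Gm M₁ M₂ s = if (S1 s).ncard = r ∧ M₁.Indep (S1 s) ∧ M₂.Indep (S2 s) then 1 else 0 := by
  unfold Gm
  refine if_congr ⟨fun h' => ⟨h.r1 _ h'.2.1, h'.2.1.indep, h'.2.2.indep⟩, fun h' => ?_⟩ rfl rfl
  refine ⟨hs, isBase_of_ncard h.r1 h'.2.1 h'.1.ge, isBase_of_ncard h.r2 h'.2.2 ?_⟩
  have h1 := ncard_S s
  have h2 := ncard_mem_le s
  omega

/-- The annealed weights: `1` on the two targets of a slot, `2^{-t i}` elsewhere. -/
noncomputable def Aw {α : Type} [DecidableEq α] (U V : Fin n → α) (t : Fin n → ℕ) (i : Fin n)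
    (y : α) : ℝ := if y = U i ∨ y = V i then 1 else (1 / 2) ^ t i

theorem Aw_pos {α : Type} [DecidableEq α] (U V : Fin n → α) (t : Fin n → ℕ) (i : Fin n)
    (y : α) : 0 < Aw U V t i y := by unfold Aw; split_ifs <;> positivity

theorem Aw_le_one {α : Type} [DecidableEq α] (U V : Fin n → α) (t : Fin n → ℕ) (i : Fin n)
    (y : α) : Aw U V t i y ≤ 1 := by
  unfold Aw; split_ifs
  · exact le_rfl
  · exact pow_le_one₀ (by norm_num) (by norm_num)

/-- The hard weights. -/
noncomputable def Hw {α : Type} [DecidableEq α] (U V : Fin n → α) (i : Fin n) (y : α) : ℝ :=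
  if y = U i ∨ y = V i then 1 else 0

theorem Z_Aw_bounds {α : Type} [Fintype α] [DecidableEq α] {G : Multiset α → ℝ} (hG : Good G n)
    (U V : Fin n → α) (L : ℕ) :
    Z (Hw U V) G ≤ Z (Aw U V fun _ => L) G ∧
      Z (Aw U V fun _ => L) G ≤ Z (Hw U V) G + (Fintype.card α) ^ n * (1 / 2) ^ L := by
  constructor
  · refine Z_mono (fun k y => ?_) (fun k y => ?_) hG.nonneg
    · unfold Hw; split_ifs <;> norm_num
    · unfold Hw Aw; split_ifs
      · exact le_rfl
      · positivity
  · have : ∀ σ : Fin n → α, wt (Aw U V fun _ => L) G σ ≤ wt (Hw U V) G σ + (1 / 2) ^ L := by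
      intro σ
      by_cases h : ∀ k, σ k = U k ∨ σ k = V k
      · have : wt (Aw U V fun _ => L) G σ = wt (Hw U V) G σ := by
          simp only [wt, Aw, Hw, h, if_true]
        rw [this]
        have : (0 : ℝ) ≤ (1 / 2) ^ L := by positivity
        linarith
      · push Not at h
        obtain ⟨k, hk⟩ := h
        have h0 : 0 ≤ wt (Hw U V) G σ :=
          wt_nonneg (fun k y => by unfold Hw; split_ifs <;> norm_num) hG.nonneg σ
        have h1 : ∏ l, Aw U V (fun _ => L) l (σ l) ≤ (1 / 2) ^ L := by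
          rw [← mul_prod_erase univ _ (mem_univ k)]
          have h2 : Aw U V (fun _ => L) k (σ k) = (1 / 2) ^ L := by
            unfold Aw; rw [if_neg (by tauto)]
          rw [h2]
          exact mul_le_of_le_one_right (by positivity)
            (prod_le_one (fun l _ => (Aw_pos _ _ _ _ _).le) fun l _ => Aw_le_one _ _ _ _ _)
        have h3 : G (ms σ) ≤ 1 := by rcases hG.zo (ms σ) with h | h <;> simp [h]
        have h4 : wt (Aw U V fun _ => L) G σ ≤ (1 / 2) ^ L :=
          (mul_le_of_le_one_right (prod_nonneg fun l _ => (Aw_pos _ _ _ _ _).le) h3).trans h1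
        linarith
    refine (sum_le_sum fun σ _ => this σ).trans (le_of_eq ?_)
    rw [sum_add_distrib, sum_const, card_univ, Fintype.card_fun, Fintype.card_fin, nsmul_eq_mul]
    push_cast
    rfl

theorem Z_Hw_self {α : Type} [Fintype α] [DecidableEq α] (G : Multiset α → ℝ) (U : Fin n → α) :
    Z (Hw U U) G = G (ms U) := by
  rw [Z, sum_eq_single U]
  · simp [wt, Hw]
  · intro σ _ hσ
    obtain ⟨k, hk⟩ := Function.ne_iff.1 hσ
    rw [wt, prod_eq_zero (mem_univ k) (by simp [Hw, hk]), zero_mul]
  · simp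

theorem mem_ms {α : Type} {m : ℕ} (σ : Fin m → α) (y : α) : y ∈ ms σ ↔ ∃ k, σ k = y := by
  simp [ms]

theorem castAdd_ne_natAdd (a b : Fin n) : Fin.castAdd n a ≠ Fin.natAdd n b := by
  intro h
  have := congrArg Fin.val h
  simp at this
  omega

theorem Z_Hw_target (M₁ M₂ : Matroid (Fin n)) :
    Z (Hw (Fin.castAdd n) (Fin.natAdd n)) (Gm M₁ M₂) = commonBases M₁ M₂ := by
  classical
  let φ : Set (Fin n) → Fin n → Fin (n + n) :=
    fun B k => if k ∈ B then Fin.castAdd n k else Fin.natAdd n k
  have h1 : ∀ B, S1 (ms (φ B)) = B := by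
    intro B; ext e
    simp only [S1, Set.mem_ofPred_eq, mem_ms, φ]
    constructor
    · rintro ⟨k, hk⟩
      split_ifs at hk with h
      · rwa [← Fin.castAdd_injective _ _ hk]
      · exact absurd hk.symm (castAdd_ne_natAdd _ _)
    · intro h; exact ⟨e, by simp [h]⟩
  have h2 : ∀ B, S2 (ms (φ B)) = B := by
    intro B; ext e
    simp only [S2, Set.mem_ofPred_eq, mem_ms, φ]
    constructor
    · intro h
      by_contra he
      exact h ⟨e, by simp [he]⟩
    · rintro h ⟨k, hk⟩
      split_ifs at hk with h'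
      · exact castAdd_ne_natAdd _ _ hk
      · exact h' (by rwa [Fin.natAdd_injective _ _ hk])
  have hinj : Injective φ := fun B B' h => by rw [← h1 B, h, h1]
  let T : Finset (Fin n → Fin (n + n)) := univ.filter fun σ =>
    (∀ k, σ k = Fin.castAdd n k ∨ σ k = Fin.natAdd n k) ∧
      M₁.IsBase (S1 (ms σ)) ∧ M₂.IsBase (S2 (ms σ))
  have hT : (T : Set (Fin n → Fin (n + n))) = φ '' {B | M₁.IsBase B ∧ M₂.IsBase B} := by
    ext σ
    simp only [T, coe_filter, mem_univ, true_and, Set.mem_ofPred_eq, Set.mem_image]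
    constructor
    · rintro ⟨he, hb1, hb2⟩
      have : φ {k | σ k = Fin.castAdd n k} = σ := by
        funext k
        simp only [φ, Set.mem_ofPred_eq]
        split_ifs with h
        · exact h.symm
        · exact ((he k).resolve_left h).symm
      refine ⟨_, ⟨?_, ?_⟩, this⟩
      · rwa [← this, h1] at hb1
      · rwa [← this, h2] at hb2
    · rintro ⟨B, hB, rfl⟩
      rw [h1, h2]
      refine ⟨fun k => ?_, hB⟩
      simp only [φ]; split_ifs <;> simp
  rw [commonBases, ← Set.ncard_image_of_injective _ hinj, ← hT, Set.ncard_coe_finset, Z,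
    card_filter]
  push_cast
  refine sum_congr rfl fun σ _ => ?_
  simp only [wt, Gm, ms_card, true_and]
  by_cases he : ∀ k, σ k = Fin.castAdd n k ∨ σ k = Fin.natAdd n k
  · simp only [Hw, he, if_true, prod_const_one, one_mul, implies_true, true_and]
  · obtain ⟨k, hk⟩ := not_forall.1 he
    rw [prod_eq_zero (mem_univ k) (by simp only [Hw]; rw [if_neg hk]), zero_mul,
      if_neg fun h => he h.1]

end Vale.Agent.P317
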