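import Vale.Agent.P317.Flow

/-! The Poincaré inequality for weights that are comparable across slots. -/

namespace Vale.Agent.P317

open Finset

variable {Y : Type}

/-- The move: slot `k` receives the value of slot `j`, then slot `j` receives `y`. -/
def mv {m : ℕ} (σ : Fin m → Y) (j k : Fin m) (y : Y) : Fin m → Y :=
  Function.update (Function.update σ k (σ j)) j y

theorem mv_zero_zero {m : ℕ} (a : Y) (R : Fin m → Y) (y : Y) :
    mv (Fin.cons a R : Fin (m + 1) → Y) 0 0 y = Fin.cons y R := by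
  simp [mv, Fin.update_cons_zero]

theorem mv_zero_succ {m : ℕ} (a : Y) (R : Fin m → Y) (k : Fin m) (y : Y) :
    mv (Fin.cons a R : Fin (m + 1) → Y) 0 k.succ y = Fin.cons y (Function.update R k a) := by
  simp only [mv, Fin.cons_zero]
  rw [← Fin.cons_update, Fin.update_cons_zero]

theorem mv_succ_succ {m : ℕ} (a : Y) (R : Fin m → Y) (j k : Fin m) (y : Y) :
    mv (Fin.cons a R : Fin (m + 1) → Y) j.succ k.succ y = Fin.cons a (mv R j k y) := by
  simp only [mv, Fin.cons_succ]
  rw [← Fin.cons_update, ← Fin.cons_update]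

theorem prod_update {m : ℕ} (C : Fin m → Y → ℝ) (R : Fin m → Y) (k : Fin m) (e : Y) :
    ∏ l, C l (Function.update R k e l) = C k e * ∏ l ∈ univ.erase k, C l (R l) := by
  rw [← mul_prod_erase univ _ (mem_univ k), Function.update_self]
  congr 1
  exact prod_congr rfl fun l hl => by rw [Function.update_of_ne (mem_erase.1 hl).1]

variable [Fintype Y]

/-- The part of the Metropolis Dirichlet form that comes from moves with first index `j`. -/
noncomputable def DDj {m : ℕ} (C : Fin m → Y → ℝ) (G : Multiset Y → ℝ) (f : (Fin m → Y) → ℝ)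
    (j k : Fin m) : ℝ :=
  ∑ σ, ∑ y, min (wt C G σ) (wt C G (mv σ j k y)) * (f σ - f (mv σ j k y)) ^ 2

theorem DDj_nonneg {m : ℕ} {C : Fin m → Y → ℝ} {G : Multiset Y → ℝ} (hC : ∀ k y, 0 ≤ C k y)
    (hG : ∀ s, 0 ≤ G s) (f : (Fin m → Y) → ℝ) (j k : Fin m) : 0 ≤ DDj C G f j k :=
  sum_nonneg fun _ _ => sum_nonneg fun _ _ =>
    mul_nonneg (le_min (wt_nonneg hC hG _) (wt_nonneg hC hG _)) (sq_nonneg _)

theorem DDj_succ {m : ℕ} {C : Fin (m + 1) → Y → ℝ} (hC : ∀ k y, 0 ≤ C k y) (G : Multiset Y → ℝ)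
    (f : (Fin (m + 1) → Y) → ℝ) (j k : Fin m) :
    DDj C G f j.succ k.succ =
      ∑ a, C 0 a * DDj (Fin.tail C) (link a G) (fun R => f (Fin.cons a R)) j k := by
  unfold DDj
  rw [sum_tuple]
  refine sum_congr rfl fun a _ => ?_
  rw [mul_sum]
  refine sum_congr rfl fun R _ => ?_
  rw [mul_sum]
  refine sum_congr rfl fun y _ => ?_
  rw [mv_succ_succ, wt_cons, wt_cons, ← mul_min_of_nonneg _ _ (hC 0 a)]
  ring

/-- The variance contributed by the first slot. -/
theorem head_bound [Nonempty Y] {m : ℕ} {G : Multiset Y → ℝ} (hG : Good G (m + 1))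
    {C : Fin (m + 1) → Y → ℝ} (hC : ∀ k y, 0 < C k y) {K : ℝ} (hK1 : 1 ≤ K)
    (hK : ∀ j k y, C j y ≤ K * C k y) (f : (Fin (m + 1) → Y) → ℝ) (h : Y → ℝ) (t : ℝ)
    (hmean : ∀ a, ∑ R, wt (Fin.tail C) (link a G) R * f (Fin.cons a R) =
      Z (Fin.tail C) (link a G) * (h a + t))
    (hzero : ∑ a, C 0 a * h a * Z (Fin.tail C) (link a G) = 0) :
    ∑ a, C 0 a * h a ^ 2 * Z (Fin.tail C) (link a G) ≤
      (2 + 2 * (m + 1) ^ 2 * K ^ 2) * ∑ k, DDj C G f 0 k := by
  set C' := Fin.tail C with hC'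
  have hC0 : ∀ k y, 0 ≤ C k y := fun k y => (hC k y).le
  have hC'p : ∀ k y, 0 < C' k y := fun k y => hC k.succ y
  have hC'0 : ∀ k y, 0 ≤ C' k y := fun k y => (hC'p k y).le
  have hwn : ∀ σ, 0 ≤ wt C G σ := wt_nonneg hC0 hG.nonneg
  have hwn' : ∀ a R, 0 ≤ wt C' (link a G) R := fun a => wt_nonneg hC'0 (hG.link a).nonneg
  choose s hs using fun R : Fin m → Y =>
    Finite.exists_max fun a : Y => wt C G (Fin.cons a R)
  set g : (Fin m → Y) → ℝ := fun R => f (Fin.cons (s R) R) with hg
  set U := ∑ a, C 0 a * h a ^ 2 * Z C' (link a G) with hU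
  set S1 := ∑ a, ∑ R, C 0 a * wt C' (link a G) R * (f (Fin.cons a R) - g R) ^ 2 with hS1
  have hU0 : 0 ≤ U := sum_nonneg fun a _ => mul_nonneg (mul_nonneg (hC0 0 a) (sq_nonneg _))
    (Z_nonneg hC'0 (hG.link a).nonneg)
  have hS10 : 0 ≤ S1 := sum_nonneg fun a _ => sum_nonneg fun R _ =>
    mul_nonneg (mul_nonneg (hC0 0 a) (hwn' a R)) (sq_nonneg _)
  have hS1D : S1 ≤ DDj C G f 0 0 := by
    unfold DDj
    rw [sum_tuple]
    refine sum_le_sum fun a _ => sum_le_sum fun R _ => ?_
    refine le_trans ?_ (single_le_sum (f := fun y => min (wt C G (Fin.cons a R))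
      (wt C G (mv (Fin.cons a R) 0 0 y)) * (f (Fin.cons a R) - f (mv (Fin.cons a R) 0 0 y)) ^ 2)
      (fun y _ => mul_nonneg (le_min (hwn _) (hwn _)) (sq_nonneg _)) (mem_univ (s R)))
    rw [mv_zero_zero, min_eq_left (hs R a), wt_cons]
  have hK0 : 0 < K := by linarith
  have hDir : Dir C' G g ≤ K * (m * S1 + ∑ k : Fin m, DDj C G f 0 k.succ) := by
    unfold Dir
    have key : ∀ k : Fin m, ∑ R, ∑ e', C' k e' * wt C' (link e' G) R *
        (g R - g (Function.update R k e')) ^ 2 ≤ 2 * K * (S1 + DDj C G f 0 k.succ) := by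
      intro k
      unfold DDj
      rw [sum_tuple, hS1, ← sum_add_distrib, sum_comm, mul_sum]
      refine sum_le_sum fun e _ => ?_
      rw [← sum_add_distrib, mul_sum]
      refine sum_le_sum fun R _ => ?_
      set R' := Function.update R k e with hR'
      have h1 := single_le_sum (f := fun y => min (wt C G (Fin.cons e R))
        (wt C G (mv (Fin.cons e R) 0 k.succ y)) *
          (f (Fin.cons e R) - f (mv (Fin.cons e R) 0 k.succ y)) ^ 2)
        (fun y _ => mul_nonneg (le_min (hwn _) (hwn _)) (sq_nonneg _)) (mem_univ (s R'))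
      rw [mv_zero_succ] at h1
      set T := C' k e * wt C' (link e G) R with hT
      have hT0 : 0 ≤ T := mul_nonneg (hC'0 k e) (hwn' e R)
      have a1 : T ≤ K * wt C G (Fin.cons e R) := by
        rw [wt_cons, ← mul_assoc]
        exact mul_le_mul_of_nonneg_right (hK k.succ 0 e) (hwn' e R)
      have a2 : T ≤ K * wt C G (Fin.cons (s R') R') := by
        refine le_trans ?_ (mul_le_mul_of_nonneg_left (hs R' (R k)) hK0.le)
        rw [wt_cons, hT]
        simp only [wt, link, hR', prod_update, cons_ms_update]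
        rw [← mul_prod_erase univ (fun l => C' l (R l)) (mem_univ k)]
        have := mul_le_mul_of_nonneg_right (hK k.succ 0 (R k))
          (mul_nonneg (mul_nonneg (hC'0 k e) (prod_nonneg fun l (_ : l ∈ univ.erase k) =>
            hC'0 l (R l))) (hG.nonneg (e ::ₘ ms R)))
        simp only [hC', Fin.tail] at this ⊢
        linarith
      have a3 : T ≤ K * min (wt C G (Fin.cons e R)) (wt C G (Fin.cons (s R') R')) := by
        rw [mul_min_of_nonneg _ _ hK0.le]; exact le_min a1 a2
      rw [← wt_cons]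
      set A := f (Fin.cons e R) - g R with hA
      set B := f (Fin.cons e R) - f (Fin.cons (s R') R') with hB
      have e1 : g R - g R' = B - A := by simp only [hA, hB, hg]; ring
      rw [e1]
      have b1 := mul_le_mul_of_nonneg_right a1 (sq_nonneg A)
      have b2 := mul_le_mul_of_nonneg_right a3 (sq_nonneg B)
      have b3 := mul_le_mul_of_nonneg_left h1 hK0.le
      nlinarith [mul_nonneg hT0 (sq_nonneg (A + B))]
    have := sum_le_sum fun k (_ : k ∈ univ) => key k
    rw [← mul_sum, sum_add_distrib, sum_const, card_univ, Fintype.card_fin, nsmul_eq_mul] at this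
    linarith
  -- the flow lemma
  set L : ℝ := 2 * (m + 1) * K with hL
  have hm0 : (0 : ℝ) ≤ m := Nat.cast_nonneg m
  have hL0 : 0 < L := by positivity
  set x : Y → ℝ := fun a => (h a / L) * C 0 a with hx
  have hfl := flow hG hC'p x (by
    have : ∑ y, x y * Z C' (link y G) = (∑ a, C 0 a * h a * Z C' (link a G)) / L := by
      rw [sum_div]; exact sum_congr rfl fun a _ => by simp only [hx]; ring
    rw [this, hzero, zero_div]) g
  have hN : -bil (fun a b => Bk C' (link a (link b G))) x x ≤ m * K * U / L ^ 2 := by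
    have h1 := (abs_le.1 (bil_le_diag (q := fun a b => Bk C' (link a (link b G)))
      (fun a b => by rw [link_comm]) (fun a b => Bk_nonneg hC'0 fun _ => hG.nonneg _)
      (hC0 0) (fun a => h a / L))).1
    have h2 : ∑ e, C 0 e * (h e / L) ^ 2 * ∑ a, C 0 a * Bk C' (link a (link e G)) ≤
        m * K * U / L ^ 2 := by
      rw [hU, mul_sum, sum_div]
      refine sum_le_sum fun e _ => ?_
      have := Bk_le (K := K) (hC0 0) (C := C') (G := link e G) hC'0 (hG.link e).nonneg
        (fun k y => hK 0 k.succ y)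
      have := mul_le_mul_of_nonneg_left this (mul_nonneg (hC0 0 e) (sq_nonneg (h e / L)))
      refine this.trans (le_of_eq ?_)
      field_simp
    linarith
  set T1 := ∑ y, C 0 y * h y * ∑ R, wt C' (link y G) R * g R with hT1
  have hT1x : ∑ y, x y * ∑ R, wt C' (link y G) R * g R = T1 / L := by
    rw [hT1, sum_div]; exact sum_congr rfl fun a _ => by simp only [hx]; ring
  have hsplit : U - T1 ≤ U / 4 + S1 := by
    have e1 : U = ∑ a, C 0 a * h a * ∑ R, wt C' (link a G) R * f (Fin.cons a R) := by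
      have : ∑ a, C 0 a * h a * ∑ R, wt C' (link a G) R * f (Fin.cons a R) =
          U + t * ∑ a, C 0 a * h a * Z C' (link a G) := by
        rw [hU, mul_sum, ← sum_add_distrib]
        exact sum_congr rfl fun a _ => by rw [hmean a]; ring
      rw [this, hzero]; ring
    have e2 : U / 4 = ∑ a, ∑ R, C 0 a * wt C' (link a G) R * (h a ^ 2 / 4) := by
      rw [hU, sum_div]
      refine sum_congr rfl fun a _ => ?_
      rw [Z, mul_sum, sum_div]
      exact sum_congr rfl fun R _ => by ring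
    rw [e2]
    conv_lhs => rw [e1, hT1]
    rw [hS1, ← sum_sub_distrib, ← sum_add_distrib]
    refine sum_le_sum fun a _ => ?_
    rw [mul_sum, mul_sum, ← sum_sub_distrib, ← sum_add_distrib]
    refine sum_le_sum fun R _ => ?_
    nlinarith [mul_nonneg (mul_nonneg (hC0 0 a) (hwn' a R))
      (sq_nonneg (h a / 2 - (f (Fin.cons a R) - g R)))]
  rw [hT1x] at hfl
  have hT1b : T1 ≤ U / 4 + (m + 1) * K * Dir C' G g := by
    have h1 : 2 * (T1 / L) ≤ m * K * U / L ^ 2 + Dir C' G g := by linarith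
    have h2 := mul_le_mul_of_nonneg_left h1 (by positivity : 0 ≤ L / 2)
    have h3 : L / 2 * (2 * (T1 / L)) = T1 := by field_simp
    have h4 : L / 2 * (m * K * U / L ^ 2 + Dir C' G g) =
        (m / (m + 1)) * (U / 4) + (m + 1) * K * Dir C' G g := by
      rw [hL]; field_simp; ring
    have h5 : (m / (m + 1) : ℝ) * (U / 4) ≤ U / 4 := by
      have : (m / (m + 1) : ℝ) ≤ 1 := by rw [div_le_one (by positivity)]; linarith
      nlinarith
    linarith
  rw [Fin.sum_univ_succ]
  set D0 := DDj C G f 0 0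
  set D1 := ∑ k : Fin m, DDj C G f 0 k.succ
  have hD1 : 0 ≤ D1 := sum_nonneg fun k _ => DDj_nonneg hC0 hG.nonneg _ _ _
  have h6 : Dir C' G g ≤ K * ((m + 1) * (D0 + D1)) := by
    refine hDir.trans (mul_le_mul_of_nonneg_left ?_ hK0.le)
    nlinarith
  have h7 := mul_le_mul_of_nonneg_left h6 (by positivity : 0 ≤ (m + 1 : ℝ) * K)
  nlinarith

theorem poincare [Nonempty Y] {K : ℝ} (hK1 : 1 ≤ K) {N : ℕ} : ∀ {m : ℕ}, m ≤ N →
    ∀ {G : Multiset Y → ℝ}, Good G m → ∀ {C : Fin m → Y → ℝ}, (∀ k y, 0 < C k y) →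
    (∀ j k y, C j y ≤ K * C k y) → ∀ (f : (Fin m → Y) → ℝ) (t : ℝ),
    ∑ σ, wt C G σ * (f σ - t) = 0 →
    ∑ σ, wt C G σ * (f σ - t) ^ 2 ≤ (2 + 2 * N ^ 2 * K ^ 2) * ∑ j, ∑ k, DDj C G f j k
  | 0, _, G, hG, C, hC, _, f, t, ht => by
    simp only [univ_unique, sum_singleton] at ht ⊢
    rw [sq, ← mul_assoc, ht]
    simp
  | m + 1, hm, G, hG, C, hC, hK, f, t, ht => by
    set C' := Fin.tail C with hC'
    have hC0 : ∀ k y, 0 ≤ C k y := fun k y => (hC k y).le
    have hC'p : ∀ k y, 0 < C' k y := fun k y => hC k.succ y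
    have hC'0 : ∀ k y, 0 ≤ C' k y := fun k y => (hC'p k y).le
    have hwn' : ∀ a R, 0 ≤ wt C' (link a G) R := fun a => wt_nonneg hC'0 (hG.link a).nonneg
    set τ : Y → ℝ := fun a =>
      (∑ R, wt C' (link a G) R * f (Fin.cons a R)) / Z C' (link a G) with hτ
    have hmean : ∀ a, ∑ R, wt C' (link a G) R * f (Fin.cons a R) = Z C' (link a G) * τ a := by
      intro a
      by_cases hz : Z C' (link a G) = 0
      · rw [hz, zero_mul]
        rw [Z, sum_eq_zero_iff_of_nonneg fun R _ => hwn' a R] at hz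
        exact sum_eq_zero fun R hR => by rw [hz R hR, zero_mul]
      · simp only [hτ]; field_simp
    have hc : ∀ a, ∑ R, wt C' (link a G) R * (f (Fin.cons a R) - τ a) = 0 := by
      intro a
      simp only [mul_sub, sum_sub_distrib, ← sum_mul]
      rw [hmean a, Z, sub_self]
    have ih := fun a => poincare hK1 (N := N) (by omega : m ≤ N) (hG.link a) hC'p
      (fun j k y => hK j.succ k.succ y) (fun R => f (Fin.cons a R)) (τ a) (hc a)
    have hzero : ∑ a, C 0 a * (τ a - t) * Z C' (link a G) = 0 := by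
      rw [← ht, sum_tuple]
      refine sum_congr rfl fun a _ => ?_
      simp only [wt_cons, mul_assoc, ← mul_sum]
      congr 1
      simp only [mul_sub, sum_sub_distrib, ← sum_mul]
      rw [hmean a, Z]; ring
    have hh := head_bound hG hC hK1 hK f (fun a => τ a - t) t
      (fun a => by rw [hmean a]; ring) hzero
    have hdec : ∑ σ, wt C G σ * (f σ - t) ^ 2 =
        ∑ a, C 0 a * ∑ R, wt C' (link a G) R * (f (Fin.cons a R) - τ a) ^ 2 +
          ∑ a, C 0 a * (τ a - t) ^ 2 * Z C' (link a G) := by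
      rw [sum_tuple, ← sum_add_distrib]
      refine sum_congr rfl fun a _ => ?_
      have : ∑ R, wt C G (Fin.cons a R) * (f (Fin.cons a R) - t) ^ 2 =
          C 0 a * ∑ R, wt C' (link a G) R * (f (Fin.cons a R) - τ a) ^ 2 +
          C 0 a * (τ a - t) ^ 2 * Z C' (link a G) +
          2 * C 0 a * (τ a - t) * ∑ R, wt C' (link a G) R * (f (Fin.cons a R) - τ a) := by
        simp only [Z, mul_sum, ← sum_add_distrib]
        exact sum_congr rfl fun R _ => by rw [wt_cons]; ring
      rw [this, hc a]; ring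
    set Γ : ℝ := 2 + 2 * N ^ 2 * K ^ 2 with hΓ
    have hΓ0 : 0 ≤ Γ := by positivity
    have h1 : ∑ a, C 0 a * ∑ R, wt C' (link a G) R * (f (Fin.cons a R) - τ a) ^ 2 ≤
        Γ * ∑ j : Fin m, ∑ k : Fin m, DDj C G f j.succ k.succ := by
      simp only [DDj_succ hC0]
      have : ∑ j : Fin m, ∑ k : Fin m, ∑ a, C 0 a * DDj C' (link a G)
          (fun R => f (Fin.cons a R)) j k = ∑ a, C 0 a * ∑ j : Fin m, ∑ k : Fin m,
          DDj C' (link a G) (fun R => f (Fin.cons a R)) j k := by
        simp only [mul_sum]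
        rw [sum_comm]
        conv_lhs => enter [2, k]; rw [sum_comm]
        rw [sum_comm]
        refine sum_congr rfl fun a _ => ?_
        rw [sum_comm]
      rw [this, mul_sum]
      refine sum_le_sum fun a _ => ?_
      have := mul_le_mul_of_nonneg_left (ih a) (hC0 0 a)
      linarith
    have h2 : (2 + 2 * ((m : ℝ) + 1) ^ 2 * K ^ 2) ≤ Γ := by
      have : ((m : ℝ) + 1) ≤ N := by exact_mod_cast hm
      rw [hΓ]; gcongr
    have h3 : 0 ≤ ∑ k, DDj C G f 0 k := sum_nonneg fun k _ => DDj_nonneg hC0 hG.nonneg _ _ _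
    have h4 : ∑ j : Fin m, ∑ k : Fin m, DDj C G f j.succ k.succ ≤
        ∑ j : Fin m, ∑ k, DDj C G f j.succ k := by
      refine sum_le_sum fun j _ => ?_
      rw [Fin.sum_univ_succ]
      linarith [DDj_nonneg hC0 hG.nonneg f j.succ 0]
    rw [hdec, Fin.sum_univ_succ, mul_add]
    have h5 := mul_le_mul_of_nonneg_right h2 h3
    have h6 := mul_le_mul_of_nonneg_left h4 hΓ0
    linarith

end Vale.Agent.P317
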