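import Vale.Agent.P317.Logic

/-! Derived program constructs, their rules, and the text of the algorithm.

Arrays: 0 input, 1 output, 2 sources, 3 elements, 4 occupancy, 5 and 6 targets, 7 and 8 exponents,
9 counts. Scalars: 10 q, 11 Q, 12 S, 13 L, 14 offset, 15 T, 16 M, 17 threshold, 18 rank, 19 row,
20 count, 22 to 25 loop indices, 26 to 29 random numbers, 30 coin, 31 total, 32 old total,
33 accept, 34 size, 35 and 36 answers, 37 to 40 saved values, 41 mismatch, 42 to 45 scratch. -/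

namespace Vale.Agent.P317

variable {n : ℕ} {M₁ M₂ : Matroid (Fin n)}

@[simp] theorem write_ne (m : Mem) {a a' : ℕ} (h : a' ≠ a) (i x : ℕ) :
    m.write a i x a' = m a' := by
  funext j; simp [Mem.write, h]

@[simp] theorem write_self (m : Mem) (a i x : ℕ) :
    m.write a i x a = Function.update (m a) i x := by
  funext j
  by_cases h : j = i <;> simp [Mem.write, h]

theorem Ok.const {R : Mem → ℝ → Prop} {t : ℕ} {c : Config} {x : ℝ} (d : ℝ)
    (h : Ok M₁ M₂ R t c x) : Ok M₁ M₂ (fun m y => (∃ y', R m y') ∧ d ≤ y) t c d := by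
  induction h with
  | done h1 _ => exact Ok.done ⟨⟨_, h1⟩, le_rfl⟩ le_rfl
  | next _ _ _ ih1 ih2 => exact Ok.next ih1 ih2 (by linarith)

theorem W.const {p : Stmt} {t : ℕ} {R : Mem → ℝ → Prop} {m : Mem} {x : ℝ} (d : ℝ)
    (h : W M₁ M₂ p t R m x) : W M₁ M₂ p t (fun m y => (∃ y', R m y') ∧ d ≤ y) m d := Ok.const d h

/-- Deterministic triples. -/
def D (M₁ M₂ : Matroid (Fin n)) (p : Stmt) (t : ℕ) (m : Mem) (Q : Mem → Prop) : Prop :=
  ∀ x : ℝ, W M₁ M₂ p t (fun m' y => Q m' ∧ y = x) m x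

theorem D.toW {p : Stmt} {t : ℕ} {m : Mem} {Q : Mem → Prop} (h : D M₁ M₂ p t m Q)
    {R : Mem → ℝ → Prop} {x : ℝ} (hR : ∀ m', Q m' → R m' x) : W M₁ M₂ p t R m x :=
  (h x).mono fun m' _ h' => h'.2 ▸ hR m' h'.1

theorem D.mono {p : Stmt} {t : ℕ} {m : Mem} {Q Q' : Mem → Prop} (h : D M₁ M₂ p t m Q)
    (hQ : ∀ m', Q m' → Q' m') : D M₁ M₂ p t m Q' :=
  fun x => (h x).mono fun m' _ h' => ⟨hQ m' h'.1, h'.2⟩

theorem D.time {p : Stmt} {t t' : ℕ} {m : Mem} {Q : Mem → Prop} (h : D M₁ M₂ p t m Q)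
    (ht : t ≤ t') : D M₁ M₂ p t' m Q := fun x => (h x).time ht

theorem D.assign {a : ℕ} {i e : Expr} {m : Mem} {Q : Mem → Prop}
    (h : Q (m.write a (i.eval m) (e.eval m))) : D M₁ M₂ (.assign a i e) 1 m Q :=
  fun _ => W.assign ⟨h, rfl⟩

open Classical in
theorem D.query {second : Bool} {a b : ℕ} {off : Expr} {m : Mem} {Q : Mem → Prop}
    (h : Q (m.write b 0
      (if (if second then M₂ else M₁).Indep {e : Fin n | m a (off.eval m + e.val) ≠ 0}
        then 1 else 0))) : D M₁ M₂ (.query second a off b) 1 m Q :=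
  fun _ => W.query ⟨h, rfl⟩

theorem D.seq {p q : Stmt} {t₁ t₂ : ℕ} {m : Mem} {Q : Mem → Prop}
    (h : D M₁ M₂ p t₁ m fun m' => D M₁ M₂ q t₂ m' Q) : D M₁ M₂ (.seq p q) (t₁ + t₂ + 1) m Q :=
  fun x => W.seq (h.toW fun _ h' => h' x)

theorem D.ite_pos {c : Expr} {p q : Stmt} {t : ℕ} {m : Mem} {Q : Mem → Prop}
    (hc : c.eval m ≠ 0) (h : D M₁ M₂ p t m Q) : D M₁ M₂ (.ite c p q) (t + 1) m Q :=
  fun x => W.ite_pos hc (h x)

theorem D.ite_neg {c : Expr} {p q : Stmt} {t : ℕ} {m : Mem} {Q : Mem → Prop}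
    (hc : c.eval m = 0) (h : D M₁ M₂ q t m Q) : D M₁ M₂ (.ite c p q) (t + 1) m Q :=
  fun x => W.ite_neg hc (h x)

theorem D.frame {p : Stmt} {t : ℕ} {m : Mem} {Q : Mem → Prop} (l : List ℕ)
    (hl : ∀ a ∈ p.writes, a ∈ l) (h : D M₁ M₂ p t m Q) :
    D M₁ M₂ p t m fun m' => Q m' ∧ Same l m m' :=
  fun x => ((h x).frame l hl).mono fun _ _ h' => ⟨⟨h'.1.1, h'.2⟩, h'.1.2⟩

theorem D.loop {c : Expr} {p : Stmt} {t : ℕ} {Q : Mem → Prop} (I : ℕ → Mem → Prop)
    (hstop : ∀ j m, I j m → c.eval m = 0 → Q m) (hzero : ∀ m, I 0 m → c.eval m = 0)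
    (hstep : ∀ j m, I (j + 1) m → c.eval m ≠ 0 → D M₁ M₂ p t m (I j)) (N : ℕ) (m : Mem)
    (h : I N m) : D M₁ M₂ (.loop c p) (N * (t + 1) + 1) m Q :=
  fun x => W.loop (fun j m y => I j m ∧ y = x) (fun j m _ h hc => ⟨hstop j m h.1 hc, h.2⟩)
    (fun m _ h => hzero m h.1) (fun j m _ h hc => h.2 ▸ hstep j m h.1 hc x) N m x ⟨h, rfl⟩

/-- A scalar variable. -/
def sv (a : ℕ) : Expr := .get a (.const 0)

/-- Assignment to a scalar variable. -/
def setv (a : ℕ) (e : Expr) : Stmt := .assign a (.const 0) e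

theorem W.seqL {p q : Stmt} {t₁ t : ℕ} {R : Mem → ℝ → Prop} {m : Mem} {x : ℝ}
    (h : W M₁ M₂ p t₁ (W M₁ M₂ q (t - (t₁ + 1)) R) m x) (ht : t₁ + 1 ≤ t) :
    W M₁ M₂ (.seq p q) t R m x := (W.seq h).time (by omega)

theorem D.seqL {p q : Stmt} {t₁ t : ℕ} {m : Mem} {Q : Mem → Prop}
    (h : D M₁ M₂ p t₁ m fun m' => D M₁ M₂ q (t - (t₁ + 1)) m' Q) (ht : t₁ + 1 ≤ t) :
    D M₁ M₂ (.seq p q) t m Q := (D.seq h).time (by omega)

theorem W.seqA {a : ℕ} {i e : Expr} {q : Stmt} {t : ℕ} {R : Mem → ℝ → Prop} {m : Mem} {x : ℝ}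
    (h : W M₁ M₂ q (t - 2) R (m.write a (i.eval m) (e.eval m)) x) (ht : 2 ≤ t) :
    W M₁ M₂ (.seq (.assign a i e) q) t R m x := W.seqL (t₁ := 1) (W.assign h) ht

theorem D.seqA {a : ℕ} {i e : Expr} {q : Stmt} {t : ℕ} {m : Mem} {Q : Mem → Prop}
    (h : D M₁ M₂ q (t - 2) (m.write a (i.eval m) (e.eval m)) Q) (ht : 2 ≤ t) :
    D M₁ M₂ (.seq (.assign a i e) q) t m Q := D.seqL (t₁ := 1) (D.assign h) ht

theorem W.seqV {a : ℕ} {e : Expr} {q : Stmt} {t : ℕ} {R : Mem → ℝ → Prop} {m : Mem} {x : ℝ}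
    (h : W M₁ M₂ q (t - 2) R (m.write a 0 (e.eval m)) x) (ht : 2 ≤ t) :
    W M₁ M₂ (.seq (setv a e) q) t R m x := W.seqA h ht

theorem D.seqV {a : ℕ} {e : Expr} {q : Stmt} {t : ℕ} {m : Mem} {Q : Mem → Prop}
    (h : D M₁ M₂ q (t - 2) (m.write a 0 (e.eval m)) Q) (ht : 2 ≤ t) :
    D M₁ M₂ (.seq (setv a e) q) t m Q := D.seqA h ht

theorem D.setv {a : ℕ} {e : Expr} {t : ℕ} {m : Mem} {Q : Mem → Prop}
    (h : Q (m.write a 0 (e.eval m))) (ht : 1 ≤ t) : D M₁ M₂ (setv a e) t m Q :=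
  (D.assign h).time ht

theorem D.assignT {a : ℕ} {i e : Expr} {t : ℕ} {m : Mem} {Q : Mem → Prop}
    (h : Q (m.write a (i.eval m) (e.eval m))) (ht : 1 ≤ t) : D M₁ M₂ (.assign a i e) t m Q :=
  (D.assign h).time ht

/-- A counting loop with index variable `i`. -/
def forS (i : ℕ) (bound : Expr) (body : Stmt) : Stmt :=
  .seq (setv i (.const 0))
    (.loop (.sub bound (sv i)) (.seq body (setv i (.add (sv i) (.const 1)))))

theorem W.forS {i : ℕ} {bound : Expr} {body : Stmt} {t : ℕ} {R : Mem → ℝ → Prop} (l : List ℕ)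
    {m₀ : Mem} {x₀ : ℝ} (N : ℕ) (I : ℕ → Mem → ℝ → Prop) (hw : ∀ a ∈ body.writes, a ∈ l)
    (hi : i ∉ l) (hb : ∀ m, Same (i :: l) m₀ m → bound.eval m = N)
    (hI : ∀ j m x y, I j m x → I j (m.write i 0 y) x) (h0 : I 0 m₀ x₀)
    (hstep : ∀ j m x, j < N → Same (i :: l) m₀ m → m i 0 = j → I j m x →
      W M₁ M₂ body t (I (j + 1)) m x)
    (hend : ∀ m x, Same (i :: l) m₀ m → I N m x → R m x) :
    W M₁ M₂ (P317.forS i bound body) (N * (t + 3) + 3) R m₀ x₀ := by
  have key := W.loop (M₁ := M₁) (M₂ := M₂) (c := .sub bound (sv i))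
    (p := .seq body (setv i (.add (sv i) (.const 1)))) (t := t + 2) (R := R)
    (fun j m x => j ≤ N ∧ Same (i :: l) m₀ m ∧ m i 0 = N - j ∧ I (N - j) m x)
    (fun j m x h hc => by
      obtain ⟨h1, h2, h3, h4⟩ := h
      simp only [Expr.eval, sv, hb m h2, h3] at hc
      have : N - j = N := by omega
      exact hend m x h2 (this ▸ h4))
    (fun m x h => by
      obtain ⟨h1, h2, h3, h4⟩ := h
      simp only [Expr.eval, sv, hb m h2, h3]; omega)
    (fun j m x h hc => by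
      obtain ⟨h1, h2, h3, h4⟩ := h
      refine W.seq (t₁ := t) (t₂ := 1) ?_
      refine ((hstep _ m x (by omega) h2 h3 h4).frame l hw).mono fun m' y h' => ?_
      refine W.assign ⟨by omega, ?_, ?_, ?_⟩
      · exact (h2.trans (h'.2.mono fun a ha => List.mem_cons_of_mem _ ha)).write (by simp) _ _
      · simp only [Expr.eval, sv, write_self, Function.update_self, h'.2 i hi, h3]; omega
      · have : N - j = N - (j + 1) + 1 := by omega
        rw [this]
        exact hI _ _ _ _ h'.1)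
    N (m₀.write i 0 0) x₀ ⟨le_rfl, (Same.refl _ _).write (by simp) _ _, by simp, by
      rw [Nat.sub_self]; exact hI _ _ _ _ h0⟩
  have e : N * (t + 3) + 3 = 1 + (N * (t + 2 + 1) + 1) + 1 := by ring
  rw [e]
  exact W.seq (W.assign key)

theorem D.forS {i : ℕ} {bound : Expr} {body : Stmt} {t : ℕ} {Q : Mem → Prop} (l : List ℕ)
    {m₀ : Mem} (N : ℕ) (I : ℕ → Mem → Prop) (hw : ∀ a ∈ body.writes, a ∈ l)
    (hi : i ∉ l) (hb : ∀ m, Same (i :: l) m₀ m → bound.eval m = N)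
    (hI : ∀ j m y, I j m → I j (m.write i 0 y)) (h0 : I 0 m₀)
    (hstep : ∀ j m, j < N → Same (i :: l) m₀ m → m i 0 = j → I j m →
      D M₁ M₂ body t m (I (j + 1)))
    (hend : ∀ m, Same (i :: l) m₀ m → I N m → Q m) :
    D M₁ M₂ (P317.forS i bound body) (N * (t + 3) + 3) m₀ Q :=
  fun x => W.forS l N (fun j m y => I j m ∧ y = x) hw hi hb
    (fun j m _ y h => ⟨hI j m y h.1, h.2⟩) ⟨h0, rfl⟩
    (fun j m _ h1 h2 h3 h4 => h4.2 ▸ hstep j m h1 h2 h3 h4.1 x)
    (fun m _ h1 h2 => ⟨hend m h1 h2.1, h2.2⟩)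

/-- The size of the ground set. -/
def eN : Expr := sv 0

/-- Nonzero exactly when the two values differ. -/
def neq (a b : Expr) : Expr := .add (.sub a b) (.sub b a)

/-- Do nothing useful. -/
def skip : Stmt := setv 30 (.const 0)

/-- A uniform random number with `q` bits. -/
def rand (d : ℕ) : Stmt :=
  .seq (setv d (.const 0))
    (forS 25 (sv 10) (.seq (.flip 30) (setv d (.add (.add (sv d) (sv d)) (sv 30)))))

/-- The exponent of the slot whose number is in variable 25. -/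
def exE : Expr :=
  .add (.cond (neq (.get 2 (sv 25)) (sv 25)) (sv 12) (.const 0))
    (.cond (neq (.get 3 (sv 25)) (.get 5 (.get 2 (sv 25))))
      (.cond (neq (.get 3 (sv 25)) (.get 6 (.get 2 (sv 25))))
        (.get 8 (.get 2 (sv 25))) (.get 7 (.get 2 (sv 25))))
      (.get 7 (.get 2 (sv 25))))

/-- Compute the total exponent. -/
def total : Stmt := .seq (setv 31 (.const 0)) (forS 25 eN (setv 31 (.add (sv 31) exE)))

/-- Test validity of the state. -/
def valid : Stmt :=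
  .seq (forS 25 (.add eN eN) (.assign 4 (sv 25) (.sub (.add (sv 25) (.const 1)) eN)))
  (.seq (forS 25 eN (.assign 4 (.get 3 (sv 25)) (.sub eN (.get 3 (sv 25)))))
  (.seq (setv 34 (.const 0))
  (.seq (forS 25 eN (setv 34 (.add (sv 34) (.cond (.get 4 (sv 25)) (.const 1) (.const 0)))))
  (.seq (.query false 4 (.const 0) 35)
  (.seq (.query true 4 eN 36)
    (setv 33 (.cond (neq (sv 34) (sv 18)) (.const 0) (.cond (sv 35) (sv 36) (.const 0)))))))))

/-- Keep the acceptance flag with probability `2^{-d}`. -/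
def coins : Stmt :=
  forS 25 (.sub (sv 31) (sv 32)) (.seq (.flip 30) (setv 33 (.cond (sv 30) (sv 33) (.const 0))))

/-- Save the two slots and perform the move. -/
def propose : Stmt :=
  .seq (setv 37 (.get 2 (sv 26))) (.seq (setv 38 (.get 3 (sv 26)))
  (.seq (setv 39 (.get 2 (sv 27))) (.seq (setv 40 (.get 3 (sv 27)))
  (.seq (.assign 2 (sv 27) (sv 37)) (.seq (.assign 3 (sv 27) (sv 38))
  (.seq (.assign 2 (sv 26) (sv 28)) (.assign 3 (sv 26) (sv 29))))))))

/-- Undo the move. -/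
def restore : Stmt :=
  .seq (.assign 2 (sv 26) (sv 37)) (.seq (.assign 3 (sv 26) (sv 38))
  (.seq (.assign 2 (sv 27) (sv 39)) (.assign 3 (sv 27) (sv 40))))

/-- The Metropolis filter. -/
def attempt : Stmt :=
  .seq total (.seq (setv 32 (sv 31)) (.seq propose (.seq total (.seq valid
    (.seq coins (.ite (sv 33) skip restore))))))

/-- One step of the chain. -/
def chainStep : Stmt :=
  .seq (rand 26) (.seq (rand 27) (.seq (rand 28) (.seq (rand 29)
    (.ite (.cond (.sub eN (sv 26)) (.cond (.sub eN (sv 27))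
      (.cond (.sub eN (sv 28)) (.sub (.add eN eN) (sv 29)) (.const 0)) (.const 0)) (.const 0))
      attempt skip))))

/-- Record the current sample. -/
def record : Stmt :=
  .seq (setv 41 (.const 0))
  (.seq (forS 25 eN (setv 41 (.add (sv 41) (neq (.get 2 (sv 25)) (sv 25)))))
  (.seq (.assign 9 (sv 41) (.add (.get 9 (sv 41)) (.cond (.get 2 (sv 41)) (.const 0) (.const 1))))
    (setv 20 (.add (sv 20) (.cond (sv 41) (.const 0)
      (.cond (neq (.get 3 (sv 19)) (.get 5 (sv 19)))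
        (.cond (neq (.get 3 (sv 19)) (.get 6 (sv 19))) (.const 1) (.const 0)) (.const 0)))))))

/-- Collect the samples. -/
def sample : Stmt :=
  .seq (forS 25 eN (.assign 9 (sv 25) (.const 0))) (.seq (setv 20 (.const 0))
    (forS 23 (sv 16) (.seq (forS 24 (sv 15) chainStep) record)))

/-- Multiply cell `j` of the output by the value of `e`. -/
def mulOut (j : ℕ) (e : Expr) : Stmt :=
  .seq (setv 42 (.const 0)) (.seq (forS 25 e (setv 42 (.add (sv 42) (.get 1 (.const j)))))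
    (.assign 1 (.const j) (sv 42)))

/-- The adjusted exponent. -/
def adjE (a : ℕ) : Expr :=
  .cond (sv 25) (.cond (.sub (.get 9 (sv 25)) (sv 17)) (.sub (.get a (sv 25)) (.const 2))
    (.add (.get a (sv 25)) (.const 2))) (.get a (sv 25))

/-- Update the estimate and the exponents. -/
def adjust : Stmt :=
  .seq (mulOut 0 (.sub (.add (sv 9) (sv 9)) (sv 20))) (.seq (mulOut 1 (.add (sv 9) (sv 9)))
  (.seq (forS 25 eN (.seq (.assign 7 (sv 25) (adjE 7)) (.assign 8 (sv 25) (adjE 8))))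
    (.assign 8 (sv 19) (.add (.get 8 (sv 19)) (.const 1)))))

/-- One annealing stage. -/
def stage : Stmt := .seq sample adjust

/-- One annealing run. -/
def phase : Stmt :=
  .seq (forS 25 eN (.seq (.assign 7 (sv 25) (sv 14)) (.assign 8 (sv 25) (sv 14))))
    (forS 19 eN (forS 22 (sv 13) stage))

/-- `c` times an expression. -/
def mulc : ℕ → Expr → Expr
  | 0, _ => .const 0
  | c + 1, e => .add e (mulc c e)

/-- Set `d` to `Q ^ c`. -/
def powQ (d c : ℕ) : Stmt :=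
  .seq (setv d (.const 1)) (forS 25 (mulc c (sv 10)) (setv d (.add (sv d) (sv d))))

/-- Compute the base number. -/
def baseP : Stmt :=
  .seq (setv 43 (.add (.add eN eN) (.const 256))) (.seq (setv 44 (.const 0))
  (.seq (.loop (.sub (.get 0 (.const 2)) (sv 44))
    (.seq (setv 44 (.add (sv 44) (.get 0 (.const 1)))) (setv 43 (.add (sv 43) (.const 1)))))
  (.seq (setv 44 (.get 0 (.const 3)))
    (.loop (.sub (.get 0 (.const 4)) (sv 44))
      (.seq (setv 44 (.add (sv 44) (sv 44))) (setv 43 (.add (sv 43) (.const 1))))))))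

/-- Compute the parameters. -/
def params : Stmt :=
  .seq baseP (.seq (setv 11 (.const 1)) (.seq (setv 10 (.const 0))
  (.seq (.loop (.sub (sv 43) (sv 11))
    (.seq (setv 11 (.add (sv 11) (sv 11))) (setv 10 (.add (sv 10) (.const 1)))))
  (.seq (setv 12 (mulc 4 (sv 10))) (.seq (powQ 13 2) (.seq (powQ 14 4) (.seq (powQ 15 20)
  (.seq (powQ 16 12) (powQ 17 8)))))))))

/-- Greedy construction of a base in the occupancy array at the given offset. -/
def greedy (second : Bool) (off : Expr) : Stmt :=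
  forS 25 eN (.seq (.assign 4 (.add off (sv 25)) (.const 1))
    (.seq (.query second 4 off 35) (.assign 4 (.add off (sv 25)) (sv 35))))

/-- Build the first state. -/
def build : Stmt :=
  .seq (setv 45 (.const 0))
  (.seq (forS 25 eN (.seq (.assign 3 (sv 45) (sv 25)) (setv 45 (.add (sv 45) (.get 4 (sv 25))))))
  (.seq (setv 18 (sv 45))
    (forS 25 eN (.seq (.assign 3 (sv 45) (.add eN (sv 25)))
      (setv 45 (.add (sv 45) (.sub (.const 1) (.get 4 (.add eN (sv 25))))))))))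

/-- The whole algorithm. -/
def mainP : Stmt :=
  .seq params (.seq (greedy false (.const 0)) (.seq (greedy true eN) (.seq build
  (.seq (.assign 1 (.const 0) (.const 1)) (.seq (.assign 1 (.const 1) (.const 1))
  (.seq (forS 25 eN (.seq (.assign 5 (sv 25) (.get 3 (sv 25))) (.assign 6 (sv 25) (.get 3 (sv 25)))))
  (.seq phase
  (.seq (setv 42 (sv 1)) (.seq (setv 1 (.get 1 (.const 1))) (.seq (.assign 1 (.const 1) (sv 42))
  (.seq (forS 25 eN (.seq (.assign 5 (sv 25) (sv 25)) (.assign 6 (sv 25) (.add eN (sv 25)))))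
  (.seq phase
    (setv 1 (.cond (.sub (.get 1 (.const 1)) (.add (sv 1) (sv 1))) (.const 0) (sv 1)))))))))))))))

end Vale.Agent.P317
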