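import Vale.Agent.P317.Poincare

/-! Multilinearity, two-slot kernels, the triangle inequality, softening and parallel copies. -/

namespace Vale.Agent.P317

open Finset Function

variable {Y : Type} [Fintype Y]

omit [Fintype Y] in
theorem wt_update {m : ℕ} (C : Fin m → Y → ℝ) (G : Multiset Y → ℝ) (k : Fin m) (a : Y → ℝ)
    (σ : Fin m → Y) :
    wt (update C k a) G σ = a (σ k) * ((∏ l ∈ univ.erase k, C l (σ l)) * G (ms σ)) := by
  rw [wt, ← mul_prod_erase univ _ (mem_univ k), update_self, mul_assoc]
  congr 2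
  exact prod_congr rfl fun l hl => by rw [update_of_ne (mem_erase.1 hl).1]

theorem Z_update_lin {m : ℕ} (C : Fin m → Y → ℝ) (G : Multiset Y → ℝ) (k : Fin m) (s t : ℝ)
    (a b : Y → ℝ) : Z (update C k fun y => s * a y + t * b y) G =
      s * Z (update C k a) G + t * Z (update C k b) G := by
  simp only [Z, wt_update, mul_sum, ← sum_add_distrib]
  exact sum_congr rfl fun σ _ => by ring

theorem Z_update_smul {m : ℕ} (C : Fin m → Y → ℝ) (G : Multiset Y → ℝ) (k : Fin m) (s : ℝ)
    (a : Y → ℝ) : Z (update C k fun y => s * a y) G = s * Z (update C k a) G := by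
  simp only [Z, wt_update, mul_sum]
  exact sum_congr rfl fun σ _ => by ring

theorem Z_update_sum {ι : Type} (s : Finset ι) {m : ℕ} (C : Fin m → Y → ℝ) (G : Multiset Y → ℝ)
    (k : Fin m) (a : ι → Y → ℝ) : Z (update C k fun y => ∑ i ∈ s, a i y) G =
      ∑ i ∈ s, Z (update C k (a i)) G := by
  simp only [Z, wt_update, sum_mul]
  rw [sum_comm]

theorem Z_mono {m : ℕ} {C C' : Fin m → Y → ℝ} {G : Multiset Y → ℝ} (hC : ∀ k y, 0 ≤ C k y)
    (h : ∀ k y, C k y ≤ C' k y) (hG : ∀ s, 0 ≤ G s) : Z C G ≤ Z C' G :=
  sum_le_sum fun _ _ => mul_le_mul_of_nonneg_right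
    (prod_le_prod (fun k _ => hC k _) fun k _ => h k _) (hG _)

theorem Z_scale {m : ℕ} (C : Fin m → Y → ℝ) (G : Multiset Y → ℝ) (x : Fin m → ℝ) :
    Z (fun k y => x k * C k y) G = (∏ k, x k) * Z C G := by
  simp only [Z, wt, prod_mul_distrib, mul_sum]
  exact sum_congr rfl fun σ _ => by ring

theorem Z_reindex {m : ℕ} (C : Fin m → Y → ℝ) (G : Multiset Y → ℝ) (e : Fin m ≃ Fin m) :
    Z (fun k => C (e k)) G = Z C G := by
  unfold Z
  rw [← Equiv.sum_comp (Equiv.arrowCongr e.symm (Equiv.refl Y))]
  refine sum_congr rfl fun σ _ => ?_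
  have h1 : (Equiv.arrowCongr e.symm (Equiv.refl Y)) σ = fun k => σ (e k) := by
    funext k; simp
  rw [h1, wt, wt, Equiv.prod_comp e fun k => C k (σ k)]
  congr 2
  unfold ms
  rw [show (fun k => σ (e k)) = σ ∘ e from rfl, ← Multiset.map_map, Multiset.map_univ_val_equiv]

theorem two_slot {m : ℕ} {G : Multiset Y → ℝ} (hG : Good G m) {C : Fin m → Y → ℝ}
    (hC : ∀ k y, 0 < C k y) {i j : Fin m} (hij : i ≠ j) :
    ∃ q : Y → Y → ℝ, (∀ a b, q a b = q b a) ∧ (∀ a b, 0 ≤ q a b) ∧ Hyp q ∧
      ∀ a b, Z (update (update C i a) j b) G = bil q a b := by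
  obtain ⟨m, rfl⟩ : ∃ m', m = m' + 2 := by
    refine ⟨m - 2, ?_⟩
    have h1 := i.2
    have h2 := j.2
    have h3 : i.1 ≠ j.1 := fun h => hij (Fin.ext h)
    omega
  let e1 : Fin (m + 2) ≃ Fin (m + 2) := Equiv.swap 0 i
  let e : Fin (m + 2) ≃ Fin (m + 2) := (Equiv.swap 1 (e1 j)).trans e1
  have hj : e1 j ≠ 0 := by
    intro h
    have := congrArg e1 h
    simp only [e1, Equiv.swap_apply_self, Equiv.swap_apply_left] at this
    exact hij this.symm
  have he0 : e 0 = i := by
    simp only [e, Equiv.trans_apply]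
    rw [Equiv.swap_apply_of_ne_of_ne (by simp) hj.symm]
    simp [e1]
  have he1 : e 1 = j := by simp [e, e1]
  let D : Fin m → Y → ℝ := fun l => C (e l.succ.succ)
  have hD : ∀ k y, 0 < D k y := fun k y => hC _ _
  refine ⟨fun a b => Z D (link a (link b G)), fun a b => by beta_reduce; rw [link_comm],
    fun a b => Z_nonneg (fun k y => (hD k y).le) ((hG.link b).link a).nonneg, ker_hyp hG hD,
    fun a b => ?_⟩
  rw [← Z_reindex _ _ e, Z_succ, bil]
  refine sum_congr rfl fun y _ => ?_
  rw [Z_succ, mul_sum]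
  refine sum_congr rfl fun y' _ => ?_
  have t0 : update (update C i a) j b (e 0) = a := by rw [he0, update_of_ne hij, update_self]
  have t1 : Fin.tail (fun k => update (update C i a) j b (e k)) 0 = b := by
    simp only [Fin.tail, Fin.succ_zero_eq_one, he1, update_self]
  have t2 : Fin.tail (Fin.tail fun k => update (update C i a) j b (e k)) = D := by
    funext l
    simp only [Fin.tail, D]
    rw [update_of_ne, update_of_ne]
    · rw [← he0]; exact e.injective.ne (Fin.succ_ne_zero _)
    · rw [← he1]; exact e.injective.ne (by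
        rw [← Fin.succ_zero_eq_one]; exact (Fin.succ_injective _).ne (Fin.succ_ne_zero _))
  rw [t0, t1, t2, link_comm]
  ring

/-- The triangle inequality for near-perfect partition functions. -/
theorem tri {m : ℕ} {G : Multiset Y → ℝ} (hG : Good G m) {C : Fin m → Y → ℝ}
    (hC : ∀ k y, 0 < C k y) {i j : Fin m} (hij : i ≠ j) {b : Y → ℝ} (hb : ∀ y, 0 ≤ b y) :
    Z (update C j (C i)) G * Z (update C i b) G ≤ 2 * Z (update C j b) G * Z C G := by
  obtain ⟨q, hs, hq, hh, hZ⟩ := two_slot hG hC hij
  have := hh.three hs hq (hC i) hb fun y => (hC j y).le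
  rw [← hZ, ← hZ, ← hZ, ← hZ, update_eq_self, update_eq_self] at this
  have e : update (update C i b) j (C j) = update C i b := by
    rw [update_eq_self_iff, update_of_ne hij.symm]
  rwa [e] at this

theorem soften {m : ℕ} {G : Multiset Y → ℝ} (hG : Good G m) {B : Fin m → Y → ℝ}
    (hB : ∀ k y, 0 < B k y) {w : Y → ℝ} (hw : ∀ y, 0 ≤ w y) {s Λ : ℝ} (hs : 0 ≤ s) (hΛ : 0 ≤ Λ)
    (hZ : 0 < Z B G) (h : ∀ j, Z (update B j w) G ≤ Λ * Z B G) (hsm : 16 * s * m * Λ ≤ 1) :
    Z (fun k y => B k y + s * w y) G ≤ 2 * Z B G := by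
  let C : Finset (Fin m) → Fin m → Y → ℝ := fun J k y => if k ∈ J then B k y + s * w y else B k y
  have hC : ∀ J k y, B k y ≤ C J k y := fun J k y => by
    simp only [C]; split_ifs
    · linarith [mul_nonneg hs (hw y)]
    · exact le_rfl
  have hCp : ∀ J k y, 0 < C J k y := fun J k y => (hB k y).trans_le (hC J k y)
  have key : ∀ J : Finset (Fin m), Z (C J) G ≤ (1 + 2 * s * Λ * J.card) * Z B G ∧
      ∀ j, Z (update (C J) j w) G ≤ (Λ + 16 * s * Λ ^ 2 * J.card) * Z B G := by
    intro J
    induction J using Finset.induction_on with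
    | empty =>
      have : C ∅ = B := by funext k y; simp [C]
      rw [this]
      exact ⟨by simp, fun j => by simpa using h j⟩
    | @insert k J hk ih =>
      have hJ : (J.card : ℝ) ≤ m := by
        have := card_le_univ J
        rw [Fintype.card_fin] at this
        exact_mod_cast this
      have hL : ∀ j, Z (update (C J) j w) G ≤ 2 * Λ * Z B G := fun j => by
        refine (ih.2 j).trans (mul_le_mul_of_nonneg_right ?_ hZ.le)
        have h1 : 16 * s * Λ * J.card ≤ 1 := by
          have := mul_le_mul_of_nonneg_left hJ (by positivity : 0 ≤ 16 * s * Λ)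
          linarith
        nlinarith
      have e : C (insert k J) = update (C J) k fun y => 1 * C J k y + s * w y := by
        funext l y
        by_cases hl : l = k
        · subst hl; simp [C, hk]
        · simp [C, hl]
      rw [card_insert_of_notMem hk, e]
      push_cast
      refine ⟨?_, fun j => ?_⟩
      · rw [Z_update_lin, update_eq_self]
        have := mul_le_mul_of_nonneg_left (hL k) hs
        linarith [ih.1]
      · by_cases hjk : j = k
        · subst hjk
          rw [update_idem]
          refine (ih.2 j).trans (mul_le_mul_of_nonneg_right ?_ hZ.le)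
          have : 0 ≤ 16 * s * Λ ^ 2 := by positivity
          linarith
        · obtain ⟨q, hs', hq, hh, hZq⟩ := two_slot hG (hCp J) hjk
          rw [update_comm (Ne.symm hjk), Z_update_lin, hZq w w]
          have e1 : update (update (C J) j w) k (C J k) = update (C J) j w := by
            rw [update_eq_self_iff, update_of_ne (Ne.symm hjk)]
          rw [e1]
          set a : Y → ℝ := fun y => 1 * C J j y + 1 * C J k y with ha
          have h3 := hh.three hs' hq (a := a) (fun y => by
            have := hCp J j y; have := hCp J k y; simp only [ha]; linarith) hw hw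
          have h4 : 2 * Z B G ≤ bil q a a := by
            rw [ha, bil_sq hs', ← hZq (C J j) (C J k), update_eq_self, update_eq_self]
            have b1 := bil_nonneg hq (fun y => (hCp J j y).le) (fun y => (hCp J j y).le)
            have b2 := bil_nonneg hq (fun y => (hCp J k y).le) (fun y => (hCp J k y).le)
            have b3 := Z_mono (fun k y => (hB k y).le) (hC J) hG.nonneg
            linarith
          have h5 : bil q a w ≤ 4 * Λ * Z B G := by
            rw [ha, bil_lin_left, bil_comm hs' (C J k), ← hZq, ← hZq, update_eq_self, e1]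
            linarith [hL j, hL k]
          have h6 : 0 ≤ bil q a w := bil_nonneg hq (fun y => by
            have := hCp J j y; have := hCp J k y; simp only [ha]; linarith) hw
          have h7 : 0 ≤ bil q w w := bil_nonneg hq hw hw
          have h8 : bil q w w ≤ 16 * Λ ^ 2 * Z B G := by
            have h9 : 2 * Z B G * bil q w w ≤ 2 * (4 * Λ * Z B G) ^ 2 := by nlinarith
            by_contra hcon
            push Not at hcon
            nlinarith
          have := mul_le_mul_of_nonneg_left h8 hs
          linarith [ih.2 j]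
  have := (key univ).1
  have e : C univ = fun k y => B k y + s * w y := by funext k y; simp [C]
  rw [e, card_univ, Fintype.card_fin] at this
  refine this.trans (mul_le_mul_of_nonneg_right ?_ hZ.le)
  nlinarith [mul_nonneg (mul_nonneg hs hΛ) (Nat.cast_nonneg (α := ℝ) m)]

/-- Parallel copies. -/
def lift {ι α : Type} (G : Multiset α → ℝ) : Multiset (ι × α) → ℝ := fun s => G (s.map Prod.snd)

theorem Z_lift {ι α : Type} [Fintype ι] [Fintype α] : ∀ {m : ℕ} (C : Fin m → ι × α → ℝ)
    (G : Multiset α → ℝ), Z C (lift G) = Z (fun k y => ∑ i, C k (i, y)) G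
  | 0, C, G => by simp [Z_zero, lift]
  | m + 1, C, G => by
    rw [Z_succ, Z_succ, Fintype.sum_prod_type, sum_comm]
    refine sum_congr rfl fun y _ => ?_
    rw [sum_mul]
    refine sum_congr rfl fun i _ => ?_
    have : link (i, y) (lift G) = lift (link y G) := by
      funext s; simp [link, lift]
    rw [this, Z_lift]
    rfl

theorem Good.lift {ι α : Type} [Nonempty ι] {G : Multiset α → ℝ} {d : ℕ} (h : Good G d) :
    Good (lift (ι := ι) G) d := by
  have key : ∀ s : Multiset (ι × α), Ind (P317.lift G) s ↔ Ind G (s.map Prod.snd) := by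
    intro s
    constructor
    · rintro ⟨t, ht⟩
      exact ⟨t.map Prod.snd, by simpa [P317.lift] using ht⟩
    · rintro ⟨t, ht⟩
      obtain ⟨i⟩ := ‹Nonempty ι›
      exact ⟨t.map fun y => (i, y), by simpa [P317.lift, Multiset.map_map] using ht⟩
  refine ⟨fun s => h.zo _, fun s hs => by simpa using h.card _ hs, fun τ y y' z h1 h2 => ?_⟩
  simp only [key, Multiset.map_cons] at h1 h2 ⊢
  exact h.aug _ _ _ _ h1 h2

theorem Z_event {m : ℕ} (C : Fin m → Y → ℝ) (G : Multiset Y → ℝ) (E : Fin m → Y → Prop)
    [∀ k y, Decidable (E k y)] (P : (Fin m → Y) → Prop) [DecidablePred P]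
    (hP : ∀ σ, P σ ↔ ∀ k, E k (σ k)) :
    ∑ σ, wt C G σ * (if P σ then 1 else 0) = Z (fun k y => if E k y then C k y else 0) G := by
  refine sum_congr rfl fun σ _ => ?_
  split_ifs with h
  · simp [wt, (hP σ).1 h]
  · rw [hP] at h
    push Not at h
    obtain ⟨k, hk⟩ := h
    rw [mul_zero, wt, prod_eq_zero (mem_univ k) (by simp [hk]), zero_mul]

end Vale.Agent.P317
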