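import Vale.Agent.P317.Mat
import Vale.Agent.P317.Chain

/-! The analysis of one annealing stage. -/

namespace Vale.Agent.P317

open Finset Function

variable {n : ℕ} {α : Type} [Fintype α] [DecidableEq α]

/-- The exponent of the weight of the pair `p` in slot `k`. -/
def ex (U V : Fin n → α) (u t : Fin n → ℕ) (S : ℕ) (k : Fin n) (p : Fin n × α) : ℕ :=
  (if p.1 = k then 0 else S) + (if p.2 = U p.1 ∨ p.2 = V p.1 then u p.1 else u p.1 + t p.1)

/-- The soft weights. -/
noncomputable def Cw (U V : Fin n → α) (u t : Fin n → ℕ) (S : ℕ) (k : Fin n) (p : Fin n × α) : ℝ :=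
  (1 / 2) ^ ex U V u t S k p

/-- The scaled rows. -/
noncomputable def Bw (U V : Fin n → α) (u t : Fin n → ℕ) (i : Fin n) (y : α) : ℝ :=
  (1 / 2) ^ u i * Aw U V t i y

section
variable {G : Multiset α → ℝ} {U V : Fin n → α} {u t : Fin n → ℕ} {S : ℕ}

omit [Fintype α] in
theorem Cw_eq (k i : Fin n) (y : α) :
    Cw U V u t S k (i, y) = (if i = k then 1 else (1 / 2) ^ S) * Bw U V u t i y := by
  simp only [Cw, ex, Bw, Aw]
  split_ifs <;> simp only [pow_add, pow_zero] <;> ring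

omit [Fintype α] in
theorem Cw_pos (k : Fin n) (p : Fin n × α) : 0 < Cw U V u t S k p := by unfold Cw; positivity

omit [Fintype α] in
theorem Bw_pos (i : Fin n) (y : α) : 0 < Bw U V u t i y :=
  mul_pos (by positivity) (Aw_pos _ _ _ _ _)

omit [Fintype α] in
theorem Cw_ratio (j k : Fin n) (p : Fin n × α) :
    Cw U V u t S j p ≤ 2 ^ S * Cw U V u t S k p := by
  obtain ⟨i, y⟩ := p
  rw [Cw_eq, Cw_eq, ← mul_assoc]
  refine mul_le_mul_of_nonneg_right ?_ (Bw_pos i y).le
  have h1 : (2 : ℝ) ^ S * (1 / 2) ^ S = 1 := by rw [← mul_pow]; norm_num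
  have h2 : (1 : ℝ) ≤ 2 ^ S := one_le_pow₀ (by norm_num)
  have h3 : ((1 : ℝ) / 2) ^ S ≤ 1 := pow_le_one₀ (by norm_num) (by norm_num)
  split_ifs <;> linarith

/-- Slot `i` has source `o` and all other slots are real. -/
def Ev (o i : Fin n) (σ : Fin n → Fin n × α) : Prop := ∀ k, (σ k).1 = if k = i then o else k

/-- All slots are real and slot `k` does not hold one of its targets. -/
def EvN (U V : Fin n → α) (k : Fin n) (σ : Fin n → Fin n × α) : Prop :=
  ∀ l, (σ l).1 = l ∧ (l = k → ¬((σ l).2 = U k ∨ (σ l).2 = V k))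

open Classical in
theorem mass_Ev (o i : Fin n) :
    ∑ σ, wt (Cw U V u t S) (lift G) σ * (if Ev o i σ then 1 else 0) =
      (if i = o then 1 else (1 / 2) ^ S) * Z (update (Bw U V u t) i (Bw U V u t o)) G := by
  rw [Z_event (Cw U V u t S) (lift G) (fun k p => p.1 = if k = i then o else k) (Ev o i)
    (fun σ => Iff.rfl), Z_lift, ← Z_update_smul]
  congr 1
  funext k y
  rw [sum_eq_single (if k = i then o else k) (fun j _ hj => if_neg hj) (by simp), if_pos rfl, Cw_eq]
  by_cases hk : k = i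
  · subst hk; simp [eq_comm]
  · simp [hk]

open Classical in
theorem mass_EvN (k : Fin n) :
    ∑ σ, wt (Cw U V u t S) (lift G) σ * (if EvN U V k σ then 1 else 0) =
      Z (update (Bw U V u t) k fun y => if y = U k ∨ y = V k then 0 else Bw U V u t k y) G := by
  rw [Z_event (Cw U V u t S) (lift G)
    (fun l p => p.1 = l ∧ (l = k → ¬(p.2 = U k ∨ p.2 = V k))) (EvN U V k) (fun σ => Iff.rfl),
    Z_lift]
  congr 1
  funext l y
  rw [sum_eq_single l (fun j _ hj => if_neg fun h => hj h.1) (by simp), Cw_eq]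
  by_cases hk : l = k
  · subst hk
    by_cases he : y = U l ∨ y = V l
    · rw [if_neg fun h => h.2 rfl he, update_self, if_pos he]
    · rw [if_pos ⟨rfl, fun _ => he⟩, update_self, if_neg he]; simp
  · simp [hk]

theorem Zt_lower (hG : Good G n) : Z (Bw U V u t) G ≤ Z (Cw U V u t S) (lift G) := by
  rw [Z_lift]
  refine Z_mono (fun k y => (Bw_pos k y).le) (fun k y => ?_) hG.nonneg
  refine le_trans ?_ (single_le_sum (f := fun i => Cw U V u t S k (i, y))
    (fun i _ => (Cw_pos k _).le) (mem_univ k))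
  rw [Cw_eq]; simp

/-- The row scalings are correct up to a factor `64`. -/
def GoodU (G : Multiset α → ℝ) (U V : Fin n → α) (u t : Fin n → ℕ) (o : Fin n) : Prop :=
  ∀ i, Z (Bw U V u t) G ≤ 64 * Z (update (Bw U V u t) i (Bw U V u t o)) G ∧
    Z (update (Bw U V u t) i (Bw U V u t o)) G ≤ 64 * Z (Bw U V u t) G

theorem Z_pos {m : ℕ} {Y : Type} [Fintype Y] {G : Multiset Y → ℝ} (hG : Good G m)
    (hne : ∃ s, G s ≠ 0) {C : Fin m → Y → ℝ} (hC : ∀ k y, 0 < C k y) : 0 < Z C G :=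
  lt_of_le_of_ne (Z_nonneg (fun k y => (hC k y).le) hG.nonneg)
    (Ne.symm ((Z_ne_zero_iff hG hC).2 hne))

theorem Zt_upper (hG : Good G n) (hne : ∃ s, G s ≠ 0) {o : Fin n} (hU : GoodU G U V u t o)
    (hS : 2 ^ 17 * (n : ℝ) ^ 2 * (1 / 2) ^ S ≤ 1) :
    Z (Cw U V u t S) (lift G) ≤ 2 * Z (Bw U V u t) G := by
  set B := Bw U V u t with hB
  have hBp : ∀ k y, 0 < B k y := Bw_pos
  have hZ : 0 < Z B G := Z_pos hG hne hBp
  have h1 : ∀ i j, Z (update B j (B i)) G ≤ 8192 * Z B G := by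
    intro i j
    by_cases hij : i = j
    · subst hij; rw [update_eq_self]; linarith
    · have h2 := tri hG hBp hij fun y => (hBp o y).le
      have h3 := (hU i).1
      have h4 := (hU j).2
      have h5 : 0 ≤ Z (update B j (B i)) G := Z_nonneg (fun k y => by
        by_cases hk : k = j
        · subst hk; rw [update_self]; exact (hBp i y).le
        · rw [update_of_ne hk]; exact (hBp k y).le) hG.nonneg
      have h6 : Z (update B j (B i)) G * Z B G ≤ 8192 * Z B G * Z B G := by nlinarith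
      exact le_of_mul_le_mul_right h6 hZ
  have h2 := soften hG hBp (w := fun y => ∑ i, B i y)
    (fun y => sum_nonneg fun i _ => (hBp i y).le) (s := (1 / 2) ^ S) (Λ := 8192 * n)
    (by positivity) (by positivity) hZ (fun j => by
      rw [Z_update_sum]
      refine (sum_le_sum fun i _ => h1 i j).trans (le_of_eq ?_)
      rw [sum_const, card_univ, Fintype.card_fin, nsmul_eq_mul]; ring) (by linarith)
  refine le_trans ?_ h2
  rw [Z_lift]
  refine Z_mono (fun k y => sum_nonneg fun i _ => (Cw_pos k _).le) (fun k y => ?_) hG.nonneg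
  have : B k y = ∑ i, if i = k then B i y else 0 := by simp
  rw [this, mul_sum, ← sum_add_distrib]
  refine sum_le_sum fun i _ => ?_
  rw [Cw_eq, ← hB]
  have := mul_pos (by positivity : (0 : ℝ) < (1 / 2) ^ S) (hBp i y)
  split_ifs <;> linarith

omit [DecidableEq α] in
theorem drift (hG : Good G n) {B B' : Fin n → α → ℝ} (hB : ∀ l y, 0 < B l y)
    (hB' : ∀ l y, 0 < B' l y) {θ : Fin n → ℝ} (hθ : ∀ l, 0 < θ l) {o k : Fin n} (ho : θ o = 1)
    (h1 : ∀ l y, B' l y ≤ θ l * B l y)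
    (h2 : ∀ l y, θ l * B l y ≤ (if l = k then 2 else 1) * B' l y) :
    Z B' G ≤ (∏ l, θ l) * Z B G ∧ (∏ l, θ l) * Z B G ≤ 2 * Z B' G ∧
    ∀ i, θ i * Z (update B' i (B' o)) G ≤ (∏ l, θ l) * Z (update B i (B o)) G ∧
      (∏ l, θ l) * Z (update B i (B o)) G ≤ 4 * θ i * Z (update B' i (B' o)) G := by
  refine ⟨?_, ?_, fun i => ⟨?_, ?_⟩⟩
  · rw [← Z_scale]; exact Z_mono (fun l y => (hB' l y).le) h1 hG.nonneg
  · have : (2 : ℝ) = ∏ l, if l = k then 2 else 1 := by simp
    rw [this, ← Z_scale, ← Z_scale]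
    exact Z_mono (fun l y => (mul_pos (hθ l) (hB l y)).le) h2 hG.nonneg
  · rw [← Z_scale, ← Z_update_smul]
    refine Z_mono (fun l y => ?_) (fun l y => ?_) hG.nonneg
    · by_cases hl : l = i
      · subst hl; rw [update_self]; exact (mul_pos (hθ l) (hB' o y)).le
      · rw [update_of_ne hl]; exact (hB' l y).le
    · by_cases hl : l = i
      · subst hl
        rw [update_self, update_self]
        have := h1 o y
        rw [ho, one_mul] at this
        exact mul_le_mul_of_nonneg_left this (hθ l).le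
      · rw [update_of_ne hl, update_of_ne hl]; exact h1 l y
  · have : (4 : ℝ) = ∏ l, (if l = k then 2 else 1) * if l = i then 2 else 1 := by
      rw [prod_mul_distrib]; simp; norm_num
    rw [mul_assoc, this, ← Z_scale, ← Z_update_smul, ← Z_scale]
    refine Z_mono (fun l y => ?_) (fun l y => ?_) hG.nonneg
    · by_cases hl : l = i
      · subst hl; rw [update_self]; exact (mul_pos (hθ l) (hB o y)).le
      · rw [update_of_ne hl]; exact (mul_pos (hθ l) (hB l y)).le
    · by_cases hl : l = i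
      · subst hl
        rw [update_self, update_self, if_pos rfl]
        have h3 := h2 o y
        rw [ho, one_mul] at h3
        have h4 : B o y ≤ 2 * B' o y := by
          have := hB' o y
          split_ifs at h3 <;> linarith
        have h5 := mul_le_mul_of_nonneg_left h4 (hθ l).le
        have h6 := mul_pos (hθ l) (hB' o y)
        split_ifs <;> linarith
      · rw [update_of_ne hl, update_of_ne hl, if_neg hl, mul_one]; exact h2 l y

/-- Multiplicative closeness. -/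
def Near (η a b : ℝ) : Prop := Real.exp (-η) * b ≤ a ∧ a ≤ Real.exp η * b

theorem Near.of_rel {x a b : ℝ} (hx0 : 0 ≤ x) (hx : x ≤ 1 / 2) (hb : 0 ≤ b) (h1 : (1 - x) * b ≤ a)
    (h2 : a ≤ (1 + x) * b) : Near (2 * x) a b := by
  constructor
  · refine le_trans (mul_le_mul_of_nonneg_right ?_ hb) h1
    have h3 := Real.add_one_le_exp (2 * x)
    rw [Real.exp_neg, inv_le_comm₀ (Real.exp_pos _) (by linarith)]
    refine le_trans ?_ h3
    rw [inv_le_iff_one_le_mul₀ (by linarith)]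
    nlinarith
  · refine h2.trans (mul_le_mul_of_nonneg_right ?_ hb)
    have h3 := Real.add_one_le_exp (2 * x)
    linarith

theorem Near.mono {η η' a b : ℝ} (h : Near η a b) (hb : 0 ≤ b) (hη : η ≤ η') : Near η' a b :=
  ⟨le_trans (mul_le_mul_of_nonneg_right (Real.exp_le_exp.2 (by linarith)) hb) h.1,
    h.2.trans (mul_le_mul_of_nonneg_right (Real.exp_le_exp.2 hη) hb)⟩

theorem Near.mul {η η' a b c d : ℝ} (h : Near η a b) (h' : Near η' c d) (hb : 0 ≤ b) (hd : 0 ≤ d) :
    Near (η + η') (a * c) (b * d) := by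
  have ha : 0 ≤ a := le_trans (by positivity) h.1
  have hc : 0 ≤ c := le_trans (by positivity) h'.1
  constructor
  · rw [neg_add, Real.exp_add]
    have := mul_le_mul h.1 h'.1 (by positivity) ha
    linarith
  · rw [Real.exp_add]
    have := mul_le_mul h.2 h'.2 hc (by positivity)
    linarith

theorem Near.symm {η a b : ℝ} (h : Near η a b) : Near η b a := by
  have e : Real.exp η * Real.exp (-η) = 1 := by rw [← Real.exp_add]; simp
  constructor
  · have := mul_le_mul_of_nonneg_left h.2 (Real.exp_pos (-η)).le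
    rw [← mul_assoc, mul_comm (Real.exp (-η)) (Real.exp η), e, one_mul] at this
    exact this
  · have := mul_le_mul_of_nonneg_left h.1 (Real.exp_pos η).le
    rw [← mul_assoc, e, one_mul] at this
    exact this

theorem Near.cancel {η a b c : ℝ} (h : Near η (a * c) (b * c)) (hc : 0 < c) : Near η a b :=
  ⟨le_of_mul_le_mul_right (by linarith [h.1]) hc, le_of_mul_le_mul_right (by linarith [h.2]) hc⟩

/-- The new row scalings. -/
def newU (o : Fin n) (u c : Fin n → ℕ) (thr : ℕ) (i : Fin n) : ℕ :=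
  if i = o then u i else if thr < c i then u i - 2 else u i + 2

open Classical in
/-- The counts are accurate. -/
def Acc (G : Multiset α → ℝ) (U V : Fin n → α) (u t : Fin n → ℕ) (S : ℕ) (o k : Fin n)
    (M : ℕ) (a : ℝ) (c : Fin n → ℕ) (cN : ℕ) : Prop :=
  (∀ i, |c i - M * ((∑ σ, wt (Cw U V u t S) (lift G) σ * (if Ev o i σ then 1 else 0)) /
      Z (Cw U V u t S) (lift G))| ≤ M * a) ∧
    |cN - M * ((∑ σ, wt (Cw U V u t S) (lift G) σ * (if EvN U V k σ then 1 else 0)) /
      Z (Cw U V u t S) (lift G))| ≤ M * a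

theorem arith_up {M s a c thr p N Z0 Zt Θ Z' N' : ℝ} (hM : 0 < M) (hs : 0 < s)
    (hthr : thr = M * s) (ha : 2 * a ≤ s) (h1 : c - M * p ≤ M * a) (h2 : thr < c)
    (hp : p * Zt = s * N) (hlo : Z0 ≤ Zt) (hZ : 0 < Z0) (hΘ : 0 < Θ) (hZ' : 0 < Z')
    (u2 : N ≤ 64 * Z0) (d1 : Z' ≤ Θ * Z0) (d2 : Θ * Z0 ≤ 2 * Z') (d4 : 4 * N' ≤ Θ * N)
    (d5 : Θ * N ≤ 4 * 4 * N') : Z' ≤ 64 * N' ∧ N' ≤ 64 * Z' := by
  have h3 : s / 2 < p := by
    have : M * (s / 2) < M * p := by nlinarith
    exact lt_of_mul_lt_mul_left this hM.le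
  have h4 : Z0 ≤ 2 * N := by
    have : s * Z0 ≤ s * (2 * N) := by nlinarith
    exact le_of_mul_le_mul_left this hs
  have h5 := mul_le_mul_of_nonneg_left h4 hΘ.le
  have h6 := mul_le_mul_of_nonneg_left u2 hΘ.le
  constructor <;> linarith

theorem arith_down {M s a c thr p N Z0 Zt Θ Z' N' : ℝ} (hM : 0 < M) (hs : 0 < s)
    (hthr : thr = M * s) (ha : 2 * a ≤ s) (h1 : -(M * a) ≤ c - M * p) (h2 : c ≤ thr)
    (hp : p * Zt = s * N) (hZt : 0 < Zt) (hhi : Zt ≤ 2 * Z0) (hΘ : 0 < Θ) (hZ' : 0 < Z')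
    (u1 : Z0 ≤ 64 * N) (d1 : Z' ≤ Θ * Z0) (d2 : Θ * Z0 ≤ 2 * Z') (d4 : 1 / 4 * N' ≤ Θ * N)
    (d5 : Θ * N ≤ 4 * (1 / 4) * N') : Z' ≤ 64 * N' ∧ N' ≤ 64 * Z' := by
  have h3 : p ≤ 3 * s / 2 := by
    have : M * p ≤ M * (3 * s / 2) := by nlinarith
    exact le_of_mul_le_mul_left this hM
  have h4 : N ≤ 3 * Z0 := by
    have : s * N ≤ s * (3 * Z0) := by nlinarith
    exact le_of_mul_le_mul_left this hs
  have h5 := mul_le_mul_of_nonneg_left h4 hΘ.le
  have h6 := mul_le_mul_of_nonneg_left u1 hΘ.le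
  constructor <;> linarith

theorem arith_ratio {M a c cN p pN : ℝ} (hM : 0 < M) (ha0 : 0 ≤ a) (ha1 : a ≤ 1 / 10)
    (hp1 : 1 / 2 ≤ p) (hpN0 : 0 ≤ pN) (hpN1 : pN ≤ p) (h1 : |c - M * p| ≤ M * a)
    (h2 : |cN - M * pN| ≤ M * a) :
    0 < c ∧ cN ≤ c + c ∧ Near (10 * a) ((c + c - cN) * p) ((c + c) * (p - pN / 2)) := by
  obtain ⟨h1, h1'⟩ := abs_le.1 h1
  obtain ⟨h2, h2'⟩ := abs_le.1 h2
  have hco : M * (2 / 5) ≤ c := by nlinarith
  have hco0 : 0 < c := by linarith
  refine ⟨hco0, by nlinarith, ?_⟩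
  rw [show 10 * a = 2 * (5 * a) by ring]
  have hMa : 0 ≤ M * a := by positivity
  have g1 : |c * pN - cN * p| ≤ 2 * (M * a) * p := by
    have : c * pN - cN * p = (c - M * p) * pN - (cN - M * pN) * p := by ring
    rw [this, abs_le]
    constructor <;> nlinarith
  have g3 : c * p ≤ (c + c) * (p - pN / 2) := by nlinarith
  have g2 : 2 * (M * a) * p ≤ 5 * a * ((c + c) * (p - pN / 2)) := by
    have g4 : M * (2 / 5) * p ≤ c * p := mul_le_mul_of_nonneg_right hco (by linarith)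
    nlinarith
  have g5 := abs_le.1 g1
  have g6 : 0 ≤ c * p := by positivity
  refine Near.of_rel (by linarith) (by linarith) (by linarith) ?_ ?_ <;> linarith

theorem stage_goodU (hG : Good G n) (hne : ∃ s, G s ≠ 0) {o k : Fin n} (hU : GoodU G U V u t o)
    (hS : 2 ^ 17 * (n : ℝ) ^ 2 * (1 / 2) ^ S ≤ 1) (hu : ∀ i, 2 ≤ u i) {M thr : ℕ} (hM : 0 < M)
    (hthr : (thr : ℝ) = M * (1 / 2) ^ S) {a : ℝ}
    (ha2 : 2 * a ≤ (1 / 2) ^ S) {c : Fin n → ℕ} {cN : ℕ} (hacc : Acc G U V u t S o k M a c cN) :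
    GoodU G U V (newU o u c thr) (update t k (t k + 1)) o := by
  obtain ⟨hc, -⟩ := hacc
  simp only [mass_Ev] at hc
  have hlo := Zt_lower (U := U) (V := V) (u := u) (t := t) (S := S) hG
  have hhi := Zt_upper hG hne hU hS
  have hZ : 0 < Z (Bw U V u t) G := Z_pos hG hne Bw_pos
  have hZt0 : 0 < Z (Cw U V u t S) (lift G) := by linarith
  have hM' : (0 : ℝ) < M := by exact_mod_cast hM
  let θ : Fin n → ℝ := fun i => if i = o then 1 else if thr < c i then 4 else 1 / 4
  have hθ : ∀ l, 0 < θ l := fun l => by simp only [θ]; split_ifs <;> norm_num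
  have hx : ∀ l, (1 / 2 : ℝ) ^ newU o u c thr l = θ l * (1 / 2) ^ u l := by
    intro l
    simp only [newU, θ]
    split_ifs
    · ring
    · obtain ⟨v, hv⟩ : ∃ v, u l = v + 2 := ⟨u l - 2, by have := hu l; omega⟩
      rw [hv, Nat.add_sub_cancel, pow_add]; ring
    · rw [pow_add]; ring
  have hA1 : ∀ l y, Aw U V (update t k (t k + 1)) l y ≤ Aw U V t l y := by
    intro l y
    unfold Aw
    split_ifs
    · exact le_rfl
    · by_cases hl : l = k
      · subst hl
        rw [update_self, pow_succ]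
        have : (0 : ℝ) < (1 / 2) ^ t l := by positivity
        linarith
      · rw [update_of_ne hl]
  have hA2 : ∀ l y, Aw U V t l y ≤ (if l = k then 2 else 1) *
      Aw U V (update t k (t k + 1)) l y := by
    intro l y
    unfold Aw
    by_cases hl : l = k
    · subst hl
      rw [update_self, pow_succ, if_pos rfl]
      split_ifs <;> linarith
    · rw [update_of_ne hl, if_neg hl, one_mul]
  obtain ⟨d1, d2, d3⟩ := drift hG (B := Bw U V u t) Bw_pos
    (B' := Bw U V (newU o u c thr) (update t k (t k + 1))) Bw_pos hθ (o := o) (k := k)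
    (by simp [θ])
    (fun l y => by
      simp only [Bw, hx, mul_assoc]
      exact mul_le_mul_of_nonneg_left (mul_le_mul_of_nonneg_left (hA1 l y) (by positivity))
        (hθ l).le)
    (fun l y => by
      simp only [Bw, hx]
      have := mul_le_mul_of_nonneg_left (hA2 l y)
        (mul_pos (hθ l) (by positivity : (0 : ℝ) < (1 / 2) ^ u l)).le
      linarith)
  have hΘ : 0 < ∏ l, θ l := prod_pos fun l _ => hθ l
  have h7 : 0 < Z (Bw U V (newU o u c thr) (update t k (t k + 1))) G := Z_pos hG hne Bw_pos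
  intro i
  by_cases hi : i = o
  · subst hi
    rw [update_eq_self]
    constructor <;> linarith
  · obtain ⟨d4, d5⟩ := d3 i
    obtain ⟨u1, u2⟩ := hU i
    have h1 := abs_le.1 (hc i)
    rw [if_neg hi] at h1
    by_cases hci : thr < c i
    · have hθi : θ i = 4 := by simp [θ, hi, hci]
      rw [hθi] at d4 d5
      exact arith_up hM' (by positivity) hthr ha2 h1.2 (by exact_mod_cast hci)
        (div_mul_cancel₀ _ hZt0.ne') hlo hZ hΘ h7 u2 d1 d2 d4 d5
    · have hθi : θ i = 1 / 4 := by simp [θ, hi, hci]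
      rw [hθi] at d4 d5
      exact arith_down hM' (by positivity) hthr ha2 h1.1 (by exact_mod_cast not_lt.1 hci)
        (div_mul_cancel₀ _ hZt0.ne') hZt0 hhi hΘ h7 u1 d1 d2 d4 d5

theorem stage_ratio (hG : Good G n) (hne : ∃ s, G s ≠ 0) {o k : Fin n} (hU : GoodU G U V u t o)
    (hS : 2 ^ 17 * (n : ℝ) ^ 2 * (1 / 2) ^ S ≤ 1) {M : ℕ} (hM : 0 < M)
    {a : ℝ} (ha0 : 0 ≤ a) (ha1 : a ≤ 1 / 10)
    {c : Fin n → ℕ} {cN : ℕ} (hacc : Acc G U V u t S o k M a c cN) :
    0 < c o ∧ Near (10 * a) (((c o + c o - cN : ℕ) : ℝ) * Z (Aw U V t) G)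
        (((c o + c o : ℕ) : ℝ) * Z (Aw U V (update t k (t k + 1))) G) := by
  obtain ⟨hc, hcN⟩ := hacc
  simp only [mass_Ev, mass_EvN] at hc hcN
  have hlo := Zt_lower (U := U) (V := V) (u := u) (t := t) (S := S) hG
  have hhi := Zt_upper hG hne hU hS
  set B := Bw U V u t with hB
  set Zt := Z (Cw U V u t S) (lift G) with hZt
  have hBp : ∀ k y, 0 < B k y := Bw_pos
  have hZ : 0 < Z B G := Z_pos hG hne hBp
  have hZt0 : 0 < Zt := by linarith
  have hM' : (0 : ℝ) < M := by exact_mod_cast hM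
  have h1 := hc o
  rw [if_pos rfl, one_mul, update_eq_self] at h1
  set ZN := Z (update B k fun y => if y = U k ∨ y = V k then 0 else B k y) G with hZN
  have hnn : ∀ l y, 0 ≤ update B k (fun y => if y = U k ∨ y = V k then 0 else B k y) l y := by
    intro l y
    by_cases hl : l = k
    · subst hl; rw [update_self]; split_ifs; exacts [le_rfl, (hBp _ _).le]
    · rw [update_of_ne hl]; exact (hBp _ _).le
  have hZN0 : 0 ≤ ZN := Z_nonneg hnn hG.nonneg
  have hZN1 : ZN ≤ Z B G := Z_mono hnn (fun l y => by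
    by_cases hl : l = k
    · subst hl; rw [update_self]; split_ifs; exacts [(hBp _ _).le, le_rfl]
    · rw [update_of_ne hl]) hG.nonneg
  obtain ⟨r1, r2, r3⟩ := arith_ratio hM' ha0 ha1 (p := Z B G / Zt) (pN := ZN / Zt)
    (by rw [le_div_iff₀ hZt0]; linarith) (div_nonneg hZN0 hZt0.le)
    (div_le_div_of_nonneg_right hZN1 hZt0.le) h1 hcN
  refine ⟨by exact_mod_cast r1, ?_⟩
  have hle : cN ≤ c o + c o := by exact_mod_cast r2
  rw [Nat.cast_sub hle]
  push_cast
  set X := ∏ l, (1 / 2 : ℝ) ^ u l with hX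
  have hX0 : 0 < X := prod_pos fun l _ => by positivity
  have e1 : Z B G = X * Z (Aw U V t) G := Z_scale _ _ _
  have e2 : X * Z (Aw U V (update t k (t k + 1))) G = Z B G - ZN / 2 := by
    rw [← Z_scale]
    have : (fun l y => (1 / 2 : ℝ) ^ u l * Aw U V (update t k (t k + 1)) l y) =
        update B k fun y => 1 * B k y +
          (-1 / 2) * if y = U k ∨ y = V k then 0 else B k y := by
      funext l y
      by_cases hl : l = k
      · subst hl
        simp only [update_self, hB, Bw, Aw]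
        split_ifs <;> ring
      · simp only [update_of_ne hl, hB, Bw, Aw]
    rw [this, Z_update_lin, update_eq_self]; ring
  refine Near.cancel (c := X / Zt) ?_ (div_pos hX0 hZt0)
  have f1 : ((c o : ℝ) + c o - cN) * Z (Aw U V t) G * (X / Zt) =
      (c o + c o - cN) * (Z B G / Zt) := by
    rw [e1]; ring
  have f2 : ((c o : ℝ) + c o) * Z (Aw U V (update t k (t k + 1))) G * (X / Zt) =
      (c o + c o) * (Z B G / Zt - ZN / Zt / 2) := by
    have : Z B G / Zt - ZN / Zt / 2 = (Z B G - ZN / 2) / Zt := by ring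
    rw [this, ← e2]; ring
  rw [f1, f2]
  exact r3

end

/-- The exponential potential used for the concentration of the counts. -/
noncomputable def Pot {ι : Type} [Fintype ι] (θ : ℝ) (p : ι → ℝ) (M i : ℕ) (cnt : ι → ℝ) : ℝ :=
  ∑ c : ι × Bool, Real.exp ((if c.2 then θ else -θ) * (cnt c.1 - i * p c.1) +
    ((M : ℝ) - i) * (3 * θ ^ 2) - 4 * θ ^ 2 * M)

theorem Pot_start {ι : Type} [Fintype ι] (θ : ℝ) (p : ι → ℝ) (M : ℕ) :
    Pot θ p M 0 (fun _ => 0) = 2 * Fintype.card ι * Real.exp (-(θ ^ 2 * M)) := by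
  unfold Pot
  have : ∀ c : ι × Bool, Real.exp ((if c.2 then θ else -θ) * (0 - (0 : ℕ) * p c.1) +
      ((M : ℝ) - (0 : ℕ)) * (3 * θ ^ 2) - 4 * θ ^ 2 * M) = Real.exp (-(θ ^ 2 * M)) := by
    intro c; congr 1; push_cast; ring
  simp only [this, sum_const, card_univ, Fintype.card_prod, Fintype.card_bool, nsmul_eq_mul]
  push_cast; ring

theorem Pot_nonneg {ι : Type} [Fintype ι] (θ : ℝ) (p : ι → ℝ) (M i : ℕ) (cnt : ι → ℝ) :
    0 ≤ Pot θ p M i cnt := sum_nonneg fun _ _ => (Real.exp_pos _).le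

theorem Pot_end {ι : Type} [Fintype ι] {θ : ℝ} (hθ : 0 ≤ θ) (p : ι → ℝ) (M : ℕ) (cnt : ι → ℝ)
    (c : ι) (h : M * (4 * θ) < |cnt c - M * p c|) : 1 ≤ Pot θ p M M cnt := by
  unfold Pot
  rcases lt_abs.1 h with h | h
  · refine le_trans ?_ (single_le_sum (fun _ _ => (Real.exp_pos _).le) (mem_univ (c, true)))
    refine Real.one_le_exp ?_
    simp only [if_true]
    nlinarith
  · refine le_trans ?_ (single_le_sum (fun _ _ => (Real.exp_pos _).le) (mem_univ (c, false)))
    refine Real.one_le_exp ?_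
    simp only [Bool.false_eq_true, if_false]
    nlinarith

theorem Pot_step {ι Y : Type} [Fintype ι] [Fintype Y] {m : ℕ} {ρ : ℝ} {C : Fin m → Y → ℝ}
    {G : Multiset Y → ℝ} {θ : ℝ} (hθ0 : 0 ≤ θ) (hθ1 : θ ≤ 1) {p : ι → ℝ} (hp0 : ∀ c, 0 ≤ p c)
    (hp1 : ∀ c, p c ≤ 1) (χ : ι → (Fin m → Y) → ℝ) (hχ : ∀ c σ, χ c σ = 0 ∨ χ c σ = 1)
    (M i T : ℕ) (cnt : ι → ℝ) (σ : Fin m → Y) (hmix : ∀ c, |(Pk ρ C G)^[T] (χ c) σ - p c| ≤ θ) :
    (Pk ρ C G)^[T] (fun σ' => Pot θ p M (i + 1) fun c => cnt c + χ c σ') σ ≤ Pot θ p M i cnt := by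
  let sg : ι × Bool → ℝ := fun c => if c.2 then θ else -θ
  let A : ι × Bool → ℝ := fun c => Real.exp (sg c * (cnt c.1 - (i + 1 : ℕ) * p c.1) +
    ((M : ℝ) - (i + 1 : ℕ)) * (3 * θ ^ 2) - 4 * θ ^ 2 * M)
  have e : (fun σ' => Pot θ p M (i + 1) fun c => cnt c + χ c σ') =
      fun σ' => ∑ c, A c + ∑ c, (A c * (Real.exp (sg c) - 1)) * χ c.1 σ' := by
    funext σ'
    rw [Pot, ← sum_add_distrib]
    refine sum_congr rfl fun c _ => ?_
    rcases hχ c.1 σ' with h | h
    · simp only [h, A, sg, add_zero, mul_zero]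
    · have : A c + A c * (Real.exp (sg c) - 1) * 1 = A c * Real.exp (sg c) := by ring
      rw [h, this]
      simp only [A, ← Real.exp_add]
      congr 1
      simp only [sg]; ring
  rw [e, Pk_iter_affine univ _ _ (fun c : ι × Bool => χ c.1) T, Pot]
  beta_reduce
  rw [← sum_add_distrib]
  refine sum_le_sum fun c _ => ?_
  set ph := (Pk ρ C G)^[T] (χ c.1) σ with hph
  have hm := abs_le.1 (hmix c.1)
  have hsg : |sg c| = θ := by
    simp only [sg]; split_ifs
    · exact abs_of_nonneg hθ0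
    · rw [abs_neg]; exact abs_of_nonneg hθ0
  have h1 := abs_le.1 (Real.abs_exp_sub_one_sub_id_le (x := sg c) (by rw [hsg]; exact hθ1))
  have hsq : sg c ^ 2 = θ ^ 2 := by rw [← sq_abs, hsg]
  rw [hsq] at h1
  have h2 : (Real.exp (sg c) - 1) * ph ≤ sg c * p c.1 + 3 * θ ^ 2 := by
    have h3 : |(Real.exp (sg c) - 1 - sg c) * ph| ≤ θ ^ 2 * 2 := by
      rw [abs_mul]
      refine mul_le_mul (abs_le.2 h1) (abs_le.2 ⟨?_, ?_⟩) (abs_nonneg _) (sq_nonneg _) <;>
        linarith [hp0 c.1, hp1 c.1]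
    have h4 : |sg c * (ph - p c.1)| ≤ θ * θ := by
      rw [abs_mul, hsg]
      exact mul_le_mul_of_nonneg_left (hmix c.1) hθ0
    have h5 := (abs_le.1 h3).2
    have h6 := (abs_le.1 h4).2
    nlinarith
  have h7 : 1 + (Real.exp (sg c) - 1) * ph ≤ Real.exp (sg c * p c.1 + 3 * θ ^ 2) := by
    have := Real.add_one_le_exp (sg c * p c.1 + 3 * θ ^ 2)
    linarith
  have h8 : 0 < A c := Real.exp_pos _
  have h9 : A c * Real.exp (sg c * p c.1 + 3 * θ ^ 2) =
      Real.exp ((if c.2 then θ else -θ) * (cnt c.1 - i * p c.1) +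
        ((M : ℝ) - i) * (3 * θ ^ 2) - 4 * θ ^ 2 * M) := by
    simp only [A, ← Real.exp_add]
    congr 1
    simp only [sg]; push_cast; ring
  rw [← h9]
  nlinarith

end Vale.Agent.P317
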