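import Vale.Agent.P317.Prog
import Vale.Agent.P317.Stage

/-! Specifications of the routines that make up one step of the chain. -/

namespace Vale.Agent.P317

open Finset

variable {n : ℕ} {M₁ M₂ : Matroid (Fin n)}

/-- The states of the chain. -/
abbrev St (n : ℕ) : Type := Fin n → Fin n × Fin (n + n)

/-- The memory holds the state `σ`. -/
def Rep (m : Mem) (σ : St n) : Prop := ∀ k : Fin n, m 2 k = (σ k).1 ∧ m 3 k = (σ k).2

/-- The memory holds the data that define the current weights. -/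
structure Par (q S r : ℕ) (U V : Fin n → Fin (n + n)) (u t : Fin n → ℕ) (m : Mem) : Prop where
  hn : m 0 0 = n
  hq : m 10 0 = q
  hS : m 12 0 = S
  hr : m 18 0 = r
  hU : ∀ i : Fin n, m 5 i = U i
  hV : ∀ i : Fin n, m 6 i = V i
  hE : ∀ i : Fin n, m 7 i = u i
  hN : ∀ i : Fin n, m 8 i = u i + t i

theorem Par.same {q S r : ℕ} {U V : Fin n → Fin (n + n)} {u t : Fin n → ℕ} {m m' : Mem}
    (h : Par q S r U V u t m) {l : List ℕ} (hs : Same l m m')
    (hl : ∀ a ∈ [0, 10, 12, 18, 5, 6, 7, 8], a ∉ l) : Par q S r U V u t m' where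
  hn := by rw [hs 0 (hl 0 (by simp))]; exact h.hn
  hq := by rw [hs 10 (hl 10 (by simp))]; exact h.hq
  hS := by rw [hs 12 (hl 12 (by simp))]; exact h.hS
  hr := by rw [hs 18 (hl 18 (by simp))]; exact h.hr
  hU := by rw [hs 5 (hl 5 (by simp))]; exact h.hU
  hV := by rw [hs 6 (hl 6 (by simp))]; exact h.hV
  hE := by rw [hs 7 (hl 7 (by simp))]; exact h.hE
  hN := by rw [hs 8 (hl 8 (by simp))]; exact h.hN

theorem Rep.same {m m' : Mem} {σ : St n} (h : Rep m σ) {l : List ℕ} (hs : Same l m m')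
    (hl : ∀ a ∈ [2, 3], a ∉ l) : Rep m' σ := by
  intro k
  rw [hs 2 (hl 2 (by simp)), hs 3 (hl 3 (by simp))]
  exact h k

theorem neq_eval (a b : Expr) (m : Mem) : (neq a b).eval m = 0 ↔ a.eval m = b.eval m := by
  simp only [neq, Expr.eval]; omega

/-- The average over the remaining random bits. -/
noncomputable def avgF (ψ : ℕ → ℝ) : ℕ → ℕ → ℝ
  | 0, x => ψ x
  | k + 1, x => (avgF ψ k (x + x) + avgF ψ k (x + x + 1)) / 2

theorem avgF_eq (ψ : ℕ → ℝ) : ∀ k x, avgF ψ k x = (∑ w ∈ range (2 ^ k), ψ (x * 2 ^ k + w)) / 2 ^ k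
  | 0, x => by simp [avgF]
  | k + 1, x => by
    rw [avgF, avgF_eq, avgF_eq, show 2 ^ (k + 1) = 2 ^ k + 2 ^ k by ring, sum_range_add]
    have e1 : ∀ w, (x + x) * 2 ^ k + w = x * (2 ^ k + 2 ^ k) + w := fun w => by ring
    have e2 : ∀ w, (x + x + 1) * 2 ^ k + w = x * (2 ^ k + 2 ^ k) + (2 ^ k + w) := fun w => by ring
    simp only [e1, e2]
    field_simp
    ring

theorem rand_spec {d q : ℕ} (hd : d ∉ [25, 30, 10]) {m : Mem} (hq : m 10 0 = q) (ψ : ℕ → ℝ)
    {R : Mem → ℝ → Prop}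
    (h : ∀ m' x, Same [25, 30, d] m m' → m' d 0 = x → R m' (ψ x)) :
    W M₁ M₂ (rand d) (q * 6 + 5) R m ((∑ w ∈ range (2 ^ q), ψ w) / 2 ^ q) := by
  simp only [List.mem_cons, List.not_mem_nil, or_false, not_or] at hd
  obtain ⟨h25, h30, h10⟩ := hd
  have key : W M₁ M₂ (forS 25 (sv 10) (.seq (.flip 30)
      (setv d (.add (.add (sv d) (sv d)) (sv 30))))) (q * (3 + 3) + 3)
      (fun m' y => ∃ y' ≤ y, R m' y') (m.write d 0 0) (avgF ψ q 0) := by
    refine W.forS [30, d] q (fun j m' y => avgF ψ (q - j) (m' d 0) ≤ y) (by simp [Stmt.writes, setv])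
      (by simp [Ne.symm h25]) (fun m' hs => ?_) (fun j m' x y hI => by simpa [h25] using hI)
      (by simp) (fun j m' x hj hs hi hI => ?_) (fun m' x hs hI => ?_)
    · simp only [sv, Expr.eval]
      rw [hs 10 (by simp [Ne.symm h10]), write_ne _ (Ne.symm h10), hq]
    · obtain ⟨k, hk⟩ : ∃ k, q - j = k + 1 := ⟨q - j - 1, by omega⟩
      have hk' : q - (j + 1) = k := by omega
      rw [hk, avgF] at hI
      refine W.seq (t₁ := 1) (t₂ := 1) (W.flip (W.assign ?_) (W.assign ?_) hI) <;>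
        simp [hk', sv, Expr.eval, h30]
    · refine ⟨_, by simpa [avgF] using hI, h m' _ ?_ rfl⟩
      exact (((Same.refl [25, 30, d] m).write (by simp) 0 0).trans hs)
  have e : q * 6 + 5 = 1 + (q * (3 + 3) + 3) + 1 := by ring
  rw [e]
  refine W.seq (W.assign ?_)
  have e2 : (∑ w ∈ range (2 ^ q), ψ w) / 2 ^ q = avgF ψ q 0 := by rw [avgF_eq]; simp
  rw [e2]
  exact key.mono' fun _ _ h => h

section
variable {q S r : ℕ} {U V : Fin n → Fin (n + n)} {u t : Fin n → ℕ}

theorem exE_eval {m : Mem} (hP : Par q S r U V u t m) {σ : St n} (hσ : Rep m σ) (k : Fin n)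
    (hk : m 25 0 = k) : exE.eval m = ex U V u t S k (σ k) := by
  have h1 := (hσ k).1
  have h2 := (hσ k).2
  simp only [exE, Expr.eval, neq_eval, sv, hk, h1, h2, hP.hS, hP.hU, hP.hV, hP.hE, hP.hN, ex,
    Fin.val_inj]
  by_cases a1 : (σ k).2 = U (σ k).1 <;> by_cases a2 : (σ k).2 = V (σ k).1 <;> simp [a1, a2]

theorem total_spec {m : Mem} (hP : Par q S r U V u t m) {σ : St n} (hσ : Rep m σ) :
    D M₁ M₂ total (n * 4 + 5) m fun m' =>
      m' 31 0 = ∑ k, ex U V u t S k (σ k) ∧ Same [25, 31] m m' := by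
  refine D.frame _ (by simp [total, forS, setv, Stmt.writes]) ?_
  have e : n * 4 + 5 = 1 + (n * (1 + 3) + 3) + 1 := by ring
  rw [e]
  refine D.seq (D.assign ?_)
  let f : ℕ → ℕ := fun k => if h : k < n then ex U V u t S ⟨k, h⟩ (σ ⟨k, h⟩) else 0
  have hs0 : Same [25, 31] m (m.write 31 0 0) := (Same.refl _ _).write (by simp) _ _
  refine D.forS [31] n (fun j m' => m' 31 0 = ∑ k ∈ range j, f k) (by simp [Stmt.writes, setv])
    (by simp) (fun m' hs => ?_) (fun j m' y hI => by simpa using hI) (by simp [Expr.eval])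
    (fun j m' hj hs hi hI => ?_) (fun m' hs hI => ?_)
  · exact (hP.same (hs0.trans hs) (by decide)).hn
  · refine D.assign ?_
    have := exE_eval (hP.same (hs0.trans hs) (by decide)) (hσ.same (hs0.trans hs) (by decide))
      ⟨j, hj⟩ hi
    simp [Expr.eval, sv, this, hI, sum_range_succ, f, hj]
  · rw [hI, ← Fin.sum_univ_eq_sum_range]
    simp [f]

theorem ncard_eq_sum (p : ℕ → Prop) [DecidablePred p] :
    {e : Fin n | p e}.ncard = ∑ e ∈ range n, if p e then 1 else 0 := by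
  rw [← Fin.sum_univ_eq_sum_range (fun e => if p e then 1 else 0), Set.ncard_eq_toFinset_card',
    Set.toFinset_ofPred, card_filter]

theorem valid_spec (hS : Setup M₁ M₂ r) {m : Mem} (hn : m 0 0 = n) (hr : m 18 0 = r) {σ : St n}
    (hσ : Rep m σ) : D M₁ M₂ valid (n * 16 + 19) m fun m' =>
      (m' 33 0 : ℝ) = lift (Gm M₁ M₂) (ms σ) ∧ Same [25, 4, 34, 35, 36, 33] m m' := by
  classical
  refine D.frame _ (by simp [valid, forS, setv, Stmt.writes]) ?_
  refine D.seqL (D.forS (t := 1) [4] (n + n) (fun j m' => ∀ y < j, m' 4 y = y + 1 - n)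
    (by simp [Stmt.writes]) (by simp)
    (fun m' hs => by simp [Expr.eval, eN, sv, hs 0 (by decide), hn])
    (fun j m' y hI => by simpa using hI) (by simp) (fun j m' hj hs hi hI => ?_)
    (fun m1 hs1 hI1 => ?_)) (by omega)
  · refine D.assign fun y hy => ?_
    simp only [Expr.eval, sv, eN, hi, hs 0 (by decide), hn, write_self]
    by_cases hy' : y = j
    · subst hy'; simp
    · rw [Function.update_of_ne hy']; exact hI y (by omega)
  have hn1 : m1 0 0 = n := by rw [hs1 0 (by decide), hn]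
  have hσ1 : Rep m1 σ := hσ.same hs1 (by decide)
  refine D.seqL (D.forS (t := 1) [4] n (fun j m' => ∀ y < n + n, m' 4 y =
      if ∃ k : Fin n, k.val < j ∧ (σ k).2.val = y then n - y else y + 1 - n)
    (by simp [Stmt.writes]) (by simp)
    (fun m' hs => by simp [Expr.eval, eN, sv, hs 0 (by decide), hn1])
    (fun j m' y hI => by simpa using hI) (by simpa using hI1) (fun j m' hj hs hi hI => ?_)
    (fun m2 hs2 hI2 => ?_)) (by omega)
  · refine D.assign fun y hy => ?_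
    have h3 := ((hσ1.same hs (by decide)) ⟨j, hj⟩).2
    simp only [Expr.eval, sv, eN, hi, hs 0 (by decide), hn1, write_self, h3]
    by_cases hy' : y = (σ ⟨j, hj⟩).2.val
    · subst hy'
      rw [Function.update_self, if_pos ⟨⟨j, hj⟩, by simp, rfl⟩]
    · rw [Function.update_of_ne hy', hI y hy]
      refine if_congr ⟨fun ⟨k, h1, h2⟩ => ⟨k, by omega, h2⟩, fun ⟨k, h1, h2⟩ => ⟨k, ?_, h2⟩⟩ rfl rfl
      by_contra hk
      have : k = ⟨j, hj⟩ := Fin.ext (by simp; omega)
      exact hy' (by rw [← h2, this])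
  have hn2 : m2 0 0 = n := by rw [hs2 0 (by decide), hn1]
  have hr2 : m2 18 0 = r := by rw [hs2 18 (by decide), hs1 18 (by decide), hr]
  have hA1 : {e : Fin n | m2 4 e ≠ 0} = S1 ((ms σ).map Prod.snd) := by
    ext e
    simp only [Set.mem_ofPred_eq, S1, Multiset.mem_map, mem_ms, hI2 e (by omega)]
    constructor
    · intro h
      split_ifs at h with h'
      · obtain ⟨k, -, hk⟩ := h'
        exact ⟨σ k, ⟨k, rfl⟩, Fin.ext (by simpa using hk)⟩
      · omega
    · rintro ⟨_, ⟨k, rfl⟩, hk⟩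
      rw [if_pos ⟨k, k.2, by rw [hk]; simp⟩]
      omega
  have hA2 : {e : Fin n | m2 4 (n + e) ≠ 0} = S2 ((ms σ).map Prod.snd) := by
    ext e
    simp only [Set.mem_ofPred_eq, S2, Multiset.mem_map, mem_ms, hI2 (n + e) (by omega)]
    constructor
    · rintro h ⟨_, ⟨k, rfl⟩, hk⟩
      rw [if_pos ⟨k, k.2, by rw [hk]; rfl⟩] at h
      omega
    · intro h
      rw [if_neg]
      · omega
      · rintro ⟨k, -, hk⟩
        exact h ⟨σ k, ⟨k, rfl⟩, Fin.ext hk⟩
  refine D.seqV ?_ (by omega)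
  refine D.seqL (D.forS (t := 1) [34] n
    (fun j m' => m' 34 0 = ∑ e ∈ range j, if m2 4 e ≠ 0 then 1 else 0)
    (by simp [Stmt.writes, setv]) (by simp)
    (fun m' hs => by simp [Expr.eval, eN, sv, hs 0 (by decide), hn2])
    (fun j m' y hI => by simpa using hI) (by simp [Expr.eval]) (fun j m' hj hs hi hI => ?_)
    (fun m3 hs3 hI3 => ?_)) (by omega)
  · refine D.assign ?_
    simp only [Expr.eval, sv, hi, hs 4 (by decide), write_self, Function.update_self, hI,
      sum_range_succ]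
    simp
  refine D.seqL (D.query (D.seqL (D.query (D.setv ?_ (by omega))) (by omega))) (by omega)
  rw [← ncard_eq_sum fun e => m2 4 e ≠ 0, hA1] at hI3
  have h4 : m3 4 = m2 4 := by rw [hs3 4 (by decide)]; simp
  have h0 : m3 0 0 = n := by rw [hs3 0 (by decide)]; simpa using hn2
  have h18 : m3 18 0 = r := by rw [hs3 18 (by decide)]; simpa using hr2
  rw [lift, hS.Gm_eq (by simp [ms_card])]
  simp only [Expr.eval, neq_eval, sv, eN, write_self, Function.update_self, ne_eq,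
    Nat.reduceEqDiff, not_false_eq_true, write_ne, h4, h0, h18, hI3, zero_add, Bool.false_eq_true,
    if_false, if_true, OfNat.zero_ne_ofNat]
  simp only [ne_eq] at hA1 hA2
  rw [hA1, hA2]
  by_cases a1 : (S1 ((ms σ).map Prod.snd)).ncard = r <;>
    by_cases a2 : M₁.Indep (S1 ((ms σ).map Prod.snd)) <;>
    by_cases a3 : M₂.Indep (S2 ((ms σ).map Prod.snd)) <;> simp [a1, a2, a3]

theorem coins_spec {m : Mem} {d a₀ : ℕ} (hd : m 31 0 - m 32 0 = d) (ha : m 33 0 = a₀)
    {R : Mem → ℝ → Prop} {x0 x1 : ℝ}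
    (h1 : ∀ m', Same [25, 30, 33] m m' → m' 33 0 = a₀ → R m' x1)
    (h0 : ∀ m', Same [25, 30, 33] m m' → m' 33 0 = 0 → R m' x0) :
    W M₁ M₂ coins (d * 6 + 3) R m (x0 + (1 / 2) ^ d * (x1 - x0)) := by
  refine W.mono' (R := fun m' y => ∃ y' ≤ y, R m' y') ?_ fun _ _ h => h
  refine W.forS (t := 3) [30, 33] d (fun j m' y => (m' 33 0 = a₀ ∧
      x0 + (1 / 2) ^ (d - j) * (x1 - x0) ≤ y) ∨ (m' 33 0 = 0 ∧ x0 ≤ y))
    (by simp [Stmt.writes, setv]) (by simp)
    (fun m' hs => by simp [Expr.eval, sv, hs 31 (by decide), hs 32 (by decide), hd])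
    (fun j m' x y hI => by simpa using hI) (Or.inl ⟨ha, by simp⟩)
    (fun j m' x hj hs hi hI => ?_) (fun m' x hs hI => ?_)
  · rcases hI with ⟨h2, h3⟩ | ⟨h2, h3⟩
    · obtain ⟨k, hk⟩ : ∃ k, d - j = k + 1 := ⟨d - j - 1, by omega⟩
      have hk' : d - (j + 1) = k := by omega
      rw [hk] at h3
      refine W.seq (t₁ := 1) (t₂ := 1) (W.flip (x0 := x0) (x1 := x0 + (1 / 2) ^ k * (x1 - x0))
        (W.assign (Or.inr ?_)) (W.assign (Or.inl ?_)) (by rw [pow_succ] at h3; linarith)) <;>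
        simp [hk', sv, Expr.eval, h2]
    · refine W.seq (t₁ := 1) (t₂ := 1) (W.flip (x0 := x0) (x1 := x0)
        (W.assign (Or.inr ?_)) (W.assign (Or.inr ?_)) (by linarith)) <;>
        simp [sv, Expr.eval, h2]
  · rcases hI with ⟨h2, h3⟩ | ⟨h2, h3⟩
    · exact ⟨x1, by simpa using h3, h1 m' hs h2⟩
    · exact ⟨x0, h3, h0 m' hs h2⟩

theorem propose_spec {m : Mem} {σ : St n} (hσ : Rep m σ) {j k i : Fin n} {y : Fin (n + n)}
    (hj : m 26 0 = j) (hk : m 27 0 = k) (hi : m 28 0 = i) (hy : m 29 0 = y) :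
    D M₁ M₂ propose 15 m fun m' => (Rep m' (mv σ j k (i, y)) ∧ m' 37 0 = (σ j).1 ∧
      m' 38 0 = (σ j).2 ∧ m' 39 0 = (σ k).1 ∧ m' 40 0 = (σ k).2) ∧
      Same [37, 38, 39, 40, 2, 3] m m' := by
  refine D.frame _ (by simp [propose, setv, Stmt.writes]) ?_
  refine D.seq (t₁ := 1) (t₂ := 13) (D.assign (D.seq (t₁ := 1) (t₂ := 11) (D.assign
    (D.seq (t₁ := 1) (t₂ := 9) (D.assign (D.seq (t₁ := 1) (t₂ := 7) (D.assign
    (D.seq (t₁ := 1) (t₂ := 5) (D.assign (D.seq (t₁ := 1) (t₂ := 3) (D.assign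
    (D.seq (t₁ := 1) (t₂ := 1) (D.assign (D.assign ?_))))))))))))))
  simp only [Expr.eval, sv, write_self, Function.update_self, ne_eq, Nat.reduceEqDiff,
    not_false_eq_true, write_ne, hj, hk, hi, hy, (hσ j).1, (hσ j).2, (hσ k).1, (hσ k).2, and_true,
    Rep]
  intro l
  by_cases h1 : l = j
  · subst h1; simp [mv]
  · by_cases h2 : l = k
    · subst h2
      simp [mv, Function.update_of_ne h1, Function.update_of_ne (Fin.val_ne_of_ne h1)]
    · simp [mv, Function.update_of_ne h1, Function.update_of_ne (Fin.val_ne_of_ne h1),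
        Function.update_of_ne h2, Function.update_of_ne (Fin.val_ne_of_ne h2), (hσ l).1, (hσ l).2]

theorem restore_spec {m : Mem} {σ : St n} {j k : Fin n} {p : Fin n × Fin (n + n)}
    (hσ : Rep m (mv σ j k p)) (hj : m 26 0 = j) (hk : m 27 0 = k) (h37 : m 37 0 = (σ j).1)
    (h38 : m 38 0 = (σ j).2) (h39 : m 39 0 = (σ k).1) (h40 : m 40 0 = (σ k).2) :
    D M₁ M₂ restore 7 m fun m' => Rep m' σ ∧ Same [2, 3] m m' := by
  refine D.frame _ (by simp [restore, Stmt.writes]) ?_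
  refine D.seq (t₁ := 1) (t₂ := 5) (D.assign (D.seq (t₁ := 1) (t₂ := 3) (D.assign
    (D.seq (t₁ := 1) (t₂ := 1) (D.assign (D.assign ?_))))))
  simp only [Expr.eval, sv, write_self, ne_eq, Nat.reduceEqDiff,
    not_false_eq_true, write_ne, hj, hk, h37, h38, h39, h40, Rep]
  intro l
  by_cases h2 : l = k
  · subst h2; simp
  · by_cases h1 : l = j
    · subst h1
      simp [Function.update_of_ne (Fin.val_ne_of_ne h2)]
    · have := hσ l
      simp only [mv, Function.update_of_ne h1, Function.update_of_ne h2] at this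
      simp [Function.update_of_ne (Fin.val_ne_of_ne h1),
        Function.update_of_ne (Fin.val_ne_of_ne h2), this.1, this.2]

theorem wt_Cw (G : Multiset (Fin n × Fin (n + n)) → ℝ) (σ : St n) :
    wt (Cw U V u t S) G σ = (1 / 2) ^ (∑ k, ex U V u t S k (σ k)) * G (ms σ) := by
  simp only [wt, Cw, prod_pow_eq_pow_sum]

theorem acc_eq {G : Multiset (Fin n × Fin (n + n)) → ℝ} {σ σ' : St n} (h : G (ms σ) = 1)
    (h' : G (ms σ') = 0 ∨ G (ms σ') = 1) : acc (Cw U V u t S) G σ σ' =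
      (1 / 2) ^ (∑ k, ex U V u t S k (σ' k) - ∑ k, ex U V u t S k (σ k)) * G (ms σ') := by
  rw [acc, wt_Cw, wt_Cw, h]
  set a := ∑ k, ex U V u t S k (σ' k)
  set b := ∑ k, ex U V u t S k (σ k)
  rcases h' with h' | h'
  · simp [h']
  · rw [h', mul_one, mul_one, mul_one]
    rcases le_total a b with hab | hab
    · rw [Nat.sub_eq_zero_of_le hab, pow_zero, min_eq_left]
      rw [le_div_iff₀ (by positivity), one_mul]
      exact pow_le_pow_of_le_one (by norm_num) (by norm_num) hab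
    · obtain ⟨c, hc⟩ := Nat.exists_eq_add_of_le hab
      have : ((1 : ℝ) / 2) ^ a / (1 / 2) ^ b = (1 / 2) ^ (a - b) := by
        rw [hc, Nat.add_sub_cancel_left, pow_add]; field_simp
      rw [this, min_eq_right (pow_le_one₀ (by norm_num) (by norm_num))]

/-- The arrays written by a chain step. -/
def lstep : List ℕ := [2, 3, 4, 25, 26, 27, 28, 29, 30, 31, 32, 33, 34, 35, 36, 37, 38, 39, 40]

theorem attempt_spec (hS : Setup M₁ M₂ r) {m : Mem} (hP : Par q S r U V u t m) {σ : St n}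
    (hσ : Rep m σ) (hv : lift (Gm M₁ M₂) (ms σ) = 1) {E : ℕ}
    (hE : ∀ σ' : St n, ∑ k, ex U V u t S k (σ' k) ≤ E) {j k i : Fin n} {y : Fin (n + n)}
    (hj : m 26 0 = j) (hk : m 27 0 = k) (hi : m 28 0 = i) (hy : m 29 0 = y) (ψ : St n → ℝ)
    {R : Mem → ℝ → Prop}
    (h : ∀ m' σ', Same lstep m m' → Rep m' σ' → lift (Gm M₁ M₂) (ms σ') = 1 → R m' (ψ σ')) :
    W M₁ M₂ attempt (n * 24 + E * 6 + 62) R m
      (ψ σ + acc (Cw U V u t S) (lift (Gm M₁ M₂)) σ (mv σ j k (i, y)) *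
        (ψ (mv σ j k (i, y)) - ψ σ)) := by
  set σ' := mv σ j k (i, y) with hσ'
  refine W.seqL ((total_spec hP hσ).toW fun m1 ⟨a1, s1⟩ => W.seqV ?_ (by omega)) (by omega)
  simp only [sv, Expr.eval]
  set m2 := m1.write 32 0 (m1 31 0) with hm2
  have s2 : Same [25, 31, 32] m m2 := (s1.mono (by decide)).write (by simp) _ _
  have a2 : m2 32 0 = ∑ k, ex U V u t S k (σ k) := by simp [hm2, a1]
  refine W.seqL ((propose_spec (hσ.same s2 (by decide)) (j := j) (k := k) (i := i) (y := y)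
    (by rw [s2 26 (by decide), hj]) (by rw [s2 27 (by decide), hk])
    (by rw [s2 28 (by decide), hi]) (by rw [s2 29 (by decide), hy])).toW
    fun m3 ⟨⟨r3, b37, b38, b39, b40⟩, s3⟩ => ?_) (by omega)
  have P3 := (hP.same s2 (by decide)).same s3 (by decide)
  refine W.seqL ((total_spec P3 r3).toW fun m4 ⟨a4, s4⟩ => ?_) (by omega)
  have P4 := P3.same s4 (by decide)
  have r4 := r3.same s4 (by decide)
  refine W.seqL ((valid_spec hS P4.hn P4.hr r4).toW fun m5 ⟨a5, s5⟩ => ?_) (by omega)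
  have r5 := r4.same s5 (by decide)
  have s25 : Same lstep m m5 := (((s2.mono (by decide)).trans (s3.mono (by decide))).trans
    (s4.mono (by decide))).trans (s5.mono (by decide))
  have hG : Good (lift (ι := Fin n) (Gm M₁ M₂)) n := by
    have : Nonempty (Fin n) := ⟨j⟩
    exact hS.good.lift
  have rej : ∀ m6, Same [25, 30, 33] m5 m6 → m6 33 0 = 0 →
      W M₁ M₂ (.ite (sv 33) skip restore) (7 + 1) R m6 (ψ σ) := by
    intro m6 s6 h6
    have t6 : ∀ a, a ∉ [25, 30, 33] → a ∉ [25, 4, 34, 35, 36, 33] → a ∉ [25, 31] → m6 a = m3 a :=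
      fun a h1 h2 h3 => by rw [s6 a h1, s5 a h2, s4 a h3]
    refine W.ite_neg h6 ((restore_spec (r5.same s6 (by decide))
      (by rw [t6 26 (by decide) (by decide) (by decide), s3 26 (by decide), s2 26 (by decide), hj])
      (by rw [t6 27 (by decide) (by decide) (by decide), s3 27 (by decide), s2 27 (by decide), hk])
      (by rw [t6 37 (by decide) (by decide) (by decide), b37])
      (by rw [t6 38 (by decide) (by decide) (by decide), b38])
      (by rw [t6 39 (by decide) (by decide) (by decide), b39])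
      (by rw [t6 40 (by decide) (by decide) (by decide), b40])).toW fun m7 ⟨r7, s7⟩ => ?_)
    exact h m7 σ ((s25.trans (s6.mono (by decide))).trans (s7.mono (by decide))) r7 hv
  have hd : m5 31 0 - m5 32 0 = ∑ k, ex U V u t S k (σ' k) - ∑ k, ex U V u t S k (σ k) := by
    rw [s5 31 (by decide), a4, s5 32 (by decide), s4 32 (by decide), s3 32 (by decide), a2]
  have hdE : (∑ k, ex U V u t S k (σ' k) - ∑ k, ex U V u t S k (σ k)) * 6 + 3 ≤ E * 6 + 3 := by
    have := hE σ'; omega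
  rw [acc_eq hv (hG.zo _)]
  rcases hG.zo (ms σ') with h0 | h1
  · have h33 : m5 33 0 = 0 := by rw [← hσ', h0] at a5; exact_mod_cast a5
    refine (W.seq (((coins_spec hd h33 rej rej).time hdE).up (le_of_eq ?_))).time (by omega)
    rw [h0]; ring
  · have h33 : m5 33 0 = 1 := by rw [← hσ', h1] at a5; exact_mod_cast a5
    refine (W.seq (((coins_spec (x1 := ψ σ') hd h33 (fun m6 s6 h6 => ?_) rej).time hdE).up
      (le_of_eq ?_))).time (by omega)
    · refine (W.ite_pos (t := 1) (by simp [sv, Expr.eval, h6]) (W.assign ?_)).time (by omega)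
      have s7 : Same [25, 30, 33] m5 (m6.write 30 0 0) := s6.write (by simp) _ _
      exact h _ σ' (s25.trans (s7.mono (by decide))) (r5.same s7 (by decide)) h1
    · rw [h1]; ring

theorem sum_range_dite {N Q : ℕ} (h : N ≤ Q) (f : Fin N → ℝ) :
    ∑ x ∈ range Q, (if h : x < N then f ⟨x, h⟩ else 0) = ∑ x, f x := by
  obtain ⟨c, rfl⟩ := Nat.exists_eq_add_of_le h
  rw [sum_range_add, ← Fin.sum_univ_eq_sum_range (fun x => if h : x < N then f ⟨x, h⟩ else 0)]
  simp

theorem chainStep_spec (hS : Setup M₁ M₂ r) (hq : n + n ≤ 2 ^ q) {m : Mem}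
    (hP : Par q S r U V u t m) {σ : St n}
    (hσ : Rep m σ) (hv : lift (Gm M₁ M₂) (ms σ) = 1) {E : ℕ}
    (hE : ∀ σ' : St n, ∑ k, ex U V u t S k (σ' k) ≤ E) (ψ : St n → ℝ) {R : Mem → ℝ → Prop}
    (h : ∀ m' σ', Same lstep m m' → Rep m' σ' → lift (Gm M₁ M₂) (ms σ') = 1 → R m' (ψ σ')) :
    W M₁ M₂ chainStep (q * 24 + n * 24 + E * 6 + 87) R m
      (Pk (1 / (2 ^ q) ^ 4) (Cw U V u t S) (lift (Gm M₁ M₂)) ψ σ) := by
  let F : Fin n → Fin n → Fin n → Fin (n + n) → ℝ := fun j k i y =>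
    acc (Cw U V u t S) (lift (Gm M₁ M₂)) σ (mv σ j k (i, y)) * (ψ (mv σ j k (i, y)) - ψ σ)
  let g : ℕ → ℕ → ℕ → ℕ → ℝ := fun j k i y =>
    if hj : j < n then if hk : k < n then if hi : i < n then if hy : y < n + n then
      F ⟨j, hj⟩ ⟨k, hk⟩ ⟨i, hi⟩ ⟨y, hy⟩ else 0 else 0 else 0 else 0
  have hn : n ≤ 2 ^ q := by omega
  have hsum : ∑ j ∈ range (2 ^ q), ∑ k ∈ range (2 ^ q), ∑ i ∈ range (2 ^ q),
      ∑ y ∈ range (2 ^ q), g j k i y = ∑ j, ∑ k, ∑ i, ∑ y, F j k i y := by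
    simp only [g, sum_dite_irrel, sum_const_zero]
    rw [sum_range_dite hn fun j => ∑ k ∈ range (2 ^ q), if hk : k < n then
      ∑ i ∈ range (2 ^ q), if hi : i < n then ∑ y ∈ range (2 ^ q), if hy : y < n + n then
        F j ⟨k, hk⟩ ⟨i, hi⟩ ⟨y, hy⟩ else 0 else 0 else 0]
    refine sum_congr rfl fun j _ => ?_
    rw [sum_range_dite hn fun k =>
      ∑ i ∈ range (2 ^ q), if hi : i < n then ∑ y ∈ range (2 ^ q), if hy : y < n + n then
        F j k ⟨i, hi⟩ ⟨y, hy⟩ else 0 else 0]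
    refine sum_congr rfl fun k _ => ?_
    rw [sum_range_dite hn fun i => ∑ y ∈ range (2 ^ q), if hy : y < n + n then
        F j k i ⟨y, hy⟩ else 0]
    exact sum_congr rfl fun i _ => sum_range_dite hq _
  have hval : Pk (1 / (2 ^ q) ^ 4) (Cw U V u t S) (lift (Gm M₁ M₂)) ψ σ =
      (∑ j ∈ range (2 ^ q), (∑ k ∈ range (2 ^ q), (∑ i ∈ range (2 ^ q),
        (∑ y ∈ range (2 ^ q), (ψ σ + g j k i y)) / 2 ^ q) / 2 ^ q) / 2 ^ q) / 2 ^ q := by
    simp only [sum_add_distrib, ← sum_div, sum_const, card_range, nsmul_eq_mul, hsum, Pk,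
      Fintype.sum_prod_type, F]
    push_cast
    field_simp
  rw [hval]
  have e : q * 24 + n * 24 + E * 6 + 87 = (q * 6 + 5) + ((q * 6 + 5) + ((q * 6 + 5) +
    ((q * 6 + 5) + (n * 24 + E * 6 + 62 + 1) + 1) + 1) + 1) + 1 := by ring
  rw [e]
  refine W.seq (rand_spec (by decide) hP.hq _ fun m1 j s1 a1 => ?_)
  have P1 := hP.same s1 (by decide)
  refine W.seq (rand_spec (by decide) P1.hq _ fun m2 k s2 a2 => ?_)
  have P2 := P1.same s2 (by decide)
  refine W.seq (rand_spec (by decide) P2.hq _ fun m3 i s3 a3 => ?_)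
  have P3 := P2.same s3 (by decide)
  refine W.seq (rand_spec (by decide) P3.hq _ fun m4 y s4 a4 => ?_)
  have P4 := P3.same s4 (by decide)
  have s14 : Same [25, 30, 26, 27, 28, 29] m m4 := (((s1.mono (by decide)).trans
    (s2.mono (by decide))).trans (s3.mono (by decide))).trans (s4.mono (by decide))
  have r4 := hσ.same s14 (by decide)
  have b1 : m4 26 0 = j := by rw [s4 26 (by decide), s3 26 (by decide), s2 26 (by decide), a1]
  have b2 : m4 27 0 = k := by rw [s4 27 (by decide), s3 27 (by decide), a2]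
  have b3 : m4 28 0 = i := by rw [s4 28 (by decide), a3]
  by_cases hc : j < n ∧ k < n ∧ i < n ∧ y < n + n
  · obtain ⟨hj, hk, hi, hy⟩ := hc
    refine W.ite_pos ?_ ?_
    · simp only [Expr.eval, sv, eN, b1, b2, b3, a4, P4.hn]
      split_ifs <;> omega
    · simp only [g, hj, hk, hi, hy, dite_true]
      exact attempt_spec hS P4 r4 hv hE (j := ⟨j, hj⟩) (k := ⟨k, hk⟩) (i := ⟨i, hi⟩)
        (y := ⟨y, hy⟩) b1 b2 b3 a4 ψ fun m' σ' s' => h m' σ' ((s14.mono (by decide)).trans s')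
  · have hg : g j k i y = 0 := by
      simp only [g]
      split_ifs with h1 h2 h3 h4
      · exact absurd ⟨h1, h2, h3, h4⟩ hc
      all_goals rfl
    rw [hg, add_zero]
    refine (W.ite_neg (t := 1) ?_ (W.assign ?_)).time (by omega)
    · simp only [Expr.eval, sv, eN, b1, b2, b3, a4, P4.hn]
      split_ifs <;> omega
    · have s5 : Same [25, 30, 26, 27, 28, 29] m (m4.write 30 0 0) := s14.write (by simp) _ _
      exact h _ σ (s5.mono (by decide)) (hσ.same s5 (by decide)) hv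

end

end Vale.Agent.P317
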