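import Vale.Agent.P317.Spec1

/-! Specifications of sampling and of one annealing stage. -/

namespace Vale.Agent.P317

open Finset

variable {n : ℕ} {M₁ M₂ : Matroid (Fin n)}
variable {q S r : ℕ} {U V : Fin n → Fin (n + n)} {u t : Fin n → ℕ}

theorem chain_spec (hS : Setup M₁ M₂ r) (hq : n + n ≤ 2 ^ q) {m : Mem}
    (hP : Par q S r U V u t m) {σ : St n}
    (hσ : Rep m σ) (hv : lift (Gm M₁ M₂) (ms σ) = 1) {E : ℕ}
    (hE : ∀ σ' : St n, ∑ k, ex U V u t S k (σ' k) ≤ E) {T : ℕ} (hT : m 15 0 = T) (ψ : St n → ℝ)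
    {R : Mem → ℝ → Prop}
    (h : ∀ m' σ', Same (24 :: lstep) m m' → Rep m' σ' → lift (Gm M₁ M₂) (ms σ') = 1 →
      R m' (ψ σ')) :
    W M₁ M₂ (forS 24 (sv 15) chainStep) (T * (q * 24 + n * 24 + E * 6 + 87 + 3) + 3) R m
      ((Pk (1 / (2 ^ q) ^ 4) (Cw U V u t S) (lift (Gm M₁ M₂)))^[T] ψ σ) := by
  refine W.mono' (R := fun m' y => ∃ y' ≤ y, R m' y') ?_ fun _ _ h => h
  refine W.forS lstep T (fun j m' y => ∃ σ', Rep m' σ' ∧ lift (Gm M₁ M₂) (ms σ') = 1 ∧
      (Pk (1 / (2 ^ q) ^ 4) (Cw U V u t S) (lift (Gm M₁ M₂)))^[T - j] ψ σ' ≤ y)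
    (by decide) (by decide) (fun m' hs => by simp [sv, Expr.eval, hs 15 (by decide), hT])
    (fun j m' x y ⟨σ', h1, h2⟩ => ⟨σ', h1.same ((Same.refl [24] m').write (by simp) _ _)
      (by decide), h2⟩) ⟨σ, hσ, hv, le_rfl⟩ (fun j m' x hj hs _ ⟨σ', h1, h2, h3⟩ => ?_)
    (fun m' x hs ⟨σ', h1, h2, h3⟩ => ⟨ψ σ', by simpa using h3, h m' σ' hs h1 h2⟩)
  have e : T - j = (T - (j + 1)) + 1 := by omega
  rw [e, Function.iterate_succ_apply'] at h3
  exact (chainStep_spec hS hq (hP.same hs (by decide)) h1 h2 hE _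
    fun m'' σ'' _ g1 g2 => ⟨σ'', g1, g2, le_rfl⟩).up h3

theorem mismatch_iff {o : Fin n} (ho : o.val = 0) (σ : St n) (i : Fin n) :
    (∑ l : Fin n, (((σ l).1.val - l.val) + (l.val - (σ l).1.val)) = i.val ∧ (σ i).1.val = 0) ↔
      Ev o i σ := by
  constructor
  · rintro ⟨h1, h2⟩ k
    rw [← add_sum_erase univ _ (mem_univ i), h2] at h1
    have h3 : ∑ l ∈ univ.erase i, (((σ l).1.val - l.val) + (l.val - (σ l).1.val)) = 0 := by omega
    split_ifs with hk
    · subst hk; exact Fin.ext (by omega)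
    · have := (sum_eq_zero_iff.1 h3) k (by simp [hk])
      exact Fin.ext (by omega)
  · intro h
    have h2 : (σ i).1.val = 0 := by rw [h i, if_pos rfl, ho]
    refine ⟨?_, h2⟩
    rw [← add_sum_erase univ _ (mem_univ i), h2, sum_eq_zero]
    · omega
    · intro l hl
      rw [h l, if_neg (mem_erase.1 hl).1]; omega

theorem mismatch_zero (σ : St n) :
    ∑ l : Fin n, (((σ l).1.val - l.val) + (l.val - (σ l).1.val)) = 0 ↔ ∀ l, (σ l).1 = l := by
  rw [sum_eq_zero_iff]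
  constructor
  · intro h l
    have := h l (mem_univ l)
    exact Fin.ext (by omega)
  · intro h l _
    rw [h l]; omega

open Classical in
theorem record_spec {m : Mem} (hP : Par q S r U V u t m) {σ : St n} (hσ : Rep m σ) {o k : Fin n}
    (ho : o.val = 0) (hk : m 19 0 = k) : D M₁ M₂ record (n * 4 + 9) m fun m' =>
      ((∀ i : Fin n, m' 9 i = m 9 i + if Ev o i σ then 1 else 0) ∧
        m' 20 0 = m 20 0 + if EvN U V k σ then 1 else 0) ∧ Same [25, 41, 9, 20] m m' := by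
  refine D.frame _ (by decide) ?_
  refine D.seqV ?_ (by omega)
  let f : ℕ → ℕ := fun l =>
    if h : l < n then ((σ ⟨l, h⟩).1.val - l) + (l - (σ ⟨l, h⟩).1.val) else 0
  have hs0 : Same [25, 41] m (m.write 41 0 0) := (Same.refl _ _).write (by simp) _ _
  refine D.seqL (D.forS (t := 1) [41] n (fun j m' => m' 41 0 = ∑ l ∈ range j, f l) (by decide)
    (by simp) (fun m' hs => (hP.same (hs0.trans hs) (by decide)).hn)
    (fun j m' y hI => by simpa using hI) (by simp [Expr.eval])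
    (fun j m' hj hs hi hI => ?_) (fun m1 hs hI => ?_)) (by omega)
  · refine D.assign ?_
    have := ((hσ.same (hs0.trans hs) (by decide)) ⟨j, hj⟩).1
    simp only at this
    simp [Expr.eval, sv, neq, this, hI, sum_range_succ, f, hj, hi]
  have s1 := hs0.trans hs
  have r1 := hσ.same s1 (by decide)
  have P1 := hP.same s1 (by decide)
  have hD : m1 41 0 = ∑ l : Fin n, (((σ l).1.val - l.val) + (l.val - (σ l).1.val)) := by
    rw [hI, ← Fin.sum_univ_eq_sum_range]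
    simp [f]
  refine D.seqA (D.setv ⟨fun i => ?_, ?_⟩ (by omega)) (by omega)
  · simp only [Expr.eval, sv, ne_eq, Nat.reduceEqDiff, not_false_eq_true, write_ne, write_self,
      s1 9 (by decide)]
    have := mismatch_iff ho σ i
    rw [← hD, ← (r1 i).1] at this
    by_cases h1 : m1 41 0 = i
    · rw [h1, Function.update_self]
      simp only [h1, true_and] at this
      simp only [this]
    · rw [Function.update_of_ne (Ne.symm h1), if_neg fun h => h1 (this.2 h).1, add_zero]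
  · have h19 : m1 19 0 = k := by rw [s1 19 (by decide), hk]
    simp only [Expr.eval, neq_eval, sv, ne_eq, Nat.reduceEqDiff, not_false_eq_true, write_ne,
      write_self, Function.update_self, s1 20 (by decide), h19, (r1 k).2, P1.hU, P1.hV,
      Fin.val_inj, hD, mismatch_zero]
    congr 1
    by_cases h1 : ∀ l, (σ l).1 = l
    · have : EvN U V k σ ↔ ¬((σ k).2 = U k ∨ (σ k).2 = V k) :=
        ⟨fun h => (h k).2 rfl, fun h l => ⟨h1 l, fun e => e ▸ h⟩⟩
      rw [if_pos h1]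
      by_cases a1 : (σ k).2 = U k <;> by_cases a2 : (σ k).2 = V k <;> simp [a1, a2, this]
    · rw [if_neg h1, if_neg fun h => h1 fun l => (h l).1]

theorem ex_total_le {Q : ℕ} (hn : n + n ≤ Q) (hq : q ≤ Q) (hQ : 4 ≤ Q) (hu : ∀ i, u i ≤ 2 * Q ^ 4)
    (ht : ∀ i, t i ≤ Q ^ 2) (σ : St n) : ∑ k, ex U V u t (4 * q) k (σ k) ≤ 2 * Q ^ 5 := by
  have h1 : Q ^ 2 ≤ Q ^ 4 := Nat.pow_le_pow_right (by omega) (by omega)
  have h2 : 4 * Q ≤ Q ^ 2 := by rw [sq]; exact Nat.mul_le_mul_right _ hQ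
  have h3 : ∀ k, ex U V u t (4 * q) k (σ k) ≤ 4 * Q ^ 4 := by
    intro k
    have := hu (σ k).1
    have := ht (σ k).1
    unfold ex
    split_ifs <;> omega
  refine (sum_le_card_nsmul _ _ _ fun k _ => h3 k).trans ?_
  simp only [card_univ, Fintype.card_fin, smul_eq_mul]
  have : n * (4 * Q ^ 4) = 2 * (Q ^ 4 * (n + n)) := by ring
  rw [this, pow_succ Q 4]
  gcongr

theorem lt_two_pow_le {q Q : ℕ} (h : Q = 2 ^ q) : q ≤ Q := h ▸ (Nat.lt_two_pow_self).le

theorem mix_bound (hS : Setup M₁ M₂ r) {Q : ℕ} (hQ : Q = 2 ^ q) (hn : 256 + n + n ≤ Q)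
    (hu : ∀ i, u i ≤ 2 * Q ^ 4) (ht : ∀ i, t i ≤ Q ^ 2) (o : Fin n) {σ : St n}
    (hv : lift (Gm M₁ M₂) (ms σ) = 1) (χ : St n → ℝ) (h0 : ∀ σ, 0 ≤ χ σ) (h1 : ∀ σ, χ σ ≤ 1) :
    |(Pk (1 / (2 ^ q) ^ 4) (Cw U V u t (4 * q)) (lift (Gm M₁ M₂)))^[Q ^ 20] χ σ -
      (∑ σ, wt (Cw U V u t (4 * q)) (lift (Gm M₁ M₂)) σ * χ σ) /
        Z (Cw U V u t (4 * q)) (lift (Gm M₁ M₂))| ≤ 1 / (Q : ℝ) ^ 5 := by
  have : Nonempty (Fin n) := ⟨o⟩
  have : Nonempty (Fin n × Fin (n + n)) := ⟨σ o⟩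
  have hG : Good (lift (ι := Fin n) (Gm M₁ M₂)) n := hS.good.lift
  have hQ' : (2 : ℝ) ^ q = Q := by rw [hQ]; push_cast; rfl
  have hn' : 256 + (n : ℝ) + n ≤ Q := by exact_mod_cast hn
  have hn0 : (0 : ℝ) ≤ n := Nat.cast_nonneg n
  have hQ0 : (0 : ℝ) < Q := by linarith
  have hK : (2 : ℝ) ^ (4 * q) = Q ^ 4 := by rw [mul_comm, pow_mul, hQ']
  have hZ : 0 < Z (Cw U V u t (4 * q)) (lift (Gm M₁ M₂)) :=
    Z_pos hG ⟨_, by rw [hv]; exact one_ne_zero⟩ Cw_pos
  have hnQ : (n : ℝ) ≤ Q / 2 := by linarith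
  have key := mixing_point (ρ := 1 / (2 ^ q) ^ 4) hG (C := Cw U V u t (4 * q)) Cw_pos
    (K := 2 ^ (4 * q)) (one_le_pow₀ (by norm_num)) Cw_ratio (by positivity) (by
      rw [hQ', Fintype.card_prod, Fintype.card_fin, Fintype.card_fin, div_mul_eq_mul_div, one_mul,
        div_le_iff₀ (by positivity)]
      push_cast
      have : (n : ℝ) ^ 4 ≤ (Q / 2) ^ 4 := by gcongr
      nlinarith) (γ := 1 / (2 * (Q : ℝ) ^ 14)) (by
      rw [hK, hQ', div_mul_eq_mul_div, one_mul, div_div, div_le_div_iff₀ (by positivity)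
        (by positivity)]
      have a1 : (n : ℝ) ^ 2 ≤ (Q / 2) ^ 2 := by gcongr
      have a2 : (4 : ℝ) ≤ Q ^ 10 := le_trans (by norm_num) (pow_le_pow_left₀ (by norm_num)
        (by linarith : (2 : ℝ) ≤ Q) 10)
      have a3 : (n : ℝ) ^ 2 * Q ^ 12 ≤ (Q / 2) ^ 2 * Q ^ 12 := by gcongr
      have a4 : 4 * (Q : ℝ) ^ 4 ≤ Q ^ 10 * Q ^ 4 := by gcongr
      nlinarith) (by
      rw [div_le_one (by positivity)]
      have : (1 : ℝ) ≤ Q ^ 14 := one_le_pow₀ (by linarith)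
      linarith) χ h0 h1 hZ (Q ^ 20) σ
  have hZle : Z (Cw U V u t (4 * q)) (lift (Gm M₁ M₂)) ≤ Real.exp (Q ^ 2) := by
    have a1 : Z (Cw U V u t (4 * q)) (lift (Gm M₁ M₂)) ≤ ((n : ℝ) * (n + n)) ^ n := by
      have := sum_le_card_nsmul univ (wt (Cw U V u t (4 * q)) (lift (Gm M₁ M₂))) 1 fun σ _ => by
        rw [wt_Cw]
        refine mul_le_one₀ (pow_le_one₀ (by norm_num) (by norm_num)) (hG.nonneg _) ?_
        rcases hG.zo (ms σ) with h | h <;> simp [h]
      simpa [Z] using this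
    have a2 : (n : ℝ) * (n + n) ≤ Real.exp (2 * Q) := by
      have b1 := Real.add_one_le_exp (Q : ℝ)
      have b2 : (n : ℝ) * (n + n) ≤ Real.exp Q * Real.exp Q := by
        gcongr <;> linarith
      rwa [← Real.exp_add, ← two_mul (Q : ℝ)] at b2
    refine a1.trans ((pow_le_pow_left₀ (by positivity) a2 n).trans ?_)
    rw [← Real.exp_nat_mul]
    exact Real.exp_le_exp.2 (by nlinarith)
  have hw : Real.exp (-(2 * Q ^ 5)) ≤ wt (Cw U V u t (4 * q)) (lift (Gm M₁ M₂)) σ := by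
    rw [wt_Cw, hv, mul_one]
    have a1 := ex_total_le (U := U) (V := V) (by omega) (lt_two_pow_le hQ) (by omega) hu ht σ
    refine le_trans ?_ (pow_le_pow_of_le_one (by norm_num) (by norm_num) a1)
    have a2 : Real.exp (-1) ≤ 1 / 2 := by
      rw [Real.exp_neg, inv_le_comm₀ (Real.exp_pos _) (by norm_num)]
      have := Real.add_one_le_exp (1 : ℝ)
      linarith
    refine le_trans (le_of_eq ?_) (pow_le_pow_left₀ (Real.exp_pos _).le a2 _)
    rw [← Real.exp_nat_mul]; push_cast; ring_nf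
  have hγ : (1 - 1 / (2 * (Q : ℝ) ^ 14)) ^ Q ^ 20 ≤ Real.exp (-(Q ^ 6 / 2)) := by
    have a1 := Real.add_one_le_exp (-(1 / (2 * (Q : ℝ) ^ 14)))
    have a2 : 0 ≤ 1 - 1 / (2 * (Q : ℝ) ^ 14) := by
      rw [sub_nonneg, div_le_one (by positivity)]
      have : (1 : ℝ) ≤ Q ^ 14 := one_le_pow₀ (by linarith)
      linarith
    refine (pow_le_pow_left₀ a2 (by linarith : _ ≤ Real.exp (-(1 / (2 * (Q : ℝ) ^ 14)))) _).trans
      (le_of_eq ?_)
    rw [← Real.exp_nat_mul]; push_cast; congr 1; field_simp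
  set d := (Pk (1 / (2 ^ q) ^ 4) (Cw U V u t (4 * q)) (lift (Gm M₁ M₂)))^[Q ^ 20] χ σ -
      (∑ σ, wt (Cw U V u t (4 * q)) (lift (Gm M₁ M₂)) σ * χ σ) /
        Z (Cw U V u t (4 * q)) (lift (Gm M₁ M₂))
  have a1 : Real.exp (-(2 * Q ^ 5)) * d ^ 2 ≤ Real.exp (-(Q ^ 6 / 2)) * Real.exp (Q ^ 2) :=
    (mul_le_mul_of_nonneg_right hw (sq_nonneg d)).trans (key.trans
      (mul_le_mul hγ hZle hZ.le (Real.exp_pos _).le))
  have a2 : Real.exp (-(Q ^ 6 / 2)) * Real.exp (Q ^ 2) ≤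
      Real.exp (-(2 * Q ^ 5)) * Real.exp (-Q) ^ 10 := by
    rw [← Real.exp_nat_mul, ← Real.exp_add, ← Real.exp_add]
    refine Real.exp_le_exp.2 ?_
    have b1 : (Q : ℝ) ≤ Q ^ 5 := le_self_pow₀ (by linarith) (by norm_num)
    have b2 : (Q : ℝ) ^ 2 ≤ Q ^ 5 := pow_le_pow_right₀ (by linarith) (by norm_num)
    have b3 : 256 * (Q : ℝ) ^ 5 ≤ Q * Q ^ 5 := by gcongr; linarith
    push_cast
    nlinarith
  have a3 : d ^ 2 ≤ Real.exp (-Q) ^ 10 := le_of_mul_le_mul_left (a1.trans a2) (Real.exp_pos _)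
  have a4 : Real.exp (-Q) ≤ 1 / Q := by
    rw [Real.exp_neg, one_div]
    exact inv_anti₀ hQ0 (by linarith [Real.add_one_le_exp (Q : ℝ)])
  have a5 : d ^ 2 ≤ (1 / (Q : ℝ) ^ 5) ^ 2 := by
    refine a3.trans ((pow_le_pow_left₀ (Real.exp_pos _).le a4 10).trans (le_of_eq ?_))
    field_simp
  exact abs_le_of_sq_le_sq a5 (by positivity)

/-- The arrays written by the sampling routine. -/
def lsample : List ℕ := [23, 24, 41, 9, 20] ++ lstep

open Classical in
theorem sample_spec (hS : Setup M₁ M₂ r) {Q : ℕ} (hQ : Q = 2 ^ q) (hn : 256 + n + n ≤ Q)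
    (hu : ∀ i, u i ≤ 2 * Q ^ 4) (ht : ∀ i, t i ≤ Q ^ 2) {o k : Fin n} (ho : o.val = 0) {m : Mem}
    (hP : Par q (4 * q) r U V u t m) (hk : m 19 0 = k) (hT : m 15 0 = Q ^ 20)
    (hM : m 16 0 = Q ^ 12) {σ : St n} (hσ : Rep m σ) (hv : lift (Gm M₁ M₂) (ms σ) = 1) :
    W M₁ M₂ sample (Q ^ 38) (fun m' y => (∃ σ', Rep m' σ' ∧ lift (Gm M₁ M₂) (ms σ') = 1 ∧
      m' 9 0 ≤ Q ^ 12 ∧ (if Acc (Gm M₁ M₂) U V u t (4 * q) o k (Q ^ 12) (4 * (1 / (Q : ℝ) ^ 5))
        (fun i => m' 9 i) (m' 20 0) then 0 else 1) ≤ y) ∧ Same lsample m m') m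
      (Q * Real.exp (-(Q : ℝ) ^ 2)) := by
  refine W.frame _ (by decide) ?_
  have : Nonempty (Fin n) := ⟨o⟩
  have hG : Good (lift (ι := Fin n) (Gm M₁ M₂)) n := hS.good.lift
  have hqQ := lt_two_pow_le hQ
  have hn' : 256 + (n : ℝ) + n ≤ Q := by exact_mod_cast hn
  have hn0 : (0 : ℝ) ≤ n := Nat.cast_nonneg n
  have hQ0 : (0 : ℝ) < Q := by linarith
  set C := Cw U V u t (4 * q) with hC
  set G := lift (ι := Fin n) (Gm M₁ M₂) with hGdef
  have hZ : 0 < Z C G := Z_pos hG ⟨_, by rw [hv]; exact one_ne_zero⟩ Cw_pos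
  let χ : Option (Fin n) → St n → ℝ := fun c σ => match c with
    | some i => if Ev o i σ then 1 else 0
    | none => if EvN U V k σ then 1 else 0
  have hχ : ∀ c σ, χ c σ = 0 ∨ χ c σ = 1 := by
    rintro (_ | i) σ <;> simp only [χ] <;> split_ifs <;> simp
  have hχ0 : ∀ c σ, 0 ≤ χ c σ := fun c σ => by rcases hχ c σ with h | h <;> simp [h]
  have hχ1 : ∀ c σ, χ c σ ≤ 1 := fun c σ => by rcases hχ c σ with h | h <;> simp [h]
  let p : Option (Fin n) → ℝ := fun c => (∑ σ, wt C G σ * χ c σ) / Z C G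
  have hw : ∀ σ, 0 ≤ wt C G σ := wt_nonneg (fun k y => (Cw_pos k y).le) hG.nonneg
  have hp0 : ∀ c, 0 ≤ p c := fun c =>
    div_nonneg (sum_nonneg fun σ _ => mul_nonneg (hw σ) (hχ0 c σ)) hZ.le
  have hp1 : ∀ c, p c ≤ 1 := fun c => by
    rw [div_le_one hZ]
    exact sum_le_sum fun σ _ => mul_le_of_le_one_right (hw σ) (hχ1 c σ)
  let cnt : Mem → Option (Fin n) → ℝ := fun m c => match c with
    | some i => m 9 i
    | none => m 20 0
  set θ : ℝ := 1 / (Q : ℝ) ^ 5 with hθ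
  have hθ0 : 0 ≤ θ := by positivity
  have hθ1 : θ ≤ 1 := by rw [hθ, div_le_one (by positivity)]; exact one_le_pow₀ (by linarith)
  have hE := ex_total_le (U := U) (V := V) (by omega) hqQ (by omega) hu ht
  have p1 : Q ≤ Q ^ 5 := Nat.le_self_pow (by norm_num) _
  have p2 : 256 * Q ^ 5 ≤ Q ^ 6 := by rw [pow_succ' Q 5]; gcongr; omega
  have p3 : Q ≤ Q ^ 25 := Nat.le_self_pow (by norm_num) _
  have p4 : Q ≤ Q ^ 37 := Nat.le_self_pow (by norm_num) _
  have p5 : 256 * Q ^ 37 ≤ Q ^ 38 := by rw [pow_succ' Q 37]; gcongr; omega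
  have t1 : Q ^ 20 * (q * 24 + n * 24 + 2 * Q ^ 5 * 6 + 87 + 3) ≤ 100 * Q ^ 25 := by
    have : 100 * Q ^ 25 = Q ^ 20 * (100 * Q ^ 5) := by ring
    rw [this]; gcongr; omega
  have t2 : Q ^ 12 * (110 * Q ^ 25 + 3) ≤ 120 * Q ^ 37 := by
    have : 120 * Q ^ 37 = Q ^ 12 * (120 * Q ^ 25) := by ring
    rw [this]; gcongr; omega
  refine W.seqL ((D.forS (i := 25) (bound := eN) (body := .assign 9 (sv 25) (.const 0)) (t := 1)
    [9] n (fun j m' => ∀ i < j, m' 9 i = 0) (by decide) (by simp)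
    (fun m' hs => (hP.same hs (by decide)).hn) (fun j m' y hI => by simpa using hI) (by simp)
    (fun j m' hj hs hi hI => ?_) (fun m1 hs hI => (⟨hs, hI⟩ :
      Same [25, 9] m m1 ∧ ∀ i < n, m1 9 i = 0))).toW fun m1 ⟨s1, a1⟩ => W.seqV ?_ (by omega))
    (by omega)
  · refine D.assign fun i hi' => ?_
    simp only [Expr.eval, sv, hi, write_self]
    by_cases h : i = j
    · subst h; simp
    · rw [Function.update_of_ne h]; exact hI i (by omega)
  simp only [Expr.eval]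
  set m2 := m1.write 20 0 0 with hm2
  have s2 : Same [25, 9, 20] m m2 := (s1.mono (by decide)).write (by simp) _ _
  refine (W.forS (t := 110 * Q ^ 25) ([24, 41, 9, 20] ++ lstep) (Q ^ 12)
    (fun j m' y => ∃ σ', Rep m' σ' ∧ G (ms σ') = 1 ∧ m' 9 0 ≤ j ∧
      Pot θ p (Q ^ 12) j (cnt m') ≤ y) (by decide) (by decide)
    (fun m' hs => by simp [sv, Expr.eval, hs 16 (by decide), s2 16 (by decide), hM])
    (fun j m' x y ⟨σ', h1, h2, h3, h4⟩ => ⟨σ', h1.same ((Same.refl [23] m').write (by simp) _ _)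
      (by decide), h2, by simpa using h3, by simpa [cnt] using h4⟩)
    ⟨σ, hσ.same s2 (by decide), hv, ?_, ?_⟩ (fun j m3 x hj s3 _ ⟨σ', h1, h2, h3, h4⟩ => ?_)
    (fun m' x hs ⟨σ', h1, h2, h3, h4⟩ => ⟨σ', h1, h2, h3, ?_⟩)).time (by omega)
  · simp [hm2, a1 0 o.pos]
  · have : cnt m2 = fun _ => 0 := by
      funext c
      rcases c with _ | i <;> simp [cnt, hm2, a1]
    rw [this, Pot_start]
    have e : θ ^ 2 * ((Q ^ 12 : ℕ) : ℝ) = Q ^ 2 := by rw [hθ]; push_cast; field_simp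
    rw [e, Fintype.card_option, Fintype.card_fin]
    push_cast
    gcongr
    linarith
  · have P3 := (hP.same s2 (by decide)).same s3 (by decide)
    refine W.seqL ((chain_spec hS (by omega) P3 h1 h2 hE (T := Q ^ 20)
      (by rw [s3 15 (by decide), s2 15 (by decide), hT])
      (fun σ'' => Pot θ p (Q ^ 12) (j + 1) fun c => cnt m3 c + χ c σ'')
      fun m4 σ'' s4 g1 g2 => ?_).up ((Pot_step hθ0 hθ1 hp0 hp1 χ hχ _ _ _ _ _ fun c =>
        mix_bound hS hQ hn hu ht o h2 (χ c) (hχ0 c) (hχ1 c)).trans h4)) (by omega)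
    refine ((record_spec (P3.same s4 (by decide)) g1 ho (k := k) (by
      rw [s4 19 (by decide), s3 19 (by decide), s2 19 (by decide), hk])).time (by omega)).toW
      fun m5 ⟨⟨b1, b2⟩, s5⟩ => ⟨σ'', g1.same s5 (by decide), g2, ?_, le_of_eq ?_⟩
    · have := b1 o
      rw [ho, s4 9 (by decide)] at this
      split_ifs at this <;> omega
    · congr 1
      funext c
      rcases c with _ | i
      · simp [cnt, χ, b2, s4 20 (by decide)]
      · simp [cnt, χ, b1, s4 9 (by decide)]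
  · split_ifs with hacc
    · exact (Pot_nonneg _ _ _ _ _).trans h4
    · refine le_trans ?_ h4
      unfold Acc at hacc
      rw [not_and_or, not_forall] at hacc
      rcases hacc with ⟨i, hi⟩ | hi
      · exact Pot_end hθ0 p _ _ (some i) (not_le.1 hi)
      · exact Pot_end hθ0 p _ _ none (not_le.1 hi)

theorem mulOut_spec {j N : ℕ} {e : Expr} {m : Mem} (he : ∀ m', Same [25, 42] m m' → e.eval m' = N) :
    D M₁ M₂ (mulOut j e) (N * 4 + 7) m fun m' =>
      m' 1 = Function.update (m 1) j (N * m 1 j) ∧ Same [25, 42, 1] m m' := by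
  refine D.frame _ (by simp [mulOut, forS, setv, Stmt.writes]) ?_
  refine D.seqV ?_ (by omega)
  have hs0 : Same [25, 42] m (m.write 42 0 0) := (Same.refl _ _).write (by simp) _ _
  refine D.seqL (D.forS (t := 1) [42] N (fun i m' => m' 42 0 = i * m 1 j)
    (by simp [setv, Stmt.writes]) (by simp) (fun m' hs => he m' (hs0.trans hs))
    (fun j m' y hI => by simpa using hI) (by simp [Expr.eval])
    (fun i m' hj hs hi hI => ?_) (fun m1 hs hI => ?_)) (by omega)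
  · refine D.assign ?_
    simp [Expr.eval, sv, hI, (hs0.trans hs) 1 (by decide), add_mul]
  · refine D.assignT ?_ (by omega)
    simp [Expr.eval, sv, hI, (hs0.trans hs) 1 (by decide)]

theorem adjust_spec {m : Mem} (hP : Par q S r U V u t m) (hu : ∀ i, 2 ≤ u i) {o k : Fin n}
    (ho : o.val = 0) (hk : m 19 0 = k) {thr : ℕ} (hthr : m 17 0 = thr) :
    D M₁ M₂ adjust (m 9 0 * 16 + n * 6 + 21) m fun m' =>
      (Par q S r U V (newU o u (fun i => m 9 i) thr) (Function.update t k (t k + 1)) m' ∧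
        m' 1 0 = (m 9 0 + m 9 0 - m 20 0) * m 1 0 ∧ m' 1 1 = (m 9 0 + m 9 0) * m 1 1) ∧
      Same [25, 42, 1, 7, 8] m m' := by
  refine D.frame _ (by decide) ?_
  refine D.seqL ((mulOut_spec (N := m 9 0 + m 9 0 - m 20 0) fun m' hs => by
    simp [Expr.eval, sv, hs 9 (by decide), hs 20 (by decide)]).mono fun m1 ⟨a1, s1⟩ => ?_)
    (by omega)
  refine D.seqL ((mulOut_spec (N := m 9 0 + m 9 0) fun m' hs => by
    simp [Expr.eval, sv, hs 9 (by decide), s1 9 (by decide)]).mono fun m2 ⟨a2, s2⟩ => ?_)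
    (by omega)
  have s12 := s1.trans s2
  have P2 := hP.same s12 (by decide)
  set u' := newU o u (fun i => m 9 i) thr with hu'
  refine D.seqL (D.forS (t := 3) [7, 8] n (fun j m' => ∀ i : Fin n,
      m' 7 i = (if i.val < j then u' i else u i) ∧ m' 8 i = (if i.val < j then u' i else u i) + t i)
    (by decide) (by simp) (fun m' hs => by simp [eN, sv, Expr.eval, hs 0 (by decide), P2.hn])
    (fun j m' y hI => by simpa using hI) (fun i => by simp [P2.hE, P2.hN])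
    (fun j m' hj hs hi hI => ?_) (fun m3 s3 hI => ?_)) (by omega)
  · refine D.seqA (D.assignT (fun i => ?_) (by omega)) (by omega)
    have c1 := hI ⟨j, hj⟩
    have c2 := hu ⟨j, hj⟩
    simp only [lt_self_iff_false, if_false] at c1
    simp only [adjE, Expr.eval, sv, ne_eq, Nat.reduceEqDiff, not_false_eq_true, write_ne,
      write_self, hi, c1.1, c1.2, hs 9 (by decide), s12 9 (by decide), hs 17 (by decide),
      s12 17 (by decide), hthr]
    by_cases h : i.val = j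
    · have hij : i = ⟨j, hj⟩ := Fin.ext h
      subst hij
      simp only [Function.update_self, Nat.lt_succ_self, if_true, hu', newU, Fin.ext_iff, ho]
      constructor <;> split_ifs <;> omega
    · rw [Function.update_of_ne h, Function.update_of_ne h, (hI i).1, (hI i).2]
      have : (i.val < j + 1) ↔ i.val < j := by omega
      simp only [this, and_self]
  · have h19 : m3 19 0 = k := by rw [s3 19 (by decide), s12 19 (by decide), hk]
    refine D.assignT ⟨?_, ?_, ?_⟩ (by omega)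
    · refine ⟨?_, ?_, ?_, ?_, ?_, ?_, fun i => ?_, fun i => ?_⟩ <;>
        simp only [Expr.eval, sv, ne_eq, Nat.reduceEqDiff, not_false_eq_true, write_ne,
          write_self, h19, OfNat.zero_ne_ofNat]
      · rw [s3 0 (by decide), P2.hn]
      · rw [s3 10 (by decide), P2.hq]
      · rw [s3 12 (by decide), P2.hS]
      · rw [s3 18 (by decide), P2.hr]
      · rw [s3 5 (by decide)]; exact P2.hU
      · rw [s3 6 (by decide)]; exact P2.hV
      · simp [(hI i).1]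
      · by_cases h : i = k
        · subst h; simp [(hI i).2, add_assoc]
        · rw [Function.update_of_ne (Fin.val_ne_of_ne h), Function.update_of_ne h]
          simp [(hI i).2]
    · simp [s3 1 (by decide), a2, a1]
    · simp [s3 1 (by decide), a2, a1]

/-- The arrays written by a stage. -/
def lstage : List ℕ := [42, 1, 7, 8] ++ lsample

theorem stage_spec (hS : Setup M₁ M₂ r) {Q : ℕ} (hQ : Q = 2 ^ q) (hn : 256 + n + n ≤ Q)
    (hu : ∀ i, u i ≤ 2 * Q ^ 4) (hu2 : ∀ i, 2 ≤ u i) (ht : ∀ i, t i ≤ Q ^ 2) {o k : Fin n}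
    (ho : o.val = 0) {m : Mem} (hP : Par q (4 * q) r U V u t m) (hk : m 19 0 = k)
    (hT : m 15 0 = Q ^ 20) (hM : m 16 0 = Q ^ 12) (hthr : m 17 0 = Q ^ 8) {σ : St n}
    (hσ : Rep m σ) (hv : lift (Gm M₁ M₂) (ms σ) = 1) :
    W M₁ M₂ stage (2 * Q ^ 38) (fun m' y => ∃ σ' u', Rep m' σ' ∧ lift (Gm M₁ M₂) (ms σ') = 1 ∧
      Par q (4 * q) r U V u' (Function.update t k (t k + 1)) m' ∧
      (∀ i, u i ≤ u' i + 2 ∧ u' i ≤ u i + 2) ∧
      (((GoodU (Gm M₁ M₂) U V u t o → GoodU (Gm M₁ M₂) U V u' (Function.update t k (t k + 1)) o ∧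
        ∃ a b : ℕ, 0 < b ∧ m' 1 0 = a * m 1 0 ∧ m' 1 1 = b * m 1 1 ∧
          Near (40 / (Q : ℝ) ^ 5) (a * Z (Aw U V t) (Gm M₁ M₂))
            (b * Z (Aw U V (Function.update t k (t k + 1))) (Gm M₁ M₂))) ∧ 0 ≤ y) ∨ 1 ≤ y)) m
      (Q * Real.exp (-(Q : ℝ) ^ 2)) := by
  have p1 : Q ≤ Q ^ 12 := Nat.le_self_pow (by norm_num) _
  have p2 : Q ^ 12 ≤ Q ^ 37 := Nat.pow_le_pow_right (by omega) (by norm_num)
  have p3 : 256 * Q ^ 37 ≤ Q ^ 38 := by rw [pow_succ' Q 37]; gcongr; omega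
  refine W.seqL ((sample_spec hS hQ hn hu ht ho hP hk hT hM hσ hv).mono
    fun m1 y ⟨⟨σ', r1, v1, c1, hy⟩, s1⟩ => ?_) (by omega)
  refine ((adjust_spec (hP.same s1 (by decide)) hu2 ho (k := k) (by rw [s1 19 (by decide), hk])
    (thr := Q ^ 8) (by rw [s1 17 (by decide), hthr])).time (by omega)).toW
    fun m2 ⟨⟨P2, a1, a2⟩, s2⟩ => ⟨σ', _, r1.same s2 (by decide), v1, P2, fun i => ?_, ?_⟩
  · unfold newU; split_ifs <;> omega
  · split_ifs at hy with hacc
    · refine Or.inl ⟨fun hU => ?_, hy⟩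
      have hn' : 256 + (n : ℝ) + n ≤ Q := by exact_mod_cast hn
      have hn0 : (0 : ℝ) ≤ n := Nat.cast_nonneg n
      have hQ0 : (0 : ℝ) < Q := by linarith
      have hQ' : (2 : ℝ) ^ q = Q := by rw [hQ]; push_cast; rfl
      have hK : ((1 : ℝ) / 2) ^ (4 * q) = 1 / Q ^ 4 := by
        rw [one_div_pow, mul_comm, pow_mul, hQ']
      have hne : ∃ s, Gm M₁ M₂ s ≠ 0 := ⟨_, by rw [lift] at hv; rw [hv]; exact one_ne_zero⟩
      have hSb : 2 ^ 17 * (n : ℝ) ^ 2 * (1 / 2) ^ (4 * q) ≤ 1 := by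
        rw [hK, mul_one_div, div_le_one (by positivity)]
        have b1 : (n : ℝ) ^ 2 ≤ (Q / 2) ^ 2 := by gcongr; linarith
        have b2 : (256 : ℝ) ^ 2 * Q ^ 2 ≤ Q ^ 2 * Q ^ 2 := by gcongr; linarith
        nlinarith
      have b3 : (256 : ℝ) * Q ^ 4 ≤ Q * Q ^ 4 := by gcongr; linarith
      have b4 : (1 : ℝ) ≤ Q ^ 4 := one_le_pow₀ (by linarith)
      have hQp : 0 < Q ^ 12 := by omega
      refine ⟨stage_goodU hS.good hne hU hSb hu2 hQp ?_ ?_ hacc, ?_⟩
      · rw [hK]; push_cast; field_simp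
      · rw [hK, ← mul_assoc, mul_one_div, div_le_div_iff₀ (by positivity) (by positivity)]
        nlinarith
      · obtain ⟨c2, c3⟩ := stage_ratio hS.good hne hU hSb hQp (by positivity) (by
          rw [mul_one_div, div_le_div_iff₀ (by positivity) (by positivity)]
          nlinarith) hacc
        simp only [ho] at c2 c3
        refine ⟨m1 9 0 + m1 9 0 - m1 20 0, m1 9 0 + m1 9 0, by omega, ?_, ?_, ?_⟩
        · rw [a1, s1 1 (by decide)]
        · rw [a2, s1 1 (by decide)]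
        · convert c3 using 1; ring
    · exact Or.inr hy

end Vale.Agent.P317
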