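import Vale.Agent.P317.Spec2

/-! Specifications of an annealing run and of the preparation routines. -/

namespace Vale.Agent.P317

open Finset

variable {n : ℕ} {M₁ M₂ : Matroid (Fin n)}
variable {q r : ℕ} {U V : Fin n → Fin (n + n)}

/-- The annealing schedule. -/
def tf (L k l : ℕ) (i : Fin n) : ℕ := if i.val < k then L else if i.val = k then l else 0

/-- The invariant of an annealing run. -/
def Inv (M₁ M₂ : Matroid (Fin n)) (q r Q : ℕ) (U V : Fin n → Fin (n + n)) (κ η₀ x₁ : ℝ) (k l : ℕ)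
    (m : Mem) (y : ℝ) : Prop :=
  ∃ (σ : St n) (u : Fin n → ℕ), Rep m σ ∧ lift (Gm M₁ M₂) (ms σ) = 1 ∧
    Par q (4 * q) r U V u (tf (Q ^ 2) k l) m ∧
    (∀ i, Q ^ 4 ≤ u i + 2 * (k * Q ^ 2 + l) ∧ u i ≤ Q ^ 4 + 2 * (k * Q ^ 2 + l)) ∧
    (((∀ o : Fin n, o.val = 0 → GoodU (Gm M₁ M₂) U V u (tf (Q ^ 2) k l) o) ∧ 0 < m 1 1 ∧
      Near (η₀ + (k * Q ^ 2 + l) * (40 / (Q : ℝ) ^ 5)) (m 1 0 * κ)
        (Z (Aw U V (tf (Q ^ 2) k l)) (Gm M₁ M₂) * m 1 1) ∧
      (n * Q ^ 2 - (k * Q ^ 2 + l)) * (Q * Real.exp (-(Q : ℝ) ^ 2)) + x₁ ≤ y) ∨ 1 ≤ y)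

theorem Inv.write {Q : ℕ} {κ η₀ x₁ : ℝ} {k l : ℕ} {m : Mem} {y : ℝ}
    (h : Inv M₁ M₂ q r Q U V κ η₀ x₁ k l m y) {a : ℕ} (ha : a = 22 ∨ a = 19) (z : ℕ) :
    Inv M₁ M₂ q r Q U V κ η₀ x₁ k l (m.write a 0 z) y := by
  obtain ⟨σ, u, h1, h2, h3, h4, h5⟩ := h
  have s : Same [22, 19] m (m.write a 0 z) :=
    (Same.refl _ _).write (by rcases ha with rfl | rfl <;> simp) _ _
  refine ⟨σ, u, h1.same s (by decide), h2, h3.same s (by decide), h4, ?_⟩
  rw [s 1 (by decide)]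
  exact h5

theorem inv_stage (hS : Setup M₁ M₂ r) {Q : ℕ} (hQ : Q = 2 ^ q) (hn : 256 + n + n ≤ Q)
    {κ η₀ x₁ : ℝ} (hx₁ : 0 ≤ x₁) {k l : ℕ} (hk : k < n) (hl : l < Q ^ 2) {m : Mem} {x : ℝ}
    (h19 : m 19 0 = k) (hT : m 15 0 = Q ^ 20) (hM : m 16 0 = Q ^ 12) (hthr : m 17 0 = Q ^ 8)
    (h : Inv M₁ M₂ q r Q U V κ η₀ x₁ k l m x) :
    W M₁ M₂ stage (2 * Q ^ 38) (Inv M₁ M₂ q r Q U V κ η₀ x₁ k (l + 1)) m x := by
  obtain ⟨σ, u, h1, h2, h3, h4, h5⟩ := h
  have j1 : k * Q ^ 2 + l + 1 ≤ n * Q ^ 2 := by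
    have : (k + 1) * Q ^ 2 ≤ n * Q ^ 2 := Nat.mul_le_mul_right _ hk
    rw [add_mul] at this; omega
  have j2 : 2 * (n * Q ^ 2) ≤ Q ^ 4 := by
    have a1 : 2 * (n * Q ^ 2) = (n + n) * Q ^ 2 := by ring
    have a2 : Q ^ 4 = Q ^ 2 * Q ^ 2 := by ring
    have a3 : Q ≤ Q ^ 2 := Nat.le_self_pow (by norm_num) _
    rw [a1, a2]; gcongr; omega
  have ht : ∀ i : Fin n, tf (Q ^ 2) k l i ≤ Q ^ 2 := fun i => by unfold tf; split_ifs <;> omega
  have e : Function.update (tf (Q ^ 2) k l) (⟨k, hk⟩ : Fin n) (tf (Q ^ 2) k l (⟨k, hk⟩ : Fin n) + 1)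
      = tf (Q ^ 2) k (l + 1) := by
    funext i
    by_cases hi : i = ⟨k, hk⟩
    · subst hi; simp [tf]
    · have : i.val ≠ k := fun h => hi (Fin.ext h)
      simp [Function.update_of_ne hi, tf, this]
  have key := stage_spec hS hQ hn (u := u) (fun i => by have := h4 i; omega)
    (fun i => by have := h4 i; omega) ht (o := ⟨0, by omega⟩) (k := ⟨k, hk⟩) rfl h3 h19 hT hM hthr
    h1 h2
  rw [e] at key
  rcases h5 with ⟨g1, g2, g3, g4⟩ | h5
  · have hd : 0 ≤ ((n : ℝ) * Q ^ 2 - (k * Q ^ 2 + (l + 1 : ℕ))) *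
        (Q * Real.exp (-(Q : ℝ) ^ 2)) + x₁ := by
      have : ((k * Q ^ 2 + l + 1 : ℕ) : ℝ) ≤ (n * Q ^ 2 : ℕ) := by exact_mod_cast j1
      push_cast at this ⊢
      have : 0 ≤ (n : ℝ) * Q ^ 2 - (k * Q ^ 2 + (l + 1)) := by linarith
      positivity
    refine ((key.shift (((n : ℝ) * Q ^ 2 - (k * Q ^ 2 + (l + 1 : ℕ))) *
      (Q * Real.exp (-(Q : ℝ) ^ 2)) + x₁)).up (by push_cast; linarith)).mono
      fun m' y ⟨σ', u', b1, b2, b3, b4, b5⟩ => ⟨σ', u', b1, b2, b3,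
        fun i => by have := h4 i; have := b4 i; omega, ?_⟩
    rcases b5 with ⟨b5, b6⟩ | b5
    · obtain ⟨c1, a, b, c2, c3, c4, c5⟩ := b5 (g1 _ rfl)
      have hne : ∃ s, Gm M₁ M₂ s ≠ 0 := ⟨_, by rw [lift] at h2; rw [h2]; exact one_ne_zero⟩
      refine Or.inl ⟨fun o ho => ?_, by rw [c4]; positivity, ?_, by linarith⟩
      · have : o = ⟨0, by omega⟩ := Fin.ext ho
        rw [this]; exact c1
      · have z1 := Z_pos hS.good hne (Aw_pos U V (tf (Q ^ 2) k l))
        have z2 := Z_pos hS.good hne (Aw_pos U V (tf (Q ^ 2) k (l + 1)))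
        have := g3.mul c5 (by positivity) (by positivity)
        refine Near.cancel ?_ z1
        rw [c3, c4]
        push_cast
        convert this using 1 <;> ring
    · exact Or.inr (by linarith)
  · exact ((key.const 1).up h5).mono fun m' y ⟨⟨_, σ', u', b1, b2, b3, b4, _⟩, hy⟩ =>
      ⟨σ', u', b1, b2, b3, fun i => by have := h4 i; have := b4 i; omega, Or.inr hy⟩

/-- The arrays written by an annealing run. -/
def lphase : List ℕ := [19, 22] ++ lstage

theorem phase_spec (hS : Setup M₁ M₂ r) {Q : ℕ} (hQ : Q = 2 ^ q) (hn : 256 + n + n ≤ Q)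
    {m : Mem} (h0 : m 0 0 = n) (h10 : m 10 0 = q) (h12 : m 12 0 = 4 * q) (h18 : m 18 0 = r)
    (h5 : ∀ i : Fin n, m 5 i = U i) (h6 : ∀ i : Fin n, m 6 i = V i) (h13 : m 13 0 = Q ^ 2)
    (h14 : m 14 0 = Q ^ 4) (hT : m 15 0 = Q ^ 20) (hM : m 16 0 = Q ^ 12) (hthr : m 17 0 = Q ^ 8)
    {σ : St n} (hσ : Rep m σ) (hv : lift (Gm M₁ M₂) (ms σ) = 1) {κ η₀ x₁ x : ℝ} (hx₁ : 0 ≤ x₁)
    (hx : (0 < m 1 1 ∧ Near η₀ (m 1 0 * κ) (Z (fun (_ : Fin n) _ => 1) (Gm M₁ M₂) * m 1 1) ∧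
      n * Q ^ 2 * (Q * Real.exp (-(Q : ℝ) ^ 2)) + x₁ ≤ x) ∨ 1 ≤ x) :
    W M₁ M₂ phase (Q ^ 42) (fun m' y => (∃ σ', Rep m' σ' ∧ lift (Gm M₁ M₂) (ms σ') = 1 ∧
      ((0 < m' 1 1 ∧ Near (η₀ + n * Q ^ 2 * (40 / (Q : ℝ) ^ 5)) (m' 1 0 * κ)
        (Z (Aw U V fun _ => Q ^ 2) (Gm M₁ M₂) * m' 1 1) ∧ x₁ ≤ y) ∨ 1 ≤ y)) ∧
      Same lphase m m') m x := by
  refine W.frame _ (by decide) ?_
  have p1 : Q ≤ Q ^ 38 := Nat.le_self_pow (by norm_num) _
  have p2 : Q ≤ Q ^ 40 := Nat.le_self_pow (by norm_num) _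
  have p3 : Q ≤ Q ^ 41 := Nat.le_self_pow (by norm_num) _
  have p4 : 256 * Q ^ 41 ≤ Q ^ 42 := by rw [pow_succ' Q 41]; gcongr; omega
  have t1 : Q ^ 2 * (2 * Q ^ 38 + 3) ≤ 3 * Q ^ 40 := by
    have : 3 * Q ^ 40 = Q ^ 2 * (3 * Q ^ 38) := by ring
    rw [this]; gcongr; omega
  have t2 : n * (4 * Q ^ 40 + 3) ≤ 5 * Q ^ 41 := by
    have : 5 * Q ^ 41 = Q * (5 * Q ^ 40) := by ring
    rw [this]; gcongr <;> omega
  refine W.seqL ((D.forS (i := 25) (bound := eN)
    (body := .seq (.assign 7 (sv 25) (sv 14)) (.assign 8 (sv 25) (sv 14))) (t := 3)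
    [7, 8] n (fun j m' => ∀ i < j, m' 7 i = Q ^ 4 ∧ m' 8 i = Q ^ 4) (by decide) (by simp)
    (fun m' hs => by simp [eN, sv, Expr.eval, hs 0 (by decide), h0])
    (fun j m' y hI => by simpa using hI) (by simp)
    (fun j m' hj hs hi hI => ?_) (fun m1 hs hI => (⟨hs, hI⟩ :
      Same [25, 7, 8] m m1 ∧ ∀ i < n, m1 7 i = Q ^ 4 ∧ m1 8 i = Q ^ 4))).toW
    fun m1 ⟨s1, a1⟩ => ?_) (by omega)
  · refine D.seqA (D.assignT (fun i hi' => ?_) (by omega)) (by omega)
    simp only [Expr.eval, sv, hi, write_self, ne_eq, Nat.reduceEqDiff, not_false_eq_true, write_ne,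
      hs 14 (by decide), h14]
    by_cases h : i = j
    · subst h; simp
    · rw [Function.update_of_ne h, Function.update_of_ne h]; exact hI i (by omega)
  have e0 : tf (Q ^ 2) 0 0 = fun _ : Fin n => 0 := by funext i; simp [tf]
  have eA : Aw U V (fun _ : Fin n => 0) = fun _ _ => 1 := by funext i y; simp [Aw]
  refine (W.forS (t := 4 * Q ^ 40) (22 :: lstage) n
    (fun k m' y => Inv M₁ M₂ q r Q U V κ η₀ x₁ k 0 m' y) (by decide) (by decide)
    (fun m' hs => by simp [eN, sv, Expr.eval, hs 0 (by decide), s1 0 (by decide), h0])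
    (fun j m' x y h => h.write (Or.inr rfl) y) ⟨σ, fun _ => Q ^ 4, hσ.same s1 (by decide), hv,
      ⟨by rw [s1 0 (by decide), h0], by rw [s1 10 (by decide), h10], by rw [s1 12 (by decide), h12],
        by rw [s1 18 (by decide), h18], by rw [s1 5 (by decide)]; exact h5,
        by rw [s1 6 (by decide)]; exact h6, fun i => (a1 i i.2).1,
        fun i => by rw [e0]; exact (a1 i i.2).2⟩, fun i => by simp, ?_⟩
    (fun k m2 x hk s2 h19 hI => ?_) (fun m' x hs ⟨σ', u, b1, b2, b3, b4, b5⟩ =>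
      ⟨σ', b1, b2, ?_⟩)).time (by omega)
  · rw [s1 1 (by decide), e0, eA]
    refine hx.imp (fun ⟨c1, c2, c3⟩ => ⟨fun o _ i => ?_, c1, by simpa using c2, by simpa using c3⟩) id
    have : Function.update (Bw U V (fun _ => Q ^ 4) fun _ => 0) i
        (Bw U V (fun _ => Q ^ 4) (fun _ => 0) o) = Bw U V (fun _ => Q ^ 4) fun _ => 0 := by
      rw [Function.update_eq_self_iff]
      funext y; simp [Bw, eA]
    rw [this]
    have := Z_nonneg (C := Bw U V (fun _ => Q ^ 4) fun _ => 0) (fun k y => (Bw_pos k y).le)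
      hS.good.nonneg
    constructor <;> linarith
  · refine (W.forS (t := 2 * Q ^ 38) lstage (Q ^ 2)
      (fun l m' y => Inv M₁ M₂ q r Q U V κ η₀ x₁ k l m' y) (by decide) (by decide)
      (fun m' hs => by
        simp [sv, Expr.eval, hs 13 (by decide), s2 13 (by decide), s1 13 (by decide), h13])
      (fun j m' x y h => h.write (Or.inl rfl) y) hI (fun l m3 x hl s3 _ hI => ?_)
      (fun m' x hs ⟨σ', u, b1, b2, b3, b4, b5⟩ => ?_)).time (by omega)
    · exact inv_stage hS hQ hn hx₁ hk hl (by rw [s3 19 (by decide), h19])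
        (by rw [s3 15 (by decide), s2 15 (by decide), s1 15 (by decide), hT])
        (by rw [s3 16 (by decide), s2 16 (by decide), s1 16 (by decide), hM])
        (by rw [s3 17 (by decide), s2 17 (by decide), s1 17 (by decide), hthr]) hI
    · have e1 : tf (Q ^ 2) (k + 1) 0 = (tf (Q ^ 2) k (Q ^ 2) : Fin n → ℕ) := by
        funext i; unfold tf; split_ifs <;> omega
      have e2 : (k + 1) * Q ^ 2 + 0 = k * Q ^ 2 + Q ^ 2 := by ring
      have e3 : ((k + 1 : ℕ) : ℝ) * Q ^ 2 + (0 : ℕ) = k * Q ^ 2 + (Q ^ 2 : ℕ) := by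
        push_cast; ring
      refine ⟨σ', u, b1, b2, ?_⟩
      rw [e1, e2, e3]
      exact ⟨b3, b4, b5⟩
  · have e1 : tf (Q ^ 2) n 0 = fun _ : Fin n => Q ^ 2 := by funext i; simp [tf]
    rw [e1] at b5
    exact b5.imp (fun ⟨_, c1, c2, c3⟩ => ⟨c1, by simpa using c2, by simpa using c3⟩) id

theorem mulc_eval (c : ℕ) (e : Expr) (m : Mem) : (mulc c e).eval m = c * e.eval m := by
  induction c with
  | zero => simp [mulc, Expr.eval]
  | succ c ih => simp only [mulc, Expr.eval, ih]; ring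

theorem powQ_spec {d c : ℕ} (hd : d ∉ [25, 10]) {m : Mem} (hq : m 10 0 = q) :
    D M₁ M₂ (powQ d c) (c * q * 4 + 5) m fun m' => m' d 0 = (2 ^ q) ^ c ∧ Same [25, d] m m' := by
  simp only [List.mem_cons, List.not_mem_nil, or_false, not_or] at hd
  obtain ⟨h25, h10⟩ := hd
  refine D.frame _ (by simp [powQ, forS, setv, Stmt.writes]) ?_
  refine D.seqV ((D.forS (t := 1) [d] (c * q) (fun j m' => m' d 0 = 2 ^ j)
    (by simp [setv, Stmt.writes]) (by simp [Ne.symm h25]) (fun m' hs => ?_)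
    (fun j m' y hI => by simpa [h25] using hI) (by simp [Expr.eval])
    (fun j m' hj hs hi hI => ?_) (fun m' hs hI => ?_)).time (by omega)) (by omega)
  · rw [mulc_eval]
    simp only [sv, Expr.eval]
    rw [hs 10 (by simp [Ne.symm h10]), write_ne _ (Ne.symm h10), hq]
  · refine D.assign ?_
    simp only [Expr.eval, sv, write_self, Function.update_self, hI]; ring
  · rw [hI, ← pow_mul, mul_comm]

theorem baseP_spec {m : Mem} {a b c d : ℕ} (h0 : m 0 0 = n) (h1 : m 0 1 = a) (h2 : m 0 2 = b)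
    (h3 : m 0 3 = c) (h4 : m 0 4 = d) (ha : 0 < a) (hc : 0 < c) :
    D M₁ M₂ baseP ((b / a + 1) * 4 + (Nat.log 2 (d / c) + 1) * 4 + 9) m fun m' =>
      (∃ k l, m' 43 0 = n + n + 256 + k + l ∧ b ≤ k * a ∧ d ≤ 2 ^ l * c ∧ k ≤ b / a + 1 ∧
        l ≤ Nat.log 2 (d / c) + 1) ∧ Same [43, 44] m m' := by
  refine D.frame _ (by decide) ?_
  refine D.seqV (D.seqV ?_ (by omega)) (by omega)
  refine D.seqL (D.loop (t := 3) (fun j m' => m' 0 = m 0 ∧ ∃ k, m' 44 0 = k * a ∧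
      m' 43 0 = n + n + 256 + k ∧ k + j = b / a + 1) (fun j m1 ⟨e1, k, g1, g2, g3⟩ hc1 => ?stop)
    (fun m' ⟨e1, k, g1, g2, g3⟩ => ?zero) (fun j m' ⟨e1, k, g1, g2, g3⟩ _ => ?next) (b / a + 1) _
    ⟨by simp, 0, by simp [Expr.eval], by simp [Expr.eval, eN, sv, h0], by simp⟩) (by omega)
  case stop =>
    simp only [Expr.eval, sv, e1, h2, g1] at hc1
    refine D.seqV ((D.loop (t := 3) (fun j m' => m' 0 = m 0 ∧ ∃ l, m' 44 0 = 2 ^ l * c ∧
        m' 43 0 = n + n + 256 + k + l ∧ l + j = Nat.log 2 (d / c) + 1)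
      (fun j m2 ⟨e2, l, f1, f2, f3⟩ hc2 => ?stop2) (fun m' ⟨e2, l, f1, f2, f3⟩ => ?zero2)
      (fun j m' ⟨e2, l, f1, f2, f3⟩ _ => ?next2) (Nat.log 2 (d / c) + 1) _
      ⟨by simp [e1], 0, by simp [Expr.eval, e1, h3], by simp [g2], by simp⟩).time (by omega))
      (by omega)
    case stop2 =>
      simp only [Expr.eval, sv, e2, h4, f1] at hc2
      exact ⟨k, l, f2, by omega, by omega, by omega, by omega⟩
    case zero2 =>
      simp only [Expr.eval, sv, e2, h4, f1]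
      have a1 : d / c < 2 ^ l := by
        rw [add_zero] at f3; rw [f3]; exact Nat.lt_pow_succ_log_self (by norm_num) _
      have a2 := (Nat.div_lt_iff_lt_mul hc).1 a1
      omega
    case next2 =>
      refine D.seqV (D.setv ⟨by simp [e2], l + 1, ?_, ?_, by omega⟩ (by omega)) (by omega)
      · simp [Expr.eval, sv, f1]; ring
      · simp [Expr.eval, sv, f2]; ring
  case zero =>
    simp only [Expr.eval, sv, e1, h2, g1]
    have a1 : b / a < k := by omega
    have a2 := (Nat.div_lt_iff_lt_mul ha).1 a1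
    omega
  case next =>
    refine D.seqV (D.setv ⟨by simp [e1], k + 1, ?_, ?_, by omega⟩ (by omega)) (by omega)
    · simp [Expr.eval, sv, g1, e1, h1]; ring
    · simp [Expr.eval, sv, g2]; ring

theorem params_spec {m : Mem} {a b c d X : ℕ} (h0 : m 0 0 = n) (h1 : m 0 1 = a) (h2 : m 0 2 = b)
    (h3 : m 0 3 = c) (h4 : m 0 4 = d) (ha : 0 < a) (hc : 0 < c)
    (hX : X = n + n + 256 + (b / a + 1) + (Nat.log 2 (d / c) + 1)) :
    D M₁ M₂ params (X * 400) m fun m' =>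
      (∃ q Q, Q = 2 ^ q ∧ 256 + n + n ≤ Q ∧ Q ≤ 2 * X ∧ b ≤ Q * a ∧ d ≤ 2 ^ Q * c ∧
        m' 10 0 = q ∧ m' 12 0 = 4 * q ∧ m' 13 0 = Q ^ 2 ∧ m' 14 0 = Q ^ 4 ∧ m' 15 0 = Q ^ 20 ∧
        m' 16 0 = Q ^ 12 ∧ m' 17 0 = Q ^ 8) ∧
      Same [43, 44, 10, 11, 12, 13, 14, 15, 16, 17, 25] m m' := by
  refine D.frame _ (by decide) ?_
  refine D.seqL ((baseP_spec h0 h1 h2 h3 h4 ha hc).mono fun m1 ⟨⟨k, l, g1, g2, g3, g4, g5⟩, _⟩ =>
    D.seqV (D.seqV ?_ (by omega)) (by omega)) (by omega)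
  set B := n + n + 256 + k + l with hB
  refine D.seqL (D.loop (t := 3) (fun j m' => m' 43 0 = B ∧ ∃ q, m' 11 0 = 2 ^ q ∧
      m' 10 0 = q ∧ q + j = X ∧ 2 ^ q ≤ 2 * B) (fun j m2 ⟨e1, q, f1, f2, f3, f4⟩ hc1 => ?stop)
    (fun m' ⟨e1, q, f1, f2, f3, f4⟩ => ?zero) (fun j m' ⟨e1, q, f1, f2, f3, f4⟩ hc1 => ?next) X _
    ⟨by simp [g1], 0, by simp [Expr.eval], by simp [Expr.eval], by simp, by omega⟩) (by omega)
  case stop =>
    simp only [Expr.eval, sv, e1, f1] at hc1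
    refine D.seqV ?_ (by omega)
    rw [mulc_eval]
    simp only [sv, Expr.eval, f2]
    set m3 := m2.write 12 0 (4 * q) with hm3
    have a3 : m3 10 0 = q := by simp [hm3, f2]
    have b3 : m3 12 0 = 4 * q := by simp [hm3]
    refine D.seqL ((powQ_spec (by decide) a3).mono fun m4 ⟨b4, s4⟩ => ?_) (by omega)
    have a4 : m4 10 0 = q := by rw [s4 10 (by decide), a3]
    refine D.seqL ((powQ_spec (by decide) a4).mono fun m5 ⟨b5, s5⟩ => ?_) (by omega)
    have a5 : m5 10 0 = q := by rw [s5 10 (by decide), a4]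
    refine D.seqL ((powQ_spec (by decide) a5).mono fun m6 ⟨b6, s6⟩ => ?_) (by omega)
    have a6 : m6 10 0 = q := by rw [s6 10 (by decide), a5]
    refine D.seqL ((powQ_spec (by decide) a6).mono fun m7 ⟨b7, s7⟩ => ?_) (by omega)
    have a7 : m7 10 0 = q := by rw [s7 10 (by decide), a6]
    refine ((powQ_spec (by decide) a7).mono fun m8 ⟨b8, s8⟩ => ?_).time (by omega)
    refine ⟨q, 2 ^ q, rfl, by omega, by omega, g2.trans (Nat.mul_le_mul_right _ (by omega)),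
      g3.trans (Nat.mul_le_mul_right _ (Nat.pow_le_pow_right (by norm_num) (by omega))),
      by rw [s8 10 (by decide), a7], ?_, ?_, ?_, ?_, ?_, b8⟩
    · rw [s8 12 (by decide), s7 12 (by decide), s6 12 (by decide), s5 12 (by decide),
        s4 12 (by decide), b3]
    · rw [s8 13 (by decide), s7 13 (by decide), s6 13 (by decide), s5 13 (by decide), b4]
    · rw [s8 14 (by decide), s7 14 (by decide), s6 14 (by decide), b5]
    · rw [s8 15 (by decide), s7 15 (by decide), b6]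
    · rw [s8 16 (by decide), b7]
  case zero =>
    simp only [Expr.eval, sv, e1, f1]
    have := Nat.lt_two_pow_self (n := q)
    omega
  case next =>
    simp only [Expr.eval, sv, e1, f1] at hc1
    refine D.seqV (D.setv ⟨by simp [e1], q + 1, ?_, ?_, by omega, by omega⟩ (by omega)) (by omega)
    · simp [Expr.eval, sv, f1]; ring
    · simp [Expr.eval, sv, f2]

theorem greedy_spec {second : Bool} {off : Expr} {o : ℕ} {m : Mem} (h0 : m 0 0 = n)
    (hoff : ∀ m' : Mem, m' 0 = m 0 → off.eval m' = o) (hz : ∀ e < n, m 4 (o + e) = 0) :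
    D M₁ M₂ (greedy second off) (n * 8 + 3) m fun m' =>
      ((if second then M₂ else M₁).IsBase {e : Fin n | m' 4 (o + e) ≠ 0} ∧
        (∀ e < n, m' 4 (o + e) ≤ 1) ∧ ∀ y, y < o ∨ o + n ≤ y → m' 4 y = m 4 y) ∧
      Same [25, 4, 35] m m' := by
  classical
  refine D.frame _ (by simp [greedy, forS, setv, Stmt.writes]) ?_
  set M := if second then M₂ else M₁ with hM
  refine D.forS (t := 5) [4, 35] n (fun j m' => M.Indep {e : Fin n | m' 4 (o + e) ≠ 0} ∧
      (∀ e, j ≤ e → e < n → m' 4 (o + e) = 0) ∧ (∀ e < n, m' 4 (o + e) ≤ 1) ∧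
      (∀ e : Fin n, e.val < j → m' 4 (o + e) = 0 →
        ¬M.Indep (insert e {e : Fin n | m' 4 (o + e) ≠ 0})) ∧
      ∀ y, y < o ∨ o + n ≤ y → m' 4 y = m 4 y)
    (by simp [Stmt.writes]) (by simp)
    (fun m' hs => by simp [eN, sv, Expr.eval, hs 0 (by decide), h0])
    (fun j m' y hI => by simpa using hI) ⟨?_, fun e _ he => hz e he, fun e he => by simp [hz e he],
      by simp, by simp⟩ (fun j m' hj hs hi ⟨g1, g2, g3, g4, g5⟩ => ?_)
    (fun m' hs ⟨g1, g2, g3, g4, g5⟩ => ⟨?_, g3, g5⟩)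
  · have : {e : Fin n | m 4 (o + e) ≠ 0} = ∅ := by ext e; simp [hz e e.2]
    rw [this]; exact M.empty_indep
  · have e0 : m' 0 = m 0 := hs 0 (by decide)
    have hset : ∀ z, z ≠ 0 → {e : Fin n | Function.update (m' 4) (o + j) z (o + e) ≠ 0} =
        insert ⟨j, hj⟩ {e : Fin n | m' 4 (o + e) ≠ 0} := by
      intro z hz
      ext e
      by_cases he : e = ⟨j, hj⟩
      · subst he; simp [hz]
      · have : o + e.val ≠ o + j := fun h => he (Fin.ext (by simp; omega))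
        simp [Function.update_of_ne this, he]
    have hsame : Function.update (m' 4) (o + j) 0 = m' 4 := by
      rw [Function.update_eq_self_iff, g2 j le_rfl hj]
    refine D.seqA (D.seqL (D.query (D.assignT ?_ (by omega))) (by omega)) (by omega)
    have o1 := hoff m' e0
    have o2 := hoff (m'.write 4 (o + j) 1) (by simp [e0])
    have o3 := fun z => hoff ((m'.write 4 (o + j) 1).write 35 0 z) (by simp [e0])
    simp only [Expr.eval, sv, hi, o1, o2, o3, write_self, ne_eq, Nat.reduceEqDiff,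
      not_false_eq_true, write_ne, Function.update_self, Function.update_idem, ← hM]
    simp only [ne_eq] at hset g1 g4
    rw [hset 1 one_ne_zero]
    split_ifs with hind
    · rw [hset 1 one_ne_zero]
      refine ⟨hind, fun e h1 h2 => ?_, fun e h1 => ?_, fun e h1 h2 h3 => ?_, fun y hy => ?_⟩
      · rw [Function.update_of_ne (by omega)]; exact g2 e (by omega) h2
      · by_cases he : e = j
        · subst he; simp
        · rw [Function.update_of_ne (by omega)]; exact g3 e h1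
      · by_cases he : e.val = j
        · rw [he] at h2; simp at h2
        · rw [Function.update_of_ne (by omega)] at h2
          exact g4 e (by omega) h2 (h3.subset (Set.insert_subset_insert (Set.subset_insert _ _)))
      · rw [Function.update_of_ne (by omega)]; exact g5 y hy
    · rw [hsame]
      refine ⟨g1, fun e h1 h2 => g2 e (by omega) h2, g3, fun e h1 h2 => ?_, g5⟩
      by_cases he : e.val = j
      · have : e = ⟨j, hj⟩ := Fin.ext he
        rw [this]; exact hind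
      · exact g4 e (by omega) h2
  · exact g1.isBase_of_forall_insert fun e he => g4 e e.2 (by simpa using he.2)

theorem build_spec (hS : Setup M₁ M₂ r) {m : Mem} (h0 : m 0 0 = n)
    (hB1 : M₁.IsBase {e : Fin n | m 4 e ≠ 0}) (hB2 : M₂.IsBase {e : Fin n | m 4 (n + e) ≠ 0})
    (h1 : ∀ e < n, m 4 e ≤ 1) (h2 : ∀ e < n, m 4 (n + e) ≤ 1) :
    D M₁ M₂ build (n * 12 + 11) m fun m' =>
      (m' 18 0 = r ∧ ∃ y : Fin n → Fin (n + n), (∀ k : Fin n, m' 3 k = y k) ∧
        Gm M₁ M₂ (ms y) = 1) ∧ Same [25, 45, 3, 18] m m' := by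
  classical
  refine D.frame _ (by decide) ?_
  refine D.seqV ?_ (by omega)
  have hs0 : Same [25, 3, 45] m (m.write 45 0 0) := (Same.refl _ _).write (by simp) _ _
  have c1 : ∑ e ∈ range n, m 4 e = r := by
    rw [← hS.r1 _ hB1, ncard_eq_sum fun e => m 4 e ≠ 0]
    refine sum_congr rfl fun e he => ?_
    have := h1 e (mem_range.1 he)
    split_ifs <;> omega
  have c2 : r + ∑ e ∈ range n, (1 - m 4 (n + e)) = n := by
    rw [← hS.r2 _ hB2, ncard_eq_sum fun e => m 4 (n + e) ≠ 0, ← sum_add_distrib]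
    conv_rhs => rw [← card_range n, card_eq_sum_ones]
    refine sum_congr rfl fun e he => ?_
    have := h2 e (mem_range.1 he)
    split_ifs <;> omega
  refine D.seqL (D.forS (t := 3) [3, 45] n (fun j m' => m' 45 0 = ∑ e ∈ range j, m 4 e ∧
      ∀ y, (∃ l < m' 45 0, m' 3 l = y) ↔ (y < j ∧ m 4 y ≠ 0)) (by decide) (by simp)
    (fun m' hs => by simp [eN, sv, Expr.eval, hs 0 (by decide), h0])
    (fun j m' y hI => by simpa using hI) (by simp [Expr.eval])
    (fun j m' hj hs hi ⟨g1, g2⟩ => ?_) (fun m1 s1 ⟨g1, g2⟩ => D.seqV ?_ (by omega))) (by omega)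
  · refine D.seqA (D.setv ?_ (by omega)) (by omega)
    simp only [Expr.eval, sv, hi, write_self, ne_eq, Nat.reduceEqDiff, not_false_eq_true, write_ne,
      Function.update_self, (hs0.trans hs) 4 (by decide), sum_range_succ]
    refine ⟨by rw [g1], fun y => ⟨fun ⟨l, a1, a2⟩ => ?_, fun ⟨a1, a2⟩ => ?_⟩⟩
    · have := h1 j hj
      by_cases hl : l = m' 45 0
      · rw [hl, Function.update_self] at a2
        subst a2; omega
      · rw [Function.update_of_ne hl] at a2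
        have := (g2 y).1 ⟨l, by omega, a2⟩
        exact ⟨by omega, this.2⟩
    · by_cases hy : y = j
      · subst hy; exact ⟨m' 45 0, by omega, by simp⟩
      · obtain ⟨l, b1, b2⟩ := (g2 y).2 ⟨by omega, a2⟩
        exact ⟨l, by omega, by rw [Function.update_of_ne (by omega)]; exact b2⟩
  simp only [Expr.eval, sv]
  rw [g1, c1]
  rw [c1] at g1
  set m2 := m1.write 18 0 r with hm2
  have s2 : Same [25, 3, 45, 18] m m2 := ((hs0.trans s1).mono (by decide)).write (by simp) _ _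
  refine (D.forS (t := 3) [3, 45] n (fun j m' => m' 45 0 = r + ∑ e ∈ range j, (1 - m 4 (n + e)) ∧
      ∀ y, (∃ l < m' 45 0, m' 3 l = y) ↔ ((y < n ∧ m 4 y ≠ 0) ∨ (n ≤ y ∧ y < n + j ∧ m 4 y = 0)))
    (by decide) (by simp)
    (fun m' hs => by simp [eN, sv, Expr.eval, hs 0 (by decide), s2 0 (by decide), h0])
    (fun j m' y hI => by simpa using hI) ⟨by simp [hm2, g1], fun y => ?_⟩
    (fun j m' hj hs hi ⟨f1, f2⟩ => ?_) (fun m3 s3 ⟨f1, f2⟩ => ⟨?_, ?_⟩)).time (by omega)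
  · simp only [hm2, ne_eq, Nat.reduceEqDiff, not_false_eq_true, write_ne]
    rw [g2 y]
    constructor
    · exact Or.inl
    · rintro (h | h)
      · exact h
      · omega
  · refine D.seqA (D.setv ?_ (by omega)) (by omega)
    simp only [Expr.eval, sv, eN, hi, write_self, ne_eq, Nat.reduceEqDiff, not_false_eq_true,
      write_ne, Function.update_self, hs 4 (by decide), s2 4 (by decide), hs 0 (by decide),
      s2 0 (by decide), h0, sum_range_succ, OfNat.zero_ne_ofNat]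
    refine ⟨by rw [f1, add_assoc], fun y => ⟨fun ⟨l, a1, a2⟩ => ?_, fun a => ?_⟩⟩
    · by_cases hl : l = m' 45 0
      · rw [hl, Function.update_self] at a2
        subst a2; omega
      · rw [Function.update_of_ne hl] at a2
        have := (f2 y).1 ⟨l, by omega, a2⟩
        omega
    · by_cases hy : y = n + j
      · subst hy; exact ⟨m' 45 0, by omega, by simp⟩
      · obtain ⟨l, b1, b2⟩ := (f2 y).2 (by omega)
        exact ⟨l, by omega, by rw [Function.update_of_ne (by omega)]; exact b2⟩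
  · rw [s3 18 (by decide)]; simp [hm2]
  · rw [c2] at f1
    rw [f1] at f2
    have hlt : ∀ k : Fin n, m3 3 k < n + n := fun k => by
      have := (f2 _).1 ⟨k, k.2, rfl⟩
      omega
    refine ⟨fun k => ⟨m3 3 k, hlt k⟩, fun k => rfl, ?_⟩
    have e1 : S1 (ms fun k : Fin n => (⟨m3 3 k, hlt k⟩ : Fin (n + n))) =
        {e : Fin n | m 4 e ≠ 0} := by
      ext e
      simp only [S1, mem_ms, Set.mem_ofPred_eq, Fin.ext_iff, Fin.val_castAdd]
      constructor
      · rintro ⟨k, hk⟩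
        have := (f2 e).1 ⟨k, k.2, hk⟩
        omega
      · intro h
        obtain ⟨l, b1, b2⟩ := (f2 e).2 (Or.inl ⟨e.2, h⟩)
        exact ⟨⟨l, b1⟩, b2⟩
    have e2 : S2 (ms fun k : Fin n => (⟨m3 3 k, hlt k⟩ : Fin (n + n))) =
        {e : Fin n | m 4 (n + e) ≠ 0} := by
      ext e
      simp only [S2, mem_ms, Set.mem_ofPred_eq, Fin.ext_iff, Fin.val_natAdd]
      constructor
      · intro h h'
        obtain ⟨l, b1, b2⟩ := (f2 (n + e)).2 (Or.inr ⟨by omega, by omega, h'⟩)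
        exact h ⟨⟨l, b1⟩, b2⟩
      · rintro h ⟨k, hk⟩
        have := (f2 (n + e)).1 ⟨k, k.2, hk⟩
        omega
    rw [Gm, e1, e2, if_pos ⟨ms_card _, hB1, hB2⟩]

end Vale.Agent.P317
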